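import Crest.Agent.R30.Defs

set_option autoImplicit false

open Finset
open scoped BigOperators Classical
open Crest.CombinatoricsR.TriangleRemoval

namespace Crest.Agent.R30

namespace BLX

/-- increments of `s ^ p` -/
def dd (p s : ℕ) : ℝ := ((s : ℝ) + 1) ^ p - (s : ℝ) ^ p

theorem dd_nonneg (p s : ℕ) : 0 ≤ dd p s :=
  sub_nonneg.2 (pow_le_pow_left₀ (by positivity) (by linarith) p)

theorem dd_one (s : ℕ) : dd 1 s = 1 := by simp [dd]

theorem sum_dd {p : ℕ} (hp : 1 ≤ p) (L m : ℕ) :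
    ∑ s ∈ range L, dd p s * ind (s < m) = ((min L m : ℕ) : ℝ) ^ p := by
  induction L with
  | zero => simp [zero_pow (by omega : p ≠ 0)]
  | succ L ih =>
    rw [sum_range_succ, ih]
    by_cases h : L < m
    · rw [ind_pos h, min_eq_left h.le, min_eq_left h, dd]; push_cast; ring
    · rw [ind_neg h, min_eq_right (by omega), min_eq_right (by omega)]; ring

theorem tel {p : ℕ} (hp : 1 ≤ p) (L : ℕ) {x : ℝ} (hx : 0 ≤ x) :
    ∑ s ∈ range L, dd p s * ind ((s : ℝ) + 1 ≤ x) ≤ x ^ p := by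
  have e : ∀ s : ℕ, ((s : ℝ) + 1 ≤ x) = (s < ⌊x⌋₊) := fun s => by
    rw [← Nat.cast_succ, ← Nat.le_floor_iff hx, Nat.succ_le_iff]
  simp only [e]
  rw [sum_dd hp]
  exact pow_le_pow_left₀ (by positivity)
    (le_trans (by exact_mod_cast min_le_right _ _) (Nat.floor_le hx)) p

theorem tel1 (L : ℕ) {x : ℝ} (hx : 0 ≤ x) : ∑ s ∈ range L, ind ((s : ℝ) + 1 ≤ x) ≤ x := by
  simpa [dd_one] using tel le_rfl L hx

theorem sum4 {α β : Type} (s s' : Finset α) (t t' : Finset β) (f : α → α → β → β → ℝ) :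
    ∑ a ∈ s, ∑ a' ∈ s', ∑ b ∈ t, ∑ b' ∈ t', f a a' b b' =
      ∑ b ∈ t, ∑ b' ∈ t', ∑ a ∈ s, ∑ a' ∈ s', f a a' b b' :=
  calc _ = ∑ a ∈ s, ∑ b ∈ t, ∑ b' ∈ t', ∑ a' ∈ s', f a a' b b' :=
        sum_congr rfl fun _ _ => sum_comm.trans (sum_congr rfl fun _ _ => sum_comm)
    _ = _ := sum_comm.trans (sum_congr rfl fun _ _ => sum_comm)

variable {ι : Type} {N : Finset ι} {M : ι → ι → ℝ} {δ K : ℝ}

/-- the bilinear bound for integer valued functions (layer cake) -/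
theorem nat_bil {p : ℕ} (hp : 1 ≤ p) (hδ : 0 ≤ δ) (hK : 1 ≤ K)
    (h1 : ∀ v ∈ N, ∑ w ∈ N, |M v w| ≤ 4) (h2 : ∀ w ∈ N, ∑ v ∈ N, |M v w| ≤ 4)
    (h3 : ∀ P ⊆ N, ∀ P' ⊆ N, |∑ v ∈ P, ∑ w ∈ P', M v w| ≤ δ * (P.card + P'.card))
    (a b : ι → ℕ) :
    |∑ v ∈ N, ∑ w ∈ N, M v w * ((a v : ℝ) ^ p * b w)| ≤
      (4 / K + δ * K ^ p) * (∑ v ∈ N, (a v : ℝ) ^ (p + 1) + ∑ w ∈ N, (b w : ℝ) ^ (p + 1)) := by
  obtain ⟨L, hL⟩ : ∃ L, ∀ v ∈ N, a v ≤ L ∧ b v ≤ L :=
    ⟨N.sup fun v => a v + b v, fun v hv => by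
      have := le_sup (f := fun v => a v + b v) hv
      omega⟩
  have K0 : 0 < K := by linarith
  set c := 4 / K + δ * K ^ p with hc
  have c0 : 0 ≤ c := by positivity
  set A : ℕ → ℝ := fun s => ∑ v ∈ N, ind (s < a v) with hA
  set B : ℕ → ℝ := fun t => ∑ w ∈ N, ind (t < b w) with hB
  set C : ℕ → ℕ → ℝ := fun s t => ∑ v ∈ N, ∑ w ∈ N, M v w * (ind (s < a v) * ind (t < b w)) with hC
  have A0 : ∀ s, 0 ≤ A s := fun s => sum_nonneg fun v _ => ind_nonneg _
  have B0 : ∀ t, 0 ≤ B t := fun t => sum_nonneg fun v _ => ind_nonneg _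
  have e1 : ∑ v ∈ N, ∑ w ∈ N, M v w * ((a v : ℝ) ^ p * b w) =
      ∑ s ∈ range L, ∑ t ∈ range L, dd p s * C s t := by
    have : ∀ v ∈ N, ∀ w ∈ N, M v w * ((a v : ℝ) ^ p * b w) =
        ∑ s ∈ range L, ∑ t ∈ range L, dd p s * (M v w * (ind (s < a v) * ind (t < b w))) := by
      intro v hv w hw
      have a1 := sum_dd hp L (a v)
      have a2 := sum_dd le_rfl L (b w)
      rw [min_eq_right (hL v hv).1] at a1
      rw [min_eq_right (hL w hw).2, pow_one] at a2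
      rw [← a1, ← a2, sum_mul_sum, mul_sum]
      refine sum_congr rfl fun s _ => ?_
      rw [mul_sum]
      exact sum_congr rfl fun t _ => by rw [dd_one]; ring
    rw [sum_congr rfl fun v hv => sum_congr rfl (this v hv)]
    simp only [hC, mul_sum]
    exact sum4 _ _ _ _ _
  have c1 : ∀ s t, |C s t| ≤ 4 * A s := fun s t => by
    simp only [hC, hA, mul_sum]
    refine (abs_sum_le_sum_abs _ _).trans (sum_le_sum fun v hv => ?_)
    refine (abs_sum_le_sum_abs _ _).trans (le_trans (sum_le_sum fun w _ => ?_)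
      ((sum_mul _ _ _).symm.trans_le (mul_le_mul_of_nonneg_right (h1 v hv) (ind_nonneg _))))
    rw [abs_mul, abs_of_nonneg (mul_nonneg (ind_nonneg _) (ind_nonneg _))]
    exact mul_le_mul_of_nonneg_left (mul_le_of_le_one_right (ind_nonneg _) (ind_le_one _))
      (abs_nonneg _)
  have c2 : ∀ s t, |C s t| ≤ 4 * B t := fun s t => by
    simp only [hC, hB, mul_sum]
    rw [sum_comm]
    refine (abs_sum_le_sum_abs _ _).trans (sum_le_sum fun w hw => ?_)
    refine (abs_sum_le_sum_abs _ _).trans (le_trans (sum_le_sum fun v _ => ?_)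
      ((sum_mul _ _ _).symm.trans_le (mul_le_mul_of_nonneg_right (h2 w hw) (ind_nonneg _))))
    rw [abs_mul, abs_of_nonneg (mul_nonneg (ind_nonneg _) (ind_nonneg _))]
    exact mul_le_mul_of_nonneg_left (mul_le_of_le_one_left (ind_nonneg _) (ind_le_one _))
      (abs_nonneg _)
  have c3 : ∀ s t, |C s t| ≤ δ * (A s + B t) := fun s t => by
    have := h3 _ (filter_subset (fun v => s < a v) N) _ (filter_subset (fun w => t < b w) N)
    rw [natCast_card_filter, natCast_card_filter, sum_filter] at this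
    refine le_trans (le_of_eq ?_) (this.trans (le_of_eq ?_))
    · congr 1
      refine sum_congr rfl fun v _ => ?_
      by_cases hv : s < a v
      · rw [if_pos hv, sum_filter]
        refine sum_congr rfl fun w _ => ?_
        by_cases hw : t < b w
        · simp [ind, hv, hw]
        · simp [ind, hw]
      · simp [ind, hv]
    · simp only [hA, hB, ind]
      congr 2 <;> exact sum_congr rfl fun _ _ => by congr
  have c4 : ∀ s t : ℕ, |C s t| ≤
      A s * (4 * ind ((t : ℝ) + 1 ≤ (s + 1) / K) + δ * ind ((t : ℝ) + 1 ≤ K * (s + 1))) +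
      B t * (4 * ind ((s : ℝ) + 1 ≤ (t + 1) / K) + δ * ind ((s : ℝ) + 1 ≤ K * (t + 1))) := by
    intro s t
    have i1 := mul_nonneg (A0 s) (ind_nonneg ((t : ℝ) + 1 ≤ (s + 1) / K))
    have i2 := mul_nonneg hδ (mul_nonneg (A0 s) (ind_nonneg ((t : ℝ) + 1 ≤ K * (s + 1))))
    have i3 := mul_nonneg (B0 t) (ind_nonneg ((s : ℝ) + 1 ≤ (t + 1) / K))
    have i4 := mul_nonneg hδ (mul_nonneg (B0 t) (ind_nonneg ((s : ℝ) + 1 ≤ K * (t + 1))))
    by_cases k1 : (t : ℝ) + 1 ≤ (s + 1) / K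
    · have := c1 s t
      rw [ind_pos k1]
      linarith
    by_cases k2 : (s : ℝ) + 1 ≤ (t + 1) / K
    · have := c2 s t
      rw [ind_pos k2]
      linarith
    have := c3 s t
    rw [le_div_iff₀' K0, not_le] at k1 k2
    rw [ind_pos k1.le, ind_pos k2.le]
    linarith
  have f1 : ∀ s : ℕ, ∑ t ∈ range L,
      (4 * ind ((t : ℝ) + 1 ≤ (s + 1) / K) + δ * ind ((t : ℝ) + 1 ≤ K * (s + 1))) ≤ c * (s + 1) := by
    intro s
    rw [sum_add_distrib, ← mul_sum, ← mul_sum]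
    have a1 := tel1 L (x := ((s : ℝ) + 1) / K) (by positivity)
    have a2 := mul_le_mul_of_nonneg_left (tel1 L (x := K * ((s : ℝ) + 1)) (by positivity)) hδ
    have a3 : δ * (K * ((s : ℝ) + 1)) ≤ δ * (K ^ p * ((s : ℝ) + 1)) :=
      mul_le_mul_of_nonneg_left (mul_le_mul_of_nonneg_right (le_self_pow₀ hK (by omega))
        (by positivity)) hδ
    have a4 : c * ((s : ℝ) + 1) = 4 * ((s + 1) / K) + δ * (K ^ p * ((s : ℝ) + 1)) := by
      rw [hc]; ring
    linarith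
  have f2 : ∀ t : ℕ, ∑ s ∈ range L, dd p s *
      (4 * ind ((s : ℝ) + 1 ≤ (t + 1) / K) + δ * ind ((s : ℝ) + 1 ≤ K * (t + 1))) ≤
        c * ((t : ℝ) + 1) ^ p := by
    intro t
    have a0 : ∑ s ∈ range L, dd p s *
        (4 * ind ((s : ℝ) + 1 ≤ (t + 1) / K) + δ * ind ((s : ℝ) + 1 ≤ K * (t + 1))) =
        4 * ∑ s ∈ range L, dd p s * ind ((s : ℝ) + 1 ≤ (t + 1) / K) +
          δ * ∑ s ∈ range L, dd p s * ind ((s : ℝ) + 1 ≤ K * (t + 1)) := by
      rw [mul_sum, mul_sum, ← sum_add_distrib]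
      exact sum_congr rfl fun s _ => by ring
    have a1 := tel hp L (x := ((t : ℝ) + 1) / K) (by positivity)
    have a2 := mul_le_mul_of_nonneg_left (tel hp L (x := K * ((t : ℝ) + 1)) (by positivity)) hδ
    have a3 : (((t : ℝ) + 1) / K) ^ p ≤ ((t : ℝ) + 1) ^ p / K := by
      rw [div_pow]
      exact div_le_div_of_nonneg_left (by positivity) K0 (le_self_pow₀ hK (by omega))
    have a4 : c * ((t : ℝ) + 1) ^ p = 4 * (((t : ℝ) + 1) ^ p / K) + δ * (K * ((t : ℝ) + 1)) ^ p := by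
      rw [hc, mul_pow]; ring
    linarith
  have g1 : ∑ s ∈ range L, dd p s * A s * ((s : ℝ) + 1) ≤ ∑ v ∈ N, (a v : ℝ) ^ (p + 1) := by
    simp only [hA, mul_sum, sum_mul]
    rw [sum_comm]
    refine sum_le_sum fun v hv => ?_
    have a1 := sum_dd hp L (a v)
    rw [min_eq_right (hL v hv).1] at a1
    rw [pow_succ, ← a1, sum_mul]
    refine sum_le_sum fun s _ => ?_
    by_cases h : s < a v
    · exact mul_le_mul_of_nonneg_left (by exact_mod_cast h) (mul_nonneg (dd_nonneg _ _) (ind_nonneg _))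
    · simp [ind_neg h]
  have g2 : ∑ t ∈ range L, B t * ((t : ℝ) + 1) ^ p ≤ ∑ w ∈ N, (b w : ℝ) ^ (p + 1) := by
    simp only [hB, sum_mul]
    rw [sum_comm]
    refine sum_le_sum fun w hw => ?_
    have a1 := sum_dd le_rfl L (b w)
    rw [min_eq_right (hL w hw).2, pow_one] at a1
    simp only [dd_one, one_mul] at a1
    rw [pow_succ']
    nth_rewrite 1 [← a1]
    rw [sum_mul]
    refine sum_le_sum fun t _ => ?_
    by_cases h : t < b w
    · exact mul_le_mul_of_nonneg_left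
        (pow_le_pow_left₀ (by positivity) (by exact_mod_cast h) _) (ind_nonneg _)
    · simp [ind_neg h]
  rw [e1]
  calc |∑ s ∈ range L, ∑ t ∈ range L, dd p s * C s t|
      ≤ ∑ s ∈ range L, ∑ t ∈ range L, (dd p s * A s *
          (4 * ind ((t : ℝ) + 1 ≤ (s + 1) / K) + δ * ind ((t : ℝ) + 1 ≤ K * (s + 1))) +
        B t * (dd p s *
          (4 * ind ((s : ℝ) + 1 ≤ (t + 1) / K) + δ * ind ((s : ℝ) + 1 ≤ K * (t + 1))))) := by
        refine (abs_sum_le_sum_abs _ _).trans (sum_le_sum fun s _ => ?_)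
        refine (abs_sum_le_sum_abs _ _).trans (sum_le_sum fun t _ => ?_)
        rw [abs_mul, abs_of_nonneg (dd_nonneg _ _)]
        exact (mul_le_mul_of_nonneg_left (c4 s t) (dd_nonneg _ _)).trans_eq (by ring)
    _ ≤ ∑ s ∈ range L, dd p s * A s * (c * (s + 1)) + ∑ t ∈ range L, B t * (c * ((t : ℝ) + 1) ^ p) := by
        simp only [sum_add_distrib]
        refine add_le_add (sum_le_sum fun s _ => ?_) ?_
        · rw [← mul_sum]
          exact mul_le_mul_of_nonneg_left (f1 s) (mul_nonneg (dd_nonneg _ _) (A0 s))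
        · rw [sum_comm]
          refine sum_le_sum fun t _ => ?_
          rw [← mul_sum]
          exact mul_le_mul_of_nonneg_left (f2 t) (B0 t)
    _ = c * (∑ s ∈ range L, dd p s * A s * ((s : ℝ) + 1) + ∑ t ∈ range L, B t * ((t : ℝ) + 1) ^ p) := by
        rw [mul_add, mul_sum, mul_sum]
        congr 1 <;> exact sum_congr rfl fun _ _ => by ring
    _ ≤ _ := mul_le_mul_of_nonneg_left (add_le_add g1 g2) c0

/-- the bilinear bound for nonnegative real functions -/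
theorem real_bil {p : ℕ} {c : ℝ}
    (h : ∀ a b : ι → ℕ, |∑ v ∈ N, ∑ w ∈ N, M v w * ((a v : ℝ) ^ p * b w)| ≤
      c * (∑ v ∈ N, (a v : ℝ) ^ (p + 1) + ∑ w ∈ N, (b w : ℝ) ^ (p + 1)))
    (a b : ι → ℝ) (ha : ∀ v, 0 ≤ a v) (hb : ∀ v, 0 ≤ b v) :
    |∑ v ∈ N, ∑ w ∈ N, M v w * (a v ^ p * b w)| ≤
      c * (∑ v ∈ N, a v ^ (p + 1) + ∑ w ∈ N, b w ^ (p + 1)) := by
  have ta := fun v => tendsto_nat_floor_mul_div_atTop (ha v)
  have tb := fun v => tendsto_nat_floor_mul_div_atTop (hb v)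
  refine le_of_tendsto_of_tendsto
    ((tendsto_finsetSum N fun v _ => tendsto_finsetSum N fun w _ =>
      (((ta v).pow p).mul (tb w)).const_mul (M v w)).abs)
    (((tendsto_finsetSum N fun v _ => (ta v).pow (p + 1)).add
      (tendsto_finsetSum N fun w _ => (tb w).pow (p + 1))).const_mul c) ?_
  filter_upwards [Filter.eventually_gt_atTop (0 : ℝ)] with x hx
  have h1 := div_le_div_of_nonneg_right (h (fun v => ⌊a v * x⌋₊) fun w => ⌊b w * x⌋₊)
    (pow_pos hx (p + 1)).le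
  refine le_trans (le_of_eq ?_) (h1.trans (le_of_eq ?_))
  · rw [← abs_of_pos (pow_pos hx (p + 1)), ← abs_div, sum_div]
    congr 1
    refine sum_congr rfl fun v _ => ?_
    rw [sum_div]
    refine sum_congr rfl fun w _ => ?_
    rw [div_pow, pow_succ]
    field_simp
  · simp only [div_pow]
    rw [mul_div_assoc, add_div, sum_div, sum_div]

theorem pos_le (p : ℕ) (y : ℝ) : max y 0 ^ p ≤ |y| ^ p :=
  pow_le_pow_left₀ (le_max_right _ _) (max_le (le_abs_self y) (abs_nonneg y)) p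

theorem abs_pow_eq {p : ℕ} (hp : 1 ≤ p) (y : ℝ) :
    |y| ^ (p + 1) = (max y 0 ^ p - max (-y) 0 ^ p) * y := by
  rcases le_total 0 y with h | h
  · rw [abs_of_nonneg h, max_eq_left h, max_eq_right (by linarith), zero_pow (by omega)]; ring
  · rw [abs_of_nonpos h, max_eq_right h, max_eq_left (by linarith), zero_pow (by omega)]; ring

end BLX

open BLX in
/-- Small cut norm and bounded row/column sums give a small `ℓ^q → ℓ^q` norm. -/
theorem bl (q : ℕ) (hq : 2 ≤ q) (η : ℝ) (hη : 0 < η) :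
    ∃ δ : ℝ, 0 < δ ∧ ∀ (ι : Type) (N : Finset ι) (M : ι → ι → ℝ),
      (∀ v ∈ N, ∑ w ∈ N, |M v w| ≤ 4) → (∀ w ∈ N, ∑ v ∈ N, |M v w| ≤ 4) →
      (∀ P ⊆ N, ∀ P' ⊆ N, |∑ v ∈ P, ∑ w ∈ P', M v w| ≤ δ * (P.card + P'.card)) →
      ∀ x : ι → ℝ, ∑ v ∈ N, |∑ w ∈ N, M v w * x w| ^ q ≤ η * ∑ w ∈ N, |x w| ^ q := by
  obtain ⟨p, rfl⟩ : ∃ p, q = p + 1 := ⟨q - 1, by omega⟩
  have hp : 1 ≤ p := by omega
  obtain ⟨t, t0, t1, tη⟩ : ∃ t : ℝ, 0 < t ∧ t ≤ 1 ∧ t ≤ η :=
    ⟨min 1 η, lt_min one_pos hη, min_le_left _ _, min_le_right _ _⟩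
  have hK : 1 ≤ 64 / t := by rw [le_div_iff₀ t0]; linarith
  refine ⟨t / 16 / (64 / t) ^ p, by positivity, fun ι N M h1 h2 h3 x => ?_⟩
  have hc : 4 / (64 / t) + t / 16 / (64 / t) ^ p * (64 / t) ^ p = t / 8 := by
    rw [div_mul_cancel₀ _ (by positivity)]
    field_simp
    norm_num
  have key := real_bil (nat_bil hp (by positivity) hK h1 h2 h3)
  rw [hc] at key
  set y : ι → ℝ := fun v => ∑ w ∈ N, M v w * x w with hy
  have key2 : ∀ σ τ : ℝ, |σ| = 1 → |τ| = 1 →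
      |∑ v ∈ N, ∑ w ∈ N, M v w * (max (σ * y v) 0 ^ p * max (τ * (t * x w)) 0)| ≤
        t / 8 * (∑ v ∈ N, |y v| ^ (p + 1) + t ^ (p + 1) * ∑ w ∈ N, |x w| ^ (p + 1)) := by
    intro σ τ hσ hτ
    refine (key (fun v => max (σ * y v) 0) (fun w => max (τ * (t * x w)) 0)
      (fun _ => le_max_right _ _) fun _ => le_max_right _ _).trans
      (mul_le_mul_of_nonneg_left (add_le_add (sum_le_sum fun v _ => ?_) ?_) (by positivity))
    · simpa [abs_mul, hσ] using pos_le (p + 1) (σ * y v)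
    · rw [mul_sum]
      refine sum_le_sum fun w _ => ?_
      have := pos_le (p + 1) (τ * (t * x w))
      rwa [abs_mul, hτ, one_mul, abs_mul, abs_of_pos t0, mul_pow] at this
  have k1 := (abs_le.1 (key2 1 1 abs_one abs_one)).2
  have k2 := (abs_le.1 (key2 1 (-1) abs_one (by simp))).1
  have k3 := (abs_le.1 (key2 (-1) 1 (by simp) abs_one)).1
  have k4 := (abs_le.1 (key2 (-1) (-1) (by simp) (by simp))).2
  simp only [one_mul, neg_mul] at k1 k2 k3 k4
  have e : t * ∑ v ∈ N, |y v| ^ (p + 1) =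
      ∑ v ∈ N, ∑ w ∈ N, M v w * (max (y v) 0 ^ p * max (t * x w) 0) -
        ∑ v ∈ N, ∑ w ∈ N, M v w * (max (y v) 0 ^ p * max (-(t * x w)) 0) -
        ∑ v ∈ N, ∑ w ∈ N, M v w * (max (-y v) 0 ^ p * max (t * x w) 0) +
        ∑ v ∈ N, ∑ w ∈ N, M v w * (max (-y v) 0 ^ p * max (-(t * x w)) 0) := by
    simp only [← sum_sub_distrib, ← sum_add_distrib]
    rw [mul_sum]
    refine sum_congr rfl fun v _ => ?_
    rw [abs_pow_eq hp]
    generalize max (y v) 0 ^ p = α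
    generalize max (-y v) 0 ^ p = β
    simp only [hy, mul_sum]
    refine sum_congr rfl fun w _ => ?_
    have := max_zero_sub_max_neg_zero_eq_self (t * x w)
    linear_combination (-(M v w * (α - β))) * this
  have X0 : 0 ≤ ∑ w ∈ N, |x w| ^ (p + 1) := sum_nonneg fun w _ => by positivity
  have a1 : t ^ (p + 1) ≤ η := (pow_le_of_le_one t0.le t1 (by omega)).trans tη
  have a2 := mul_le_mul_of_nonneg_right a1 X0
  have a3 : t * ∑ v ∈ N, |y v| ^ (p + 1) ≤ t * (t ^ (p + 1) * ∑ w ∈ N, |x w| ^ (p + 1)) := by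
    linarith
  exact (le_of_mul_le_mul_left a3 t0).trans a2

end Crest.Agent.R30
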