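import Crest.Agent.R30.Pull

set_option autoImplicit false

open Finset
open scoped BigOperators Classical
open Crest.CombinatoricsR.TriangleRemoval

namespace Crest.Agent.R30

variable {n : ℕ}

namespace BadCountX

theorem kd_mono {G G' : Gr n} (h : G ⊆ G') (R : Gr n) (l : List (St n)) :
    kd G R l ⊆ kd G' R l := by
  intro c hc
  obtain ⟨h1, h2, h3, h4⟩ := PullX.mem_kd.1 hc
  exact PullX.mem_kd.2 ⟨h1, triangles_mono h h2, h3, h4⟩

theorem ext_mono {σ : Type} [DecidableEq σ] {k k' : List σ → Finset σ} (h : ∀ l, k l ⊆ k' l)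
    (l0 : List σ) (b : ℕ) : ext k l0 b ⊆ ext k' l0 b := by
  induction b with
  | zero => exact Finset.Subset.refl _
  | succ b ih =>
    intro l hl
    obtain ⟨c, l', rfl, h1, h2⟩ := mem_ext_succ.1 hl
    exact mem_ext_succ.2 ⟨c, l', rfl, ih h1, h _ h2⟩

theorem fresh_mono {G G' : Gr n} (h : G ⊆ G') {R : Gr n} {S : Finset (List (St n))}
    (hS : Fresh G R S) : Fresh G' R S := by
  induction hS with
  | base => exact Fresh.base
  | step S l c _ h1 h2 h3 ih => exact Fresh.step S l c ih h1 (kd_mono h R l h2) h3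

theorem card_bi {α β : Type} [DecidableEq β] (s : Finset α) (t : α → Finset β) {N M : ℝ}
    (hM : 0 ≤ M) (hs : (s.card : ℝ) ≤ N) (ht : ∀ x ∈ s, ((t x).card : ℝ) ≤ M) :
    ((s.biUnion t).card : ℝ) ≤ N * M := by
  calc ((s.biUnion t).card : ℝ) ≤ ∑ x ∈ s, ((t x).card : ℝ) := by
        exact_mod_cast Finset.card_biUnion_le
    _ ≤ ∑ _x ∈ s, M := Finset.sum_le_sum ht
    _ = s.card * M := by rw [Finset.sum_const, nsmul_eq_mul]
    _ ≤ N * M := mul_le_mul_of_nonneg_right hs hM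

theorem valid_root {σ : Type} [DecidableEq σ] {k : List σ → Finset σ} {l : List σ} {a : ℕ}
    (h : l ∈ ext k [] a) : Valid k l := valid_of_mem_ext (valid_nil k) h

theorem gen {G R : Gr n} {D M : ℝ} (hD : 0 ≤ D) (hM : 0 ≤ M)
    (hk : ∀ l, Valid (kd G R) l → ((kd G R l).card : ℝ) ≤ D) (a b i : ℕ)
    (hc : ∀ l0 ∈ ext (kd G R) [] a, ∀ l1 ∈ ext (kd G R) l0 b, ∀ l2 ∈ ext (kd G R) l0 i,
      (((kd G R l2).filter fun c => c.2 ⊆ Vs R (sufs l1 ∪ sufs l2)).card : ℝ) ≤ M) :
    ((Bad G R a b i).card : ℝ) ≤ D ^ (a + b + i) * M := by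
  have hs : Bad G R a b i ⊆ (ext (kd G R) [] a).biUnion fun l0 =>
      (ext (kd G R) l0 b).biUnion fun l1 => (ext (kd G R) l0 i).biUnion fun l2 =>
        ((kd G R l2).filter fun c => c.2 ⊆ Vs R (sufs l1 ∪ sufs l2)).image
          fun c => (l0, l1, l2, c) := by
    rintro ⟨l0, l1, l2, c⟩ ht
    obtain ⟨hm, h1, h2, -, -, h3, -, h4⟩ := mem_filter.1 ht
    exact mem_biUnion.2 ⟨l0, (mem_product.1 hm).1, mem_biUnion.2 ⟨l1, h1, mem_biUnion.2
      ⟨l2, h2, mem_image.2 ⟨c, mem_filter.2 ⟨h3, h4⟩, rfl⟩⟩⟩⟩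
  have e : D ^ (a + b + i) * M = D ^ a * (D ^ b * (D ^ i * M)) := by ring
  rw [e]
  refine le_trans (Nat.cast_le.2 (card_le_card hs)) ?_
  refine card_bi _ _ (by positivity) (card_ext_le hD hk (valid_nil _) a) fun l0 h0 => ?_
  refine card_bi _ _ (by positivity) (card_ext_le hD hk (valid_root h0) b) fun l1 h1 => ?_
  refine card_bi _ _ hM (card_ext_le hD hk (valid_root h0) i) fun l2 h2 => ?_
  exact le_trans (by exact_mod_cast card_image_le) (hc l0 h0 l1 h1 l2 h2)

theorem mem_Vs {R : Gr n} {S : Finset (List (St n))} {v : Fin n} :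
    v ∈ Vs R S ↔ (∃ e ∈ R, v ∈ e) ∨ ∃ l ∈ S, v ∈ prj l := by
  simp [Vs]

theorem vs_ext {G R : Gr n} (S : Finset (List (St n))) {l0 l : List (St n)} {b : ℕ}
    (h : l ∈ ext (kd G R) l0 b) :
    (Vs R (S ∪ sufs l)).card ≤ (Vs R (S ∪ sufs l0)).card + 3 * b := by
  induction b generalizing l with
  | zero =>
    simp only [ext, mem_singleton] at h
    rw [h]; simp
  | succ b ih =>
    obtain ⟨c, l', rfl, h1, h2⟩ := mem_ext_succ.1 h
    have h3 : c.2.card = 3 := (mem_triangles_iff.1 (PullX.mem_kd.1 h2).2.1).1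
    have h4 : Vs R (S ∪ sufs (c :: l')) ⊆ Vs R (S ∪ sufs l') ∪ c.2 := by
      intro v hv
      rw [mem_union, mem_Vs]
      rcases mem_Vs.1 hv with h5 | ⟨m, hm, hv⟩
      · exact Or.inl (Or.inl h5)
      · rcases mem_union.1 hm with h6 | h6
        · exact Or.inl (Or.inr ⟨m, mem_union_left _ h6, hv⟩)
        · rcases List.suffix_cons_iff.1 (mem_sufs.1 h6) with rfl | h7
          · exact Or.inr hv
          · exact Or.inl (Or.inr ⟨m, mem_union_right _ (mem_sufs.2 h7), hv⟩)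
    have h5 := (card_le_card h4).trans (card_union_le _ _)
    have h6 := ih h1
    omega

theorem vs_root {R : Gr n} (hR2 : R.card ≤ 2) : (Vs R (∅ ∪ sufs [])).card ≤ 4 := by
  have h : Vs R (∅ ∪ sufs []) ⊆ R.biUnion fun e => univ.filter fun v => v ∈ e := by
    intro v hv
    rcases mem_Vs.1 hv with ⟨e, he, h5⟩ | ⟨m, hm, hv⟩
    · exact mem_biUnion.2 ⟨e, he, mem_filter.2 ⟨mem_univ _, h5⟩⟩
    · rw [empty_union, mem_sufs, List.suffix_nil] at hm
      subst hm
      simp [prj] at hv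
  refine (card_le_card h).trans ((card_biUnion_le_card_mul _ _ 2 fun e _ => ?_).trans (by omega))
  induction e using Sym2.ind with
  | _ u v =>
    refine le_trans (card_le_card (t := {u, v}) fun w hw => ?_) card_le_two
    simpa using hw

theorem vs_card {G R : Gr n} (hR2 : R.card ≤ 2) {a b i : ℕ} {l0 l1 l2 : List (St n)}
    (h0 : l0 ∈ ext (kd G R) [] a) (h1 : l1 ∈ ext (kd G R) l0 b) (h2 : l2 ∈ ext (kd G R) l0 i) :
    (Vs R (sufs l1 ∪ sufs l2)).card ≤ 4 + 3 * (a + b + i) := by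
  have e2 := vs_ext (sufs l1) h2
  have e1 := vs_ext (sufs l0) h1
  have e0 := vs_ext ∅ h0
  have e := vs_root hR2
  rw [union_comm (sufs l1) (sufs l0)] at e2
  rw [union_self] at e1
  rw [empty_union (sufs l0)] at e0
  omega

end BadCountX

open BadCountX

theorem bad_mono {G G' : Gr n} (h : G ⊆ G') (R : Gr n) (a b i : ℕ) :
    Bad G R a b i ⊆ Bad G' R a b i := by
  rintro ⟨l0, l1, l2, c⟩ ht
  obtain ⟨hm, h1, h2, h3, h4, h5, h6, h7⟩ := mem_filter.1 ht
  have hk := kd_mono h R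
  simp only [mem_product] at hm
  refine mem_filter.2 ⟨?_, ext_mono hk _ _ h1, ext_mono hk _ _ h2, h3, fresh_mono h h4, hk _ h5, h6, h7⟩
  simp only [mem_product]
  exact ⟨ext_mono hk _ _ hm.1, ext_mono hk _ _ hm.2.1, ext_mono hk _ _ hm.2.2.1, mem_univ _⟩

/-- crude count through the number of children -/
theorem bad_card_le {G R : Gr n} {D : ℝ} (hD : 0 ≤ D)
    (hk : ∀ l, Valid (kd G R) l → ((kd G R l).card : ℝ) ≤ D) (a b i : ℕ) :
    ((Bad G R a b i).card : ℝ) ≤ D ^ (a + b + i + 1) := by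
  rw [pow_succ]
  refine gen hD hD hk a b i fun l0 h0 l1 _ l2 h2 => ?_
  exact le_trans (by exact_mod_cast card_filter_le _ _)
    (hk l2 (valid_of_mem_ext (valid_root h0) h2))

/-- count using that the last apex is an old vertex -/
theorem bad_card_le' {G R : Gr n} (hG : NoLoop G) (hR : R ⊆ G) (hR2 : R.card ≤ 2) (a b i : ℕ) :
    ((Bad G R a b i).card : ℝ) ≤ (2 * n) ^ (a + b + i) * (2 * (4 + 3 * (a + b + i))) := by
  refine gen (by positivity) (by positivity) (fun l hl => ?_) a b i fun l0 h0 l1 h1 l2 h2 => ?_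
  · refine kd_card_le hG hR hR2 (Nat.cast_nonneg n) (fun u v _ => ?_) hl
    have : cod G u v ≤ n := by
      unfold cod
      exact (card_le_univ _).trans (Fintype.card_fin n).le
    exact_mod_cast this
  · obtain ⟨f1, f2, -⟩ := fr_valid hR hR2 hG (valid_of_mem_ext (valid_root h0) h2)
    have hv := vs_card hR2 h0 h1 h2
    generalize Vs R (sufs l1 ∪ sufs l2) = W at hv
    have hs : ((kd G R l2).filter fun c => c.2 ⊆ W) ⊆ (fr R l2).biUnion fun f =>
        W.image fun w => ((f, insert w (univ.filter fun v => v ∈ f)) : St n) := by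
      rintro ⟨f, T⟩ hc
      obtain ⟨hc1, hc2⟩ := mem_filter.1 hc
      obtain ⟨k1, k2, k3, -⟩ := PullX.mem_kd.1 hc1
      simp only at k1 k2 k3 hc2
      refine mem_biUnion.2 ⟨f, k1, ?_⟩
      induction f using Sym2.ind with
      | _ u v =>
        obtain ⟨w, -, rfl⟩ := exists_apex hG (f1 k1) k2 k3
        refine mem_image.2 ⟨w, hc2 (by simp), ?_⟩
        congr 1
        ext x
        simp only [mem_insert, mem_filter, mem_univ, true_and, Sym2.mem_iff, mem_singleton]
        tauto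
    refine le_trans (Nat.cast_le.2 (card_le_card hs)) ?_
    refine card_bi _ _ (by positivity) (by exact_mod_cast f2) fun f _ => ?_
    exact_mod_cast card_image_le.trans hv

end Crest.Agent.R30
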