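import Crest.Agent.R30.Defs

set_option autoImplicit false

open Finset
open scoped BigOperators Classical
open Crest.CombinatoricsR.TriangleRemoval

namespace Crest.Agent.R30

variable {n : ℕ}

@[simp] theorem mem_nb {G : Gr n} {u v : Fin n} : v ∈ nb G u ↔ s(u, v) ∈ G := by simp [nb]

@[simp] theorem mem_arcs {G : Gr n} {a : Fin n × Fin n} : a ∈ arcs G ↔ s(a.1, a.2) ∈ G := by
  simp [arcs]

theorem mem_tE {T : Finset (Fin n)} {g : Sym2 (Fin n)} : g ∈ tE T ↔ g ∈ T.sym2 ∧ ¬ g.IsDiag := by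
  simp [tE]

theorem mem_rem {G : Gr n} {T : Finset (Fin n)} {g : Sym2 (Fin n)} :
    g ∈ rem G T ↔ g ∈ G ∧ g ∉ T.sym2 := by simp [rem]

theorem NoLoop.mono {G G' : Gr n} (h : NoLoop G') (hs : G ⊆ G') : NoLoop G :=
  fun e he => h e (hs he)

theorem NoLoop.rem {G : Gr n} (h : NoLoop G) (T : Finset (Fin n)) : NoLoop (rem G T) :=
  h.mono Finset.sdiff_subset

theorem mem_allEdges {g : Sym2 (Fin n)} : g ∈ allEdges n ↔ ¬ g.IsDiag := by simp [allEdges]

theorem noLoop_allEdges : NoLoop (allEdges n) := fun _ he => mem_allEdges.1 he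

theorem NoLoop.subset_allEdges {G : Gr n} (h : NoLoop G) : G ⊆ allEdges n :=
  fun e he => mem_allEdges.2 (h e he)

theorem cod_comm (G : Gr n) (u v : Fin n) : cod G u v = cod G v u := by
  rw [cod, cod, Finset.inter_comm]

theorem BasX.tE_three {u v w : Fin n} (huv : u ≠ v) (huw : u ≠ w) (hvw : v ≠ w) :
    tE ({u, v, w} : Finset (Fin n)) = {s(u, v), s(u, w), s(v, w)} := by
  ext g
  induction g using Sym2.ind with
  | h a b =>
    simp only [mem_tE, Finset.mk_mem_sym2_iff, Finset.mem_insert, Finset.mem_singleton,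
      Sym2.mk_isDiag_iff, Sym2.eq_iff]
    constructor
    · rintro ⟨⟨rfl | rfl | rfl, rfl | rfl | rfl⟩, h⟩ <;> simp_all
    · rintro ((⟨rfl, rfl⟩ | ⟨rfl, rfl⟩) | (⟨rfl, rfl⟩ | ⟨rfl, rfl⟩) | (⟨rfl, rfl⟩ | ⟨rfl, rfl⟩)) <;>
        simp [huv, huw, hvw, huv.symm, huw.symm, hvw.symm]

theorem BasX.ne {G : Gr n} (hG : NoLoop G) {u v : Fin n} (h : s(u, v) ∈ G) : u ≠ v := by
  have := hG _ h
  rwa [Sym2.mk_isDiag_iff] at this

theorem BasX.noLoop_tE (T : Finset (Fin n)) : NoLoop (tE T) := fun _ he => (mem_tE.1 he).2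

theorem mem_triangles_iff {G : Gr n} {T : Finset (Fin n)} :
    T ∈ triangles G ↔ T.card = 3 ∧ tE T ⊆ G := by
  simp only [triangles, Finset.mem_filter, Finset.mem_powersetCard, Finset.subset_univ, true_and]
  refine and_congr_right fun _ => ⟨fun h g hg => ?_, fun h u hu v hv huv => h ?_⟩
  · induction g using Sym2.ind with
    | h a b =>
      rw [mem_tE, Finset.mk_mem_sym2_iff, Sym2.mk_isDiag_iff] at hg
      exact h a hg.1.1 b hg.1.2 hg.2
  · rw [mem_tE, Finset.mk_mem_sym2_iff, Sym2.mk_isDiag_iff]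
    exact ⟨⟨hu, hv⟩, huv⟩

theorem triangles_mono {G G' : Gr n} (h : G ⊆ G') : triangles G ⊆ triangles G' := by
  intro T hT
  rw [mem_triangles_iff] at hT ⊢
  exact ⟨hT.1, hT.2.trans h⟩

theorem card_tE {T : Finset (Fin n)} (hT : T.card = 3) : (tE T).card = 3 := by
  obtain ⟨u, v, w, huv, huw, hvw, rfl⟩ := Finset.card_eq_three.1 hT
  rw [BasX.tE_three huv huw hvw, Finset.card_eq_three]
  refine ⟨_, _, _, ?_, ?_, ?_, rfl⟩ <;>
    simp [huv, huw, hvw, huv.symm, huw.symm, hvw.symm]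

/-- two distinct edges lie in at most one 3-set -/
theorem tri_unique {T T' : Finset (Fin n)} (hT : T.card = 3) (hT' : T'.card = 3)
    {f g : Sym2 (Fin n)} (hfg : f ≠ g) (hf : f ∈ tE T) (hg : g ∈ tE T) (hf' : f ∈ tE T')
    (hg' : g ∈ tE T') : T = T' := by
  by_contra hne
  have h2 : (T ∩ T').card ≤ 2 := by
    by_contra h
    have h3 : T ∩ T' = T := Finset.eq_of_subset_of_card_le Finset.inter_subset_left (by omega)
    have h4 : T ∩ T' = T' := Finset.eq_of_subset_of_card_le Finset.inter_subset_right (by omega)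
    exact hne (h3.symm.trans h4)
  induction f using Sym2.ind with
  | h a b =>
    induction g using Sym2.ind with
    | h c d =>
      simp only [mem_tE, Finset.mk_mem_sym2_iff, Sym2.mk_isDiag_iff] at hf hg hf' hg'
      have key : ∀ x ∈ T ∩ T', x = a ∨ x = b := by
        intro x hx
        by_contra hx'
        push Not at hx'
        have hs : ({a, b, x} : Finset (Fin n)) ⊆ T ∩ T' := by
          intro y hy
          simp only [Finset.mem_insert, Finset.mem_singleton] at hy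
          rcases hy with rfl | rfl | rfl
          · exact Finset.mem_inter.2 ⟨hf.1.1, hf'.1.1⟩
          · exact Finset.mem_inter.2 ⟨hf.1.2, hf'.1.2⟩
          · exact hx
        have := Finset.card_le_card hs
        rw [Finset.card_eq_three.2 ⟨a, b, x, hf.2, hx'.1.symm, hx'.2.symm, rfl⟩] at this
        omega
      have hc := key c (Finset.mem_inter.2 ⟨hg.1.1, hg'.1.1⟩)
      have hd := key d (Finset.mem_inter.2 ⟨hg.1.2, hg'.1.2⟩)
      have := hg.2
      apply hfg
      rcases hc with rfl | rfl <;> rcases hd with rfl | rfl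
      · exact absurd rfl this
      · rfl
      · exact Sym2.eq_swap
      · exact absurd rfl this

theorem tri_of_mem {G : Gr n} (hG : NoLoop G) {u v w : Fin n} (huv : s(u, v) ∈ G)
    (hw : w ∈ nb G u ∩ nb G v) : ({u, v, w} : Finset (Fin n)) ∈ triangles G := by
  simp only [Finset.mem_inter, mem_nb] at hw
  have h1 := BasX.ne hG huv
  have h2 := BasX.ne hG hw.1
  have h3 := BasX.ne hG hw.2
  rw [mem_triangles_iff, BasX.tE_three h1 h2 h3]
  refine ⟨Finset.card_eq_three.2 ⟨u, v, w, h1, h2, h3, rfl⟩, fun g hg => ?_⟩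
  simp only [Finset.mem_insert, Finset.mem_singleton] at hg
  rcases hg with rfl | rfl | rfl
  exacts [huv, hw.1, hw.2]

theorem erase_tE {u v w : Fin n} (huv : u ≠ v) (huw : u ≠ w) (hvw : v ≠ w) :
    (tE ({u, v, w} : Finset (Fin n))).erase s(u, v) = {s(u, w), s(v, w)} ∧
      s(u, w) ≠ s(v, w) := by
  refine ⟨?_, by simp [huv, huw, hvw, huv.symm, huw.symm, hvw.symm]⟩
  rw [BasX.tE_three huv huw hvw, Finset.erase_insert]
  simp [huv, huw, hvw, huv.symm, huw.symm, hvw.symm]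

/-- a triangle through the edge `uv` is `{u, v, w}` with `w` a common neighbour -/
theorem exists_apex {G : Gr n} (hG : NoLoop G) {u v : Fin n} (huv : s(u, v) ∈ G)
    {T : Finset (Fin n)} (hT : T ∈ triangles G) (h : s(u, v) ∈ T.sym2) :
    ∃ w ∈ nb G u ∩ nb G v, T = {u, v, w} := by
  have h1 := BasX.ne hG huv
  rw [Finset.mk_mem_sym2_iff] at h
  obtain ⟨h3, hs⟩ := mem_triangles_iff.1 hT
  have hc : ((T.erase u).erase v).card = 1 := by
    rw [Finset.card_erase_of_mem (Finset.mem_erase.2 ⟨h1.symm, h.2⟩), Finset.card_erase_of_mem h.1, h3]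
  obtain ⟨w, hw⟩ := Finset.card_eq_one.1 hc
  have hw' : w ∈ (T.erase u).erase v := by rw [hw]; exact Finset.mem_singleton_self w
  simp only [Finset.mem_erase] at hw'
  refine ⟨w, ?_, ?_⟩
  · simp only [Finset.mem_inter, mem_nb]
    constructor <;> apply hs <;> rw [mem_tE, Finset.mk_mem_sym2_iff, Sym2.mk_isDiag_iff]
    · exact ⟨⟨h.1, hw'.2.2⟩, hw'.2.1.symm⟩
    · exact ⟨⟨h.2, hw'.2.2⟩, hw'.1.symm⟩
  · rw [← Finset.insert_erase h.1,
      ← Finset.insert_erase (Finset.mem_erase.2 ⟨h1.symm, h.2⟩ : v ∈ T.erase u), hw]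

theorem sum_tri_mem {G : Gr n} (hG : NoLoop G) {u v : Fin n} (huv : s(u, v) ∈ G)
    (F : Finset (Fin n) → ℝ) :
    ∑ T ∈ (triangles G).filter (fun T => s(u, v) ∈ T.sym2), F T =
      ∑ w ∈ nb G u ∩ nb G v, F {u, v, w} := by
  symm
  have h1 := BasX.ne hG huv
  refine Finset.sum_bij (fun w _ => ({u, v, w} : Finset (Fin n))) (fun w hw => ?_)
    (fun w hw w' hw' h => ?_) (fun T hT => ?_) (fun _ _ => rfl)
  · rw [Finset.mem_filter, Finset.mk_mem_sym2_iff]
    exact ⟨tri_of_mem hG huv hw, by simp, by simp⟩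
  · simp only [Finset.mem_inter, mem_nb] at hw
    have h2 := BasX.ne hG hw.1
    have h3 := BasX.ne hG hw.2
    have : w ∈ ({u, v, w'} : Finset (Fin n)) := by rw [← h]; simp
    simpa [h2.symm, h3.symm] using this
  · rw [Finset.mem_filter] at hT
    obtain ⟨w, hw, rfl⟩ := exists_apex hG huv hT.1 hT.2
    exact ⟨w, hw, rfl⟩

theorem card_tri_mem {G : Gr n} (hG : NoLoop G) {u v : Fin n} (huv : s(u, v) ∈ G) :
    ((triangles G).filter (fun T => s(u, v) ∈ T.sym2)).card = cod G u v := by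
  have := sum_tri_mem hG huv (fun _ => 1)
  simp only [Finset.sum_const, nsmul_eq_mul, mul_one] at this
  exact_mod_cast this

theorem sum_arcs (G : Gr n) (f : Fin n → Fin n → ℝ) :
    ∑ e ∈ arcs G, f e.1 e.2 = ∑ u, ∑ v ∈ nb G u, f u v := by
  unfold arcs nb
  simp only [Finset.sum_filter]
  exact Fintype.sum_prod_type' (fun u v => if s(u, v) ∈ G then f u v else 0)

theorem sum_arcs_swap (G : Gr n) (f : Fin n → Fin n → ℝ) :
    ∑ e ∈ arcs G, f e.1 e.2 = ∑ e ∈ arcs G, f e.2 e.1 := by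
  refine Finset.sum_nbij' Prod.swap Prod.swap (fun a ha => ?_) (fun a ha => ?_) (fun _ _ => rfl)
    (fun _ _ => rfl) (fun _ _ => rfl) <;>
  · rw [mem_arcs] at ha ⊢
    simpa [Sym2.eq_swap] using ha

theorem card_arcs {G : Gr n} (hG : NoLoop G) : (arcs G).card = 2 * G.card := by
  rw [Finset.card_eq_sum_card_fiberwise (f := fun a : Fin n × Fin n => s(a.1, a.2)) (t := G)
    (fun a ha => mem_arcs.1 ha), Finset.card_eq_sum_ones G, Finset.mul_sum]
  refine Finset.sum_congr rfl fun g hg => ?_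
  induction g using Sym2.ind with
  | h u v =>
    have h1 := BasX.ne hG hg
    rw [mul_one, Finset.card_eq_two]
    refine ⟨(u, v), (v, u), by simp [h1], ?_⟩
    ext ⟨a, b⟩
    simp only [Finset.mem_filter, mem_arcs, Finset.mem_insert, Finset.mem_singleton, Sym2.eq_iff,
      Prod.mk.injEq]
    refine ⟨fun h => h.2, fun h => ⟨?_, h⟩⟩
    rcases h with ⟨rfl, rfl⟩ | ⟨rfl, rfl⟩
    · exact hg
    · rwa [Sym2.eq_swap]

theorem card_arcs_le (G : Gr n) : (arcs G).card ≤ n ^ 2 := by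
  refine (Finset.card_le_univ _).trans ?_
  simp [sq]

theorem sum_deg (G : Gr n) : ∑ u, (nb G u).card = (arcs G).card := by
  have := sum_arcs G (fun _ _ => 1)
  simp only [Finset.sum_const, nsmul_eq_mul, mul_one] at this
  exact_mod_cast this.symm

theorem sum_cod_arcs {G : Gr n} (hG : NoLoop G) :
    ∑ e ∈ arcs G, cod G e.1 e.2 = 6 * Q G := by
  have h1 : ∑ e ∈ arcs G, cod G e.1 e.2 =
      ∑ e ∈ arcs G, ∑ T ∈ triangles G, if s(e.1, e.2) ∈ T.sym2 then 1 else 0 :=
    Finset.sum_congr rfl fun e he => by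
      rw [← card_tri_mem hG (mem_arcs.1 he), Finset.card_filter]
  rw [h1, Finset.sum_comm, Q, Finset.card_eq_sum_ones, Finset.mul_sum]
  refine Finset.sum_congr rfl fun T hT => ?_
  obtain ⟨h3, hs⟩ := mem_triangles_iff.1 hT
  rw [← Finset.card_filter]
  have : (arcs G).filter (fun e => s(e.1, e.2) ∈ T.sym2) = arcs (tE T) := by
    ext e
    rw [Finset.mem_filter, mem_arcs, mem_arcs]
    exact ⟨fun h => mem_tE.2 ⟨h.2, hG _ h.1⟩, fun h => ⟨hs h, (mem_tE.1 h).1⟩⟩
  rw [this, card_arcs (BasX.noLoop_tE T), card_tE h3]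
  rfl

theorem card_rem {G : Gr n} (hG : NoLoop G) {T : Finset (Fin n)} (hT : T ∈ triangles G) :
    (rem G T).card + 3 = G.card := by
  obtain ⟨h3, hs⟩ := mem_triangles_iff.1 hT
  have : G ∩ T.sym2 = tE T := by
    ext e
    rw [Finset.mem_inter]
    exact ⟨fun h => mem_tE.2 ⟨h.2, hG _ h.1⟩, fun h => ⟨hs h, (mem_tE.1 h).1⟩⟩
  rw [← card_tE h3, ← this, Crest.Agent.R30.rem]
  exact Finset.card_sdiff_add_card_inter _ _

theorem card_le_sq (G : Gr n) : G.card ≤ n ^ 2 := by
  refine (Finset.card_le_univ _).trans ?_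
  refine (Fintype.card_le_of_surjective (fun a : Fin n × Fin n => s(a.1, a.2)) fun g => ?_).trans
    (by simp [sq])
  induction g using Sym2.ind with
  | h u v => exact ⟨(u, v), rfl⟩

theorem Q_le_cube (G : Gr n) : Q G ≤ n ^ 3 := by
  refine (Finset.card_filter_le _ _).trans ?_
  rw [Finset.card_powersetCard, Finset.card_univ, Fintype.card_fin]
  exact Nat.choose_le_pow n 3

theorem cnt_star (G : Gr n) (w : Fin n) : cnt G ({w} ×ˢ univ) = (nb G w).card := by
  refine Finset.card_nbij' Prod.snd (fun v => (w, v)) (fun a ha => ?_) (fun v hv => ?_)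
    (fun a ha => ?_) (fun _ _ => rfl)
  · simp only [Finset.coe_filter, Finset.mem_product, Finset.mem_singleton, Set.mem_ofPred_eq] at ha
    rw [Finset.mem_coe, mem_nb, ← ha.1.1]
    exact ha.2
  · rw [Finset.mem_coe, mem_nb] at hv
    simpa using hv
  · simp only [Finset.coe_filter, Finset.mem_product, Finset.mem_singleton, Set.mem_ofPred_eq] at ha
    rw [← ha.1.1]

theorem BasX.nb_all (w : Fin n) : nb (allEdges n) w = univ.erase w := by
  ext v
  simp [mem_allEdges, eq_comm]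

theorem card_nb_allEdges (w : Fin n) : (nb (allEdges n) w).card = n - 1 := by
  rw [BasX.nb_all, Finset.card_erase_of_mem (Finset.mem_univ _), Finset.card_univ, Fintype.card_fin]

theorem cod_allEdges {u v : Fin n} (h : u ≠ v) : cod (allEdges n) u v = n - 2 := by
  have : nb (allEdges n) u ∩ nb (allEdges n) v = (univ.erase u).erase v := by
    ext x
    simp [BasX.nb_all, and_comm]
  rw [cod, this, Finset.card_erase_of_mem (by simp [h.symm]),
    Finset.card_erase_of_mem (Finset.mem_univ _), Finset.card_univ, Fintype.card_fin]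
  omega

theorem cnt_allEdges (P P' : Finset (Fin n)) :
    cnt (allEdges n) (P ×ˢ P') + (P ∩ P').card = P.card * P'.card := by
  rw [← Finset.card_product, ← Finset.card_filter_add_card_filter_not
    (s := P ×ˢ P') (fun a => s(a.1, a.2) ∈ allEdges n), cnt]
  congr 1
  refine Finset.card_nbij' (fun x => (x, x)) Prod.fst (fun a ha => ?_) (fun a ha => ?_)
    (fun _ _ => rfl) (fun a ha => ?_)
  · simpa [mem_allEdges] using ha
  · simp only [Finset.coe_filter, Finset.mem_product, mem_allEdges, not_not, Sym2.mk_isDiag_iff,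
      Set.mem_ofPred_eq] at ha
    rw [Finset.mem_coe, Finset.mem_inter]
    exact ⟨ha.1.1, ha.2 ▸ ha.1.2⟩
  · simp only [Finset.coe_filter, Finset.mem_product, mem_allEdges, not_not, Sym2.mk_isDiag_iff,
      Set.mem_ofPred_eq] at ha
    exact Prod.ext rfl ha.2

theorem Reg.card_close {G : Gr n} {p ρ δ : ℝ} (h : Reg G p ρ δ) :
    |2 * (G.card : ℝ) - (n : ℝ) ^ 2 * p| ≤ δ * ((n : ℝ) ^ 2 * p) := by
  have h1 : 2 * (G.card : ℝ) = ∑ u, ((nb G u).card : ℝ) := by
    have := (sum_deg G).trans (card_arcs h.noloop)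
    exact_mod_cast this.symm
  have h2 : 2 * (G.card : ℝ) - (n : ℝ) ^ 2 * p = ∑ u, (((nb G u).card : ℝ) - n * p) := by
    rw [Finset.sum_sub_distrib, h1]
    simp only [Finset.sum_const, Finset.card_univ, Fintype.card_fin, nsmul_eq_mul]
    ring
  rw [h2]
  refine (Finset.abs_sum_le_sum_abs _ _).trans ((Finset.sum_le_sum fun u _ => h.deg u).trans ?_)
  simp only [Finset.sum_const, Finset.card_univ, Fintype.card_fin, nsmul_eq_mul]
  exact le_of_eq (by ring)

theorem Reg.cod_le {G : Gr n} {p ρ δ : ℝ} (h : Reg G p ρ δ) (hp : 0 < p) {u v : Fin n}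
    (huv : s(u, v) ∈ G) :
    (1 - ρ) * mu n p ≤ cod G u v ∧ (cod G u v : ℝ) ≤ (1 + ρ) * mu n p := by
  have hn : (0 : ℝ) < n := by exact_mod_cast Fin.pos u
  have hμ : 0 < mu n p := by unfold mu; positivity
  have := abs_le.1 (h.codr u v huv)
  unfold rr at this
  constructor
  · rw [← le_div_iff₀ hμ]; linarith [this.1]
  · rw [← div_le_iff₀ hμ]; linarith [this.2]

/-- in a regular state there are triangles and the time step is at most `1 / μ`
(`6 Q ≥ n · (np/2) · (μ/2)`). -/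
theorem Reg.xs_le {G : Gr n} {p ρ δ : ℝ} (h : Reg G p ρ δ) (hp : 0 < p) (hp1 : p ≤ 1)
    (hρ : ρ ≤ 1 / 2) (hδ : δ ≤ 1 / 2) (hn : 24 ≤ n) :
    0 < Q G ∧ mu n p / (Q G : ℝ) ≤ (mu n p)⁻¹ := by
  have hn' : (24 : ℝ) ≤ n := by exact_mod_cast hn
  have hμ : 0 < mu n p := by unfold mu; positivity
  have h1 : ((arcs G).card : ℝ) * (mu n p / 2) ≤ 6 * (Q G : ℝ) := by
    have e : ∑ e ∈ arcs G, (cod G e.1 e.2 : ℝ) = 6 * (Q G : ℝ) := by
      exact_mod_cast sum_cod_arcs h.noloop
    rw [← e, ← nsmul_eq_mul]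
    refine Finset.card_nsmul_le_sum _ _ _ fun a ha => ?_
    have := (h.cod_le hp (mem_arcs.1 ha)).1
    nlinarith
  have h2 : (n : ℝ) ^ 2 * p / 2 ≤ (arcs G).card := by
    have e : ((arcs G).card : ℝ) = 2 * G.card := by exact_mod_cast card_arcs h.noloop
    have := (abs_le.1 h.card_close).1
    have h0 : 0 ≤ (n : ℝ) ^ 2 * p := by positivity
    nlinarith
  have h3 : 24 * mu n p ≤ (n : ℝ) ^ 2 * p := by
    have : 0 ≤ (n : ℝ) * p * (n - 24 * p) := mul_nonneg (by positivity) (by linarith)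
    unfold mu
    nlinarith
  have h4 : mu n p * mu n p ≤ Q G := by nlinarith
  have h5 : (0 : ℝ) < Q G := lt_of_lt_of_le (by positivity) h4
  refine ⟨by exact_mod_cast h5, ?_⟩
  rw [div_le_iff₀ h5, le_inv_mul_iff₀ hμ]
  exact h4

end Crest.Agent.R30
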