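import Crest.Agent.R30.TreePair

set_option autoImplicit false

open Finset
open scoped BigOperators Classical
open Crest.CombinatoricsR.TriangleRemoval

namespace Crest.Agent.R30

variable {n : ℕ}

namespace CollX

theorem sufs_cons {σ : Type} [DecidableEq σ] (c : σ) (l : List σ) :
    sufs (c :: l) = insert (c :: l) (sufs l) := by
  ext x; simp only [mem_sufs, mem_insert, List.suffix_cons_iff]

theorem sufs_nil {σ : Type} [DecidableEq σ] : sufs ([] : List σ) = {[]} := by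
  ext x; simp only [mem_sufs, mem_singleton, List.suffix_nil]

theorem exists_div {σ : Type} (l1 l2 : List σ) : ∃ l0, l0 <:+ l1 ∧ l0 <:+ l2 ∧ Div l0 l1 l2 := by
  induction l2 with
  | nil => exact ⟨[], List.nil_suffix, List.nil_suffix, fun _ _ h => h⟩
  | cons c l2 ih =>
    by_cases h : c :: l2 <:+ l1
    · exact ⟨_, h, List.suffix_refl _, fun _ _ h => h⟩
    · obtain ⟨l0, a1, a2, a3⟩ := ih
      refine ⟨l0, a1, a2.trans (List.suffix_cons _ _), fun l b1 b2 => ?_⟩
      rcases List.suffix_cons_iff.1 b2 with rfl | b3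
      · exact absurd b1 h
      · exact a3 l b1 b3

variable {G R : Gr n}

theorem first (S : Finset (List (St n))) {l0 : List (St n)} (h0 : Fresh G R (S ∪ sufs l0))
    {l : List (St n)} (hv : Valid (kd G R) l) (hs : l0 <:+ l) (h : ¬ Fresh G R (S ∪ sufs l)) :
    ∃ c l', l0 <:+ l' ∧ c :: l' <:+ l ∧ Fresh G R (S ∪ sufs l') ∧ c ∈ kd G R l' ∧
      c.2 ⊆ Vs R (S ∪ sufs l') := by
  induction l with
  | nil => rw [List.suffix_nil.1 hs] at h0; exact absurd h0 h
  | cons c l ih =>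
    obtain ⟨v1, v2⟩ := valid_cons.1 hv
    rcases List.suffix_cons_iff.1 hs with rfl | hs'
    · exact absurd h0 h
    by_cases hf : Fresh G R (S ∪ sufs l)
    · refine ⟨c, l, hs', List.suffix_refl _, hf, v2, not_not.1 fun hc => h ?_⟩
      rw [sufs_cons, union_insert]
      exact Fresh.step _ l c hf (mem_union_right _ (mem_sufs.2 (List.suffix_refl _))) v2 hc
    · obtain ⟨c', l', a1, a2, a3⟩ := ih v1 hs' hf
      exact ⟨c', l', a1, a2.trans (List.suffix_cons _ _), a3⟩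

theorem pack {K : ℕ} {lb : List (St n) → ℕ} {l0 l1 l : List (St n)} {c : St n}
    (v1 : Valid (kd G R) l1) (n1 : l1.length ≤ K + 1) (a1 : Act (kd G R) K lb l1.tail)
    (a2 : Act (kd G R) K lb l) (s1 : l0 <:+ l1) (s2 : l0 <:+ l) (hd : Div l0 l1 l)
    (hf : Fresh G R (sufs l1 ∪ sufs l)) (hc : c ∈ kd G R l) (hn : ¬ c :: l <:+ l1)
    (hv : c.2 ⊆ Vs R (sufs l1 ∪ sufs l)) :
    ∃ a ∈ range (K + 2), ∃ b ∈ range (K + 2), ∃ i ∈ range (K + 2), ∃ t ∈ Bad G R a b i,
      Act (kd G R) K lb (if b = 0 then t.2.1 else t.2.1.tail) ∧ Act (kd G R) K lb t.2.2.1 := by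
  have n2 := a2.length_add_hor_le
  have n3 := s1.length_le
  have n4 := s2.length_le
  obtain ⟨v0, e1⟩ := v1.mem_ext s1
  have e2 := (a2.valid.mem_ext s2).2
  refine ⟨l0.length, mem_range.2 (by omega), l1.length - l0.length, mem_range.2 (by omega),
    l.length - l0.length, mem_range.2 (by omega), (l0, l1, l, c), mem_filter.2
      ⟨mem_product.2 ⟨v0, mem_product.2 ⟨ext_trans v0 e1, mem_product.2 ⟨ext_trans v0 e2, mem_univ _⟩⟩⟩,
        e1, e2, hd, hf, hc, fun h => hn (mem_sufs.1 h), hv⟩, ?_, a2⟩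
  split_ifs with hb
  · exact s1.eq_of_length (by omega) ▸ a2.of_suffix s2
  · exact a1

theorem main {K : ℕ} {lb : List (St n) → ℕ} {m1 m2 : List (St n)} {c1 c2 : St n}
    (a1 : Act (kd G R) K lb m1) (k1 : c1 ∈ kd G R m1) (a2 : Act (kd G R) K lb m2)
    (k2 : c2 ∈ kd G R m2) (he : c1.2 = c2.2) (hn : ¬ c2 :: m2 <:+ c1 :: m1) :
    ∃ a ∈ range (K + 2), ∃ b ∈ range (K + 2), ∃ i ∈ range (K + 2), ∃ t ∈ Bad G R a b i,
      Act (kd G R) K lb (if b = 0 then t.2.1 else t.2.1.tail) ∧ Act (kd G R) K lb t.2.2.1 := by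
  have v1 : Valid (kd G R) (c1 :: m1) := valid_cons.2 ⟨a1.valid, k1⟩
  have hsuf : ∀ {c c' : St n} {l l' : List (St n)}, c :: l <:+ c' :: l' → l <:+ l' :=
    fun {c c' l l'} h => by
      rcases List.suffix_cons_iff.1 h with h | h
      · rw [(List.cons.inj h).2]
      · exact (List.suffix_cons _ _).trans h
  have hlen : ∀ {c : St n} {l : List (St n)}, ¬ c :: l <:+ l := fun h => by
    have := h.length_le
    simp at this
  by_cases hf : Fresh G R (sufs (c1 :: m1))
  · obtain ⟨l0, s1, s2, hd⟩ := exists_div (c1 :: m1) (c2 :: m2)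
    have s3 : l0 <:+ m2 := (List.suffix_cons_iff.1 s2).resolve_left fun h => hn (h ▸ s1)
    obtain ⟨c, l, b1, b2, b3, b4, b5⟩ : ∃ c l, l0 <:+ l ∧ c :: l <:+ c2 :: m2 ∧
        Fresh G R (sufs (c1 :: m1) ∪ sufs l) ∧ c ∈ kd G R l ∧
        c.2 ⊆ Vs R (sufs (c1 :: m1) ∪ sufs l) := by
      by_cases hf2 : Fresh G R (sufs (c1 :: m1) ∪ sufs m2)
      · exact ⟨c2, m2, s3, List.suffix_refl _, hf2, k2, fun v hv => mem_filter.2 ⟨mem_univ _,
          Or.inr ⟨c1 :: m1, mem_union_left _ (mem_sufs.2 (List.suffix_refl _)),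
            show v ∈ c1.2 from he ▸ hv⟩⟩⟩
      · obtain ⟨c, l, b1, b2, b3⟩ := first _ (l0 := l0) (by
          rwa [union_eq_left.2 fun x hx => mem_sufs.2 ((mem_sufs.1 hx).trans s1)]) a2.valid s3 hf2
        exact ⟨c, l, b1, b2.trans (List.suffix_cons _ _), b3⟩
    have := a1.length_add_hor_le
    exact pack v1 (by simp only [List.length_cons]; omega) a1 (a2.of_suffix (hsuf b2)) s1 b1
      (fun x h1 h2 => hd x h1 (h2.trans ((List.suffix_cons _ _).trans b2))) b3 b4
      (fun h => hlen ((hd _ h b2).trans b1)) b5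
  · obtain ⟨c, l, -, b2, b3, b4, b5⟩ := first ∅ (l0 := []) (by
      rw [empty_union, sufs_nil]; exact Fresh.base) v1 List.nil_suffix (by rwa [empty_union])
    rw [empty_union, ← union_self (sufs l)] at b3 b5
    have a3 := a1.of_suffix (hsuf b2)
    have := a3.length_add_hor_le
    exact pack a3.valid (by omega) (a3.of_suffix (List.tail_suffix _)) a3 (List.suffix_refl _)
      (List.suffix_refl _) (fun _ h _ => h) b3 b4 hlen b5

end CollX

/-- a collision produces an overdense structure along active nodes -/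
theorem coll_sub (G R : Gr n) (K : ℕ) (ω : Nd (St n) K → Fin K)
    (h : ¬ Set.InjOn (fun i : Nd (St n) K => prj i.1) (Rset (kd G R) ω)) :
    ∃ a ∈ range (K + 2), ∃ b ∈ range (K + 2), ∃ i ∈ range (K + 2), ∃ t ∈ Bad G R a b i,
      Act (kd G R) K (lab ω) (if b = 0 then t.2.1 else t.2.1.tail) ∧
        Act (kd G R) K (lab ω) t.2.2.1 := by
  unfold Set.InjOn at h
  push Not at h
  obtain ⟨x, hx, y, hy, he, hne⟩ := h
  obtain ⟨c1, m1, e1, a1, k1⟩ := (mem_filter.1 (mem_coe.1 hx)).2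
  obtain ⟨c2, m2, e2, a2, k2⟩ := (mem_filter.1 (mem_coe.1 hy)).2
  simp only [e1, e2, prj] at he
  by_cases hs : c2 :: m2 <:+ c1 :: m1
  · refine CollX.main a2 k2 a1 k1 he.symm fun hs' => hne (Subtype.ext ?_)
    rw [e1, e2]
    exact hs'.eq_of_length (le_antisymm hs'.length_le hs.length_le)
  · exact CollX.main a1 k1 a2 k2 he hs

theorem coll_le (G R : Gr n) {K : ℕ} (hK : 0 < K) (B : ℕ → ℝ) (hB0 : ∀ j, 0 ≤ B j)
    (hB : ∀ l, Valid (kd G R) l → l ≠ [] → ∀ j ≤ K, tβ (kd G R) K j l ≤ B j)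
    (hhalf : ∀ l, Valid (kd G R) l → ∀ c ∈ kd G R l, ∀ j ≤ K,
      (K : ℝ)⁻¹ * ∑ i ∈ range j, tβ (kd G R) K i (c :: l) ≤ 1 / 2) :
    (𝔼 ω : Nd (St n) K → Fin K,
        ind (¬ Set.InjOn (fun i : Nd (St n) K => prj i.1) (Rset (kd G R) ω))) ≤
      ∑ a ∈ range (K + 2), ∑ b ∈ range (K + 2), ∑ i ∈ range (K + 2),
        ((Bad G R a b i).card : ℝ) *
          (wt ((K : ℝ)⁻¹ * ∑ j ∈ range K, 2 * B j) a *
            wt ((K : ℝ)⁻¹ * ∑ j ∈ range K, 2 * B j) (b - 1) *
            wt ((K : ℝ)⁻¹ * ∑ j ∈ range K, 2 * B j) i) := by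
  refine le_trans (expect_le_expect (g := fun ω => ∑ a ∈ range (K + 2), ∑ b ∈ range (K + 2),
    ∑ i ∈ range (K + 2), ∑ t ∈ Bad G R a b i,
      ind (Act (kd G R) K (lab ω) (if b = 0 then t.2.1 else t.2.1.tail) ∧
        Act (kd G R) K (lab ω) t.2.2.1)) fun ω _ => ?_) ?_
  · have n4 := fun (a b i : ℕ) => sum_nonneg (s := Bad G R a b i) fun t _ => ind_nonneg
      (Act (kd G R) K (lab ω) (if b = 0 then t.2.1 else t.2.1.tail) ∧ Act (kd G R) K (lab ω) t.2.2.1)
    have n3 := fun (a b : ℕ) => sum_nonneg (s := range (K + 2)) fun i _ => n4 a b i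
    have n2 := fun (a : ℕ) => sum_nonneg (s := range (K + 2)) fun b _ => n3 a b
    by_cases h : ¬ Set.InjOn (fun i : Nd (St n) K => prj i.1) (Rset (kd G R) ω)
    · obtain ⟨a, ha, b, hb, i, hi, t, ht, h'⟩ := coll_sub G R K ω h
      rw [ind_pos h, ← ind_pos h']
      exact (single_le_sum (f := fun t : List (St n) × List (St n) × List (St n) × St n =>
        ind (Act (kd G R) K (lab ω) (if b = 0 then t.2.1 else t.2.1.tail) ∧
          Act (kd G R) K (lab ω) t.2.2.1)) (fun t _ => ind_nonneg _) ht).trans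
        ((single_le_sum (fun i _ => n4 a b i) hi).trans
          ((single_le_sum (fun b _ => n3 a b) hb).trans (single_le_sum (fun a _ => n2 a) ha)))
    · rw [ind_neg h]
      exact sum_nonneg fun a _ => n2 a
  · simp only [expect_sum_comm]
    refine sum_le_sum fun a _ => sum_le_sum fun b _ => sum_le_sum fun i _ => ?_
    rw [← nsmul_eq_mul]
    refine sum_le_card_nsmul _ _ _ fun t ht => ?_
    obtain ⟨h0, h1, h2, hd, -⟩ := mem_filter.1 ht
    refine tree_pair (kd G R) hK B hB0 hB hhalf (mem_product.1 h0).1 ?_ h2 ?_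
    · cases b with
      | zero => exact h1
      | succ b =>
        obtain ⟨c, l', e, h3, -⟩ := mem_ext_succ.1 h1
        rw [if_neg (Nat.succ_ne_zero b), e]
        exact h3
    · intro l h3
      refine hd l ?_
      split_ifs at h3
      · exact h3
      · exact h3.trans (List.tail_suffix _)

end Crest.Agent.R30
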