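import Crest.Agent.R30.Defs

set_option autoImplicit false

open Finset
open scoped BigOperators Classical
open Crest.CombinatoricsR.TriangleRemoval

namespace Crest.Agent.R30

theorem CoupleX.ind_congr {P Q : Prop} (h : P ↔ Q) : ind P = ind Q := by
  rw [propext h]

theorem CoupleX.cyl0 {J Ω : Type} [Fintype J] [DecidableEq J] [Fintype Ω] [Nonempty Ω]
    (S : Finset J) (v : J → Ω) :
    (𝔼 ω : J → Ω, ind (∀ j ∈ S, ω j = v j)) * (Fintype.card Ω : ℝ) ^ S.card = 1 := by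
  have hc : (0 : ℝ) < Fintype.card Ω := by exact_mod_cast Fintype.card_pos
  have e : ∀ ω : J → Ω, ind (∀ j ∈ S, ω j = v j) =
      ∏ j, (if j ∈ S then ind (ω j = v j) else 1) := by
    intro ω
    by_cases h : ∀ j ∈ S, ω j = v j
    · rw [ind_pos h]
      symm
      refine Finset.prod_eq_one fun j _ => ?_
      split_ifs with hj
      · exact ind_pos (h j hj)
      · rfl
    · rw [ind_neg h]
      push Not at h
      obtain ⟨j, hj, hne⟩ := h
      symm
      refine Finset.prod_eq_zero (Finset.mem_univ j) ?_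
      rw [if_pos hj, ind_neg hne]
  rw [Finset.expect_eq_sum_div_card]
  simp only [e]
  have e2 := Finset.prod_univ_sum (fun _ : J => (univ : Finset Ω))
    (fun j x => if j ∈ S then ind (x = v j) else (1 : ℝ))
  rw [Fintype.piFinset_univ] at e2
  rw [← e2]
  have e3 : ∀ j : J, (∑ x : Ω, if j ∈ S then ind (x = v j) else (1 : ℝ)) =
      if j ∈ S then 1 else (Fintype.card Ω : ℝ) := by
    intro j
    split_ifs with hj
    · simp [ind]
    · simp
  simp only [e3]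
  have e4 : (Fintype.card Ω : ℝ) ^ S.card = ∏ j : J, if j ∈ S then (Fintype.card Ω : ℝ) else 1 := by
    rw [Finset.prod_ite_mem, Finset.univ_inter, Finset.prod_const]
  rw [div_mul_eq_mul_div, e4, ← Finset.prod_mul_distrib]
  have e5 : ∀ j : J, ((if j ∈ S then 1 else (Fintype.card Ω : ℝ)) *
      if j ∈ S then (Fintype.card Ω : ℝ) else 1) = Fintype.card Ω := by
    intro j; split_ifs <;> simp
  simp only [e5]
  rw [Finset.prod_const, Finset.card_univ, Finset.card_univ, Fintype.card_fun]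
  push_cast
  exact div_self (pow_pos hc _).ne'

theorem CoupleX.cyl {I J Ω : Type} [Fintype J] [DecidableEq J] [Fintype Ω] [Nonempty Ω]
    (π : I → J) (S : Finset I) (hS : Set.InjOn π S) (v : I → Ω) :
    (𝔼 ω : J → Ω, ind (∀ i ∈ S, (ω ∘ π) i = v i)) * (Fintype.card Ω : ℝ) ^ S.card = 1 := by
  let w : J → Ω := fun j => if h : ∃ i ∈ S, π i = j then v h.choose else Classical.arbitrary Ω
  have hw : ∀ i ∈ S, w (π i) = v i := by
    intro i hi
    have h : ∃ i' ∈ S, π i' = π i := ⟨i, hi, rfl⟩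
    have := h.choose_spec
    simp only [w, dif_pos h]
    rw [hS this.1 hi this.2]
  have := CoupleX.cyl0 (S.image π) w
  rw [Finset.card_image_of_injOn hS] at this
  rw [← this]
  congr 1
  refine Finset.expect_congr rfl fun ω _ => CoupleX.ind_congr ?_
  constructor
  · intro h j hj
    obtain ⟨i, hi, rfl⟩ := Finset.mem_image.1 hj
    rw [hw i hi]
    exact h i hi
  · intro h i hi
    rw [← hw i hi]
    exact h _ (Finset.mem_image_of_mem π hi)

theorem CoupleX.main {I J Ω : Type} [Fintype I] [DecidableEq I] [Fintype J] [DecidableEq J]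
    [Fintype Ω] [Nonempty Ω] (π : I → J) (R : (I → Ω) → Finset I) (g : (I → Ω) → Prop)
    (hstop : ∀ ω ω' : I → Ω, (∀ i ∈ R ω, ω' i = ω i) → R ω' = R ω ∧ (g ω' ↔ g ω))
    (hg : ∀ ω, g ω → Set.InjOn π (R ω)) :
    (𝔼 ω : J → Ω, ind (g (ω ∘ π))) = 𝔼 ω : I → Ω, ind (g ω) := by
  have e1 : ∀ ω : I → Ω, ind (g ω) = 𝔼 ω0 : I → Ω,
      ind (g ω0) * (ind (∀ i ∈ R ω0, ω i = ω0 i) * (Fintype.card Ω : ℝ) ^ (R ω0).card) := by
    intro ω
    have e : ∀ ω0 : I → Ω,
        ind (g ω0) * (ind (∀ i ∈ R ω0, ω i = ω0 i) * (Fintype.card Ω : ℝ) ^ (R ω0).card) =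
        ind (g ω) * (ind (∀ i ∈ R ω, ω0 i = ω i) * (Fintype.card Ω : ℝ) ^ (R ω).card) := by
      intro ω0
      by_cases h : ∀ i ∈ R ω0, ω i = ω0 i
      · obtain ⟨h1, h2⟩ := hstop ω0 ω h
        rw [ind_pos h, ind_pos (P := ∀ i ∈ R ω, ω0 i = ω i) (fun i hi => (h i (h1 ▸ hi)).symm), h1,
          CoupleX.ind_congr h2]
      · have h' : ¬ ∀ i ∈ R ω, ω0 i = ω i := fun h' =>
          h fun i hi => (h' i ((hstop ω ω0 h').1 ▸ hi)).symm
        rw [ind_neg h, ind_neg h']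
        simp
    simp only [e]
    rw [← Finset.mul_expect, ← Finset.expect_mul, CoupleX.cyl0, mul_one]
  calc (𝔼 ω : J → Ω, ind (g (ω ∘ π)))
      = 𝔼 ω : J → Ω, 𝔼 ω0 : I → Ω, ind (g ω0) *
          (ind (∀ i ∈ R ω0, (ω ∘ π) i = ω0 i) * (Fintype.card Ω : ℝ) ^ (R ω0).card) :=
        Finset.expect_congr rfl fun ω _ => e1 _
    _ = 𝔼 ω0 : I → Ω, 𝔼 ω : J → Ω, ind (g ω0) *
          (ind (∀ i ∈ R ω0, (ω ∘ π) i = ω0 i) * (Fintype.card Ω : ℝ) ^ (R ω0).card) :=
        Finset.expect_comm _ _ _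
    _ = 𝔼 ω : I → Ω, ind (g ω) := by
        refine Finset.expect_congr rfl fun ω0 _ => ?_
        rw [← Finset.mul_expect, ← Finset.expect_mul]
        by_cases h : g ω0
        · rw [CoupleX.cyl π _ (hg ω0 h), mul_one]
        · rw [ind_neg h, zero_mul]


/-- Stopping-set coupling. -/
theorem couple {I J Ω : Type} [Fintype I] [DecidableEq I] [Fintype J] [DecidableEq J]
    [Fintype Ω] [Nonempty Ω] (π : I → J) (R : (I → Ω) → Finset I) (out : (I → Ω) → Prop)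
    (hstop : ∀ ω ω' : I → Ω, (∀ i ∈ R ω, ω' i = ω i) → R ω' = R ω ∧ (out ω' ↔ out ω)) :
    |(𝔼 ω : J → Ω, ind (out (ω ∘ π))) - 𝔼 ω : I → Ω, ind (out ω)| ≤
      𝔼 ω : I → Ω, ind (¬ Set.InjOn π (R ω)) := by
  have m1 := CoupleX.main π R (fun ω => out ω ∧ Set.InjOn π (R ω))
    (fun ω ω' h => ⟨(hstop ω ω' h).1, by rw [(hstop ω ω' h).1, (hstop ω ω' h).2]⟩) (fun ω h => h.2)
  have m2 := CoupleX.main π R (fun ω => Set.InjOn π (R ω))
    (fun ω ω' h => ⟨(hstop ω ω' h).1, by rw [(hstop ω ω' h).1]⟩) (fun ω h => h)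
  have p1 : ∀ ω : I → Ω, ind (out ω ∧ Set.InjOn π (R ω)) ≤ ind (out ω) := fun ω => by
    by_cases a : out ω <;> by_cases b : Set.InjOn π (R ω) <;> simp [ind, a, b]
  have p2 : ∀ ω : I → Ω, ind (out ω) ≤
      ind (out ω ∧ Set.InjOn π (R ω)) + (1 - ind (Set.InjOn π (R ω))) := fun ω => by
    by_cases a : out ω <;> by_cases b : Set.InjOn π (R ω) <;> simp [ind, a, b]
  have p3 : ∀ ω : I → Ω, ind (¬ Set.InjOn π (R ω)) = 1 - ind (Set.InjOn π (R ω)) := fun ω => by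
    by_cases b : Set.InjOn π (R ω) <;> simp [ind, b]
  have q3 : (𝔼 ω : I → Ω, ind (¬ Set.InjOn π (R ω))) = 1 - 𝔼 ω : I → Ω, ind (Set.InjOn π (R ω)) := by
    simp only [p3]
    rw [Finset.expect_sub_distrib, Finset.expect_const Finset.univ_nonempty]
  have a1 : (𝔼 ω : I → Ω, ind (out ω ∧ Set.InjOn π (R ω))) ≤ 𝔼 ω : I → Ω, ind (out ω) :=
    Finset.expect_le_expect fun ω _ => p1 ω
  have a2 : (𝔼 ω : J → Ω, ind (out (ω ∘ π) ∧ Set.InjOn π (R (ω ∘ π)))) ≤
      𝔼 ω : J → Ω, ind (out (ω ∘ π)) :=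
    Finset.expect_le_expect fun ω _ => p1 _
  have b1 : (𝔼 ω : I → Ω, ind (out ω)) ≤ 𝔼 ω : I → Ω,
      (ind (out ω ∧ Set.InjOn π (R ω)) + (1 - ind (Set.InjOn π (R ω)))) :=
    Finset.expect_le_expect fun ω _ => p2 ω
  have b2 : (𝔼 ω : J → Ω, ind (out (ω ∘ π))) ≤ 𝔼 ω : J → Ω,
      (ind (out (ω ∘ π) ∧ Set.InjOn π (R (ω ∘ π))) + (1 - ind (Set.InjOn π (R (ω ∘ π))))) :=
    Finset.expect_le_expect fun ω _ => p2 _
  rw [Finset.expect_add_distrib, Finset.expect_sub_distrib,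
    Finset.expect_const Finset.univ_nonempty] at b1 b2
  rw [q3, abs_le]
  constructor <;> linarith

end Crest.Agent.R30
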