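import Mathlib
import Crest.Prelude.Def_TriangleRemoval

/-!
# Row 30 (S0040, triangle removal): all definitions

See `Crest/Agent/R30/Guide.lean` for the proof plan.
-/

set_option autoImplicit false

open Finset
open scoped BigOperators Classical
open Crest.CombinatoricsR.TriangleRemoval

namespace Crest.Agent.R30

noncomputable section

/-- `0/1` indicator of a proposition. -/
def ind (P : Prop) : ℝ := if P then 1 else 0

theorem ind_pos {P : Prop} (h : P) : ind P = 1 := if_pos h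
theorem ind_neg {P : Prop} (h : ¬ P) : ind P = 0 := if_neg h
theorem ind_nonneg (P : Prop) : 0 ≤ ind P := by unfold ind; split_ifs <;> norm_num
theorem ind_le_one (P : Prop) : ind P ≤ 1 := by unfold ind; split_ifs <;> norm_num

/-! ## Graphs -/

/-- A graph on `Fin n` as a set of unordered pairs. -/
abbrev Gr (n : ℕ) := Finset (Sym2 (Fin n))

section graphs
variable {n : ℕ}

def NoLoop (G : Gr n) : Prop := ∀ e ∈ G, ¬ e.IsDiag

/-- neighbourhood -/
def nb (G : Gr n) (u : Fin n) : Finset (Fin n) := univ.filter fun v => s(u, v) ∈ G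

/-- oriented edges -/
def arcs (G : Gr n) : Finset (Fin n × Fin n) := univ.filter fun a => s(a.1, a.2) ∈ G

/-- codegree -/
def cod (G : Gr n) (u v : Fin n) : ℕ := (nb G u ∩ nb G v).card

/-- number of triangles -/
def Q (G : Gr n) : ℕ := (triangles G).card

/-- remove the edges of `T` -/
def rem (G : Gr n) (T : Finset (Fin n)) : Gr n := G \ T.sym2

/-- average over a uniform triangle of `G` -/
def avgT (G : Gr n) (f : Finset (Fin n) → ℝ) : ℝ := (Q G : ℝ)⁻¹ * ∑ T ∈ triangles G, f T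

/-- value of the process started at `G` -/
def val (φ : ℕ → ℝ) (G : Gr n) : ℝ := expectFinal φ (n ^ 2) G

/-- the (non-diagonal) edges of a vertex set -/
def tE (T : Finset (Fin n)) : Gr n := T.sym2.filter fun g => ¬ g.IsDiag

/-- number of ordered pairs of `F` that are edges of `G` -/
def cnt (G : Gr n) (F : Finset (Fin n × Fin n)) : ℕ := (F.filter fun a => s(a.1, a.2) ∈ G).card

/-- expected codegree at density `p` -/
def mu (n : ℕ) (p : ℝ) : ℝ := n * p ^ 2

/-- relative codegree deviation -/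
def rr (G : Gr n) (p : ℝ) (u v : Fin n) : ℝ := (cod G u v : ℝ) / mu n p - 1

/-- star average of an arc function -/
def sav (G : Gr n) (p : ℝ) (a : Fin n → Fin n → ℝ) (w : Fin n) : ℝ :=
  ((n : ℝ) * p)⁻¹ * ∑ u ∈ nb G w, a w u

/-- the linearised triangle operator -/
def Bop (G : Gr n) (p : ℝ) (a : Fin n → Fin n → ℝ) (u v : Fin n) : ℝ :=
  (mu n p)⁻¹ * ∑ w ∈ nb G u ∩ nb G v, (a u w + a v w)

/-- the `L^q` Lyapunov function -/
def Phi (q : ℕ) (κ : ℝ) (G : Gr n) (p : ℝ) (a : Fin n → Fin n → ℝ) : ℝ :=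
  ∑ e ∈ arcs G, a e.1 e.2 ^ q + κ * ((n : ℝ) * p) * ∑ w, sav G p a w ^ q

/-- regularity: degrees, codegrees, expander mixing inside every link -/
structure Reg (G : Gr n) (p ρ δ : ℝ) : Prop where
  noloop : NoLoop G
  deg : ∀ w, |((nb G w).card : ℝ) - n * p| ≤ δ * (n * p)
  codr : ∀ u v, s(u, v) ∈ G → |rr G p u v| ≤ ρ
  em : ∀ w (P P' : Finset (Fin n)), P ⊆ nb G w → P' ⊆ nb G w →
    |(cnt G (P ×ˢ P') : ℝ) - p * P.card * P'.card| ≤ δ * mu n p * (P.card + P'.card)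

/-! ## Main phase: state `(G, τ)`, density `p = exp (-τ)`, step `τ ↦ τ + xs G τ` -/

/-- the time step -/
def xs (G : Gr n) (τ : ℝ) : ℝ := mu n (Real.exp (-τ)) / (Q G : ℝ)

/-- `W` is a supermartingale at the state `(G, τ)` -/
def Sup (W : Gr n → ℝ → ℝ) (G : Gr n) (τ : ℝ) : Prop :=
  avgT G (fun T => W (rem G T) (τ + xs G τ)) ≤ W G τ

def Wphi (q : ℕ) (κ C : ℝ) (G : Gr n) (τ : ℝ) : ℝ :=
  Real.exp (-(q * τ)) * Phi q κ G (Real.exp (-τ)) (rr G (Real.exp (-τ)))
    + C * (n : ℝ) ^ 2 * ((n : ℝ) ^ (q / 2))⁻¹ * G.card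

def Wup (ρ : ℝ) (F : Finset (Fin n × Fin n)) (G : Gr n) (τ : ℝ) : ℝ :=
  Real.exp (ρ * (cnt G F - Real.exp (-((1 - 10 * ρ) * τ)) * cnt (allEdges n) F)) + G.card

def Wlo (ρ : ℝ) (F : Finset (Fin n × Fin n)) (G : Gr n) (τ : ℝ) : ℝ :=
  Real.exp (ρ * (Real.exp (-((1 + 10 * ρ) * τ)) * cnt (allEdges n) F - cnt G F)) + G.card

def Wsub (ρ : ℝ) (F : Gr n) (G : Gr n) (τ : ℝ) : ℝ :=
  ind (F ⊆ G) * Real.exp ((1 - 10 * ρ) * F.card * τ)

/-! ## Final stage: labelled greedy process -/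

/-- `alive G ω k f`: the edge `f` is not removed by a triangle of label `< k`. -/
def alive (G : Gr n) (ω : Finset (Fin n) → ℕ) : ℕ → Sym2 (Fin n) → Prop
  | k, f => ∀ T ∈ triangles G, f ∈ T.sym2 → ∀ _h : ω T < k,
      ¬ ∀ g ∈ (tE T).erase f, alive G ω (ω T) g
termination_by k => k
decreasing_by assumption

theorem alive_iff (G : Gr n) (ω : Finset (Fin n) → ℕ) (k : ℕ) (f : Sym2 (Fin n)) :
    alive G ω k f ↔ ∀ T ∈ triangles G, f ∈ T.sym2 → ω T < k →
      ¬ ∀ g ∈ (tE T).erase f, alive G ω (ω T) g := by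
  rw [alive]

/-- branch survival probabilities on the unfolded tree (`T0` is the excluded triangle) -/
def uu (G : Gr n) (K : ℕ) : ℕ → Sym2 (Fin n) → Finset (Fin n) → ℝ
  | k, f, T0 => ∏ T ∈ (triangles G).filter (fun T => f ∈ T.sym2 ∧ T ≠ T0),
      (1 - (K : ℝ)⁻¹ * ∑ j : Fin k, ∏ g ∈ (tE T).erase f, uu G K j g T)
termination_by k => k
decreasing_by exact j.2

theorem uu_eq (G : Gr n) (K k : ℕ) (f : Sym2 (Fin n)) (T0 : Finset (Fin n)) :
    uu G K k f T0 = ∏ T ∈ (triangles G).filter (fun T => f ∈ T.sym2 ∧ T ≠ T0),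
      (1 - (K : ℝ)⁻¹ * ∑ j ∈ range k, ∏ g ∈ (tE T).erase f, uu G K j g T) := by
  rw [uu]
  refine Finset.prod_congr rfl fun T _ => ?_
  rw [Fin.sum_univ_eq_sum_range (fun j => ∏ g ∈ (tE T).erase f, uu G K j g T) k]

end graphs

/-- the discrete mean-field time -/
def tau (μ : ℝ) (K : ℕ) : ℕ → ℝ
  | 0 => 0
  | k + 1 => tau μ K k + μ * Real.exp (-(2 * tau μ K k)) / K

/-! ## Abstract labelled trees: nodes are lists (head = last step) -/

section tree
variable {σ : Type} [Fintype σ] [DecidableEq σ]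

/-- no child of `l` is accepted before time `k` -/
def tb (kids : List σ → Finset σ) (lab : List σ → ℕ) : ℕ → List σ → Prop
  | k, l => ∀ c ∈ kids l, ∀ _h : lab (c :: l) < k, ¬ tb kids lab (lab (c :: l)) (c :: l)
termination_by k => k
decreasing_by assumption

omit [Fintype σ] [DecidableEq σ] in
theorem tb_iff (kids : List σ → Finset σ) (lab : List σ → ℕ) (k : ℕ) (l : List σ) :
    tb kids lab k l ↔ ∀ c ∈ kids l, lab (c :: l) < k → ¬ tb kids lab (lab (c :: l)) (c :: l) := by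
  rw [tb]

/-- the probability of `tb` under independent uniform labels -/
def tβ (kids : List σ → Finset σ) (K : ℕ) : ℕ → List σ → ℝ
  | k, l => ∏ c ∈ kids l, (1 - (K : ℝ)⁻¹ * ∑ j : Fin k, tβ kids K j (c :: l))
termination_by k => k
decreasing_by exact j.2

omit [Fintype σ] [DecidableEq σ] in
theorem tβ_eq (kids : List σ → Finset σ) (K k : ℕ) (l : List σ) :
    tβ kids K k l = ∏ c ∈ kids l, (1 - (K : ℝ)⁻¹ * ∑ j ∈ range k, tβ kids K j (c :: l)) := by
  rw [tβ]
  refine Finset.prod_congr rfl fun c _ => ?_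
  rw [Fin.sum_univ_eq_sum_range (fun j => tβ kids K j (c :: l)) k]

/-- nodes of depth at most `K + 1` -/
def Nd (σ : Type) (K : ℕ) : Type := {l : List σ // l.length ≤ K + 1}

instance (K : ℕ) : Fintype (Nd σ K) :=
  (List.finite_length_le σ (K + 1)).fintype

instance (K : ℕ) : DecidableEq (Nd σ K) := fun a b => Classical.propDecidable (a = b)

/-- labels as a total function on lists -/
def lab {K : ℕ} (ω : Nd σ K → Fin K) (l : List σ) : ℕ :=
  if h : l.length ≤ K + 1 then (ω ⟨l, h⟩ : ℕ) else 0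

/-- the time horizon of a node -/
def hor (K : ℕ) (lb : List σ → ℕ) : List σ → ℕ
  | [] => K
  | c :: l => lb (c :: l)

/-- active (explored) nodes -/
def Act (kids : List σ → Finset σ) (K : ℕ) (lb : List σ → ℕ) : List σ → Prop
  | [] => True
  | c :: l => Act kids K lb l ∧ c ∈ kids l ∧ lb (c :: l) < hor K lb l ∧
      tb kids lb (lb (c :: l)) l

/-- queried nodes: children of active nodes -/
def Rset (kids : List σ → Finset σ) {K : ℕ} (ω : Nd σ K → Fin K) : Finset (Nd σ K) :=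
  univ.filter fun i => ∃ c l, i.1 = c :: l ∧ Act kids K (lab ω) l ∧ c ∈ kids l

/-- descendants of `l` at relative depth `b` -/
def ext (kids : List σ → Finset σ) (l : List σ) : ℕ → Finset (List σ)
  | 0 => {l}
  | b + 1 => (ext kids l b).biUnion fun l' => (kids l').image fun c => c :: l'

/-- valid nodes of the tree -/
def Valid (kids : List σ → Finset σ) (l : List σ) : Prop := l ∈ ext kids [] l.length

/-- `l0` is the last common ancestor of `l1` and `l2` -/
def Div (l0 l1 l2 : List σ) : Prop := ∀ l, l <:+ l1 → l <:+ l2 → l <:+ l0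

/-- ancestors (suffixes) of a node, including itself and the root -/
def sufs (l : List σ) : Finset (List σ) := l.tails.toFinset

end tree

/-- chain weight -/
def wt (H : ℝ) (d : ℕ) : ℝ := H ^ (d - 1) / (d - 1).factorial

/-! ## The unfolded triangle tree of a graph from a root set of edges -/

section conc
variable {n : ℕ}

/-- a step: base edge and triangle -/
abbrev St (n : ℕ) := Sym2 (Fin n) × Finset (Fin n)

/-- frontier edges of a node -/
def fr (R : Gr n) : List (St n) → Gr n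
  | [] => R
  | c :: _ => (tE c.2).erase c.1

/-- the triangle of a node -/
def prj : List (St n) → Finset (Fin n)
  | [] => ∅
  | c :: _ => c.2

/-- children of a node -/
def kd (G R : Gr n) (l : List (St n)) : Finset (St n) :=
  univ.filter fun c => c.1 ∈ fr R l ∧ c.2 ∈ triangles G ∧ c.1 ∈ c.2.sym2 ∧ c.2 ≠ prj l

/-- vertices of a set of nodes -/
def Vs (R : Gr n) (S : Finset (List (St n))) : Finset (Fin n) :=
  univ.filter fun v => (∃ e ∈ R, v ∈ e) ∨ ∃ l ∈ S, v ∈ prj l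

/-- edges of a set of nodes -/
def Fs (R : Gr n) (S : Finset (List (St n))) : Gr n := S.biUnion (fr R)

/-- sets of nodes built by adding triangles with a new vertex -/
inductive Fresh (G R : Gr n) : Finset (List (St n)) → Prop
  | base : Fresh G R {[]}
  | step (S : Finset (List (St n))) (l : List (St n)) (c : St n) :
      Fresh G R S → l ∈ S → c ∈ kd G R l → ¬ c.2 ⊆ Vs R S → Fresh G R (insert (c :: l) S)

/-- overdense structures: `(l0, l1, l2, c)` -/
def Bad (G R : Gr n) (a b i : ℕ) : Finset (List (St n) × List (St n) × List (St n) × St n) :=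
  (ext (kd G R) [] a ×ˢ ext (kd G R) [] (a + b) ×ˢ ext (kd G R) [] (a + i) ×ˢ
      (univ : Finset (St n))).filter fun t =>
    t.2.1 ∈ ext (kd G R) t.1 b ∧ t.2.2.1 ∈ ext (kd G R) t.1 i ∧ Div t.1 t.2.1 t.2.2.1 ∧
      Fresh G R (sufs t.2.1 ∪ sufs t.2.2.1) ∧ t.2.2.2 ∈ kd G R t.2.2.1 ∧
      (t.2.2.2 :: t.2.2.1) ∉ sufs t.2.1 ∧ t.2.2.2.2 ⊆ Vs R (sufs t.2.1 ∪ sufs t.2.2.1)

/-- the edge set of an overdense structure -/
def Fplus (R : Gr n) (t : List (St n) × List (St n) × List (St n) × St n) : Gr n :=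
  Fs R (sufs t.2.1 ∪ sufs t.2.2.1) ∪ tE t.2.2.2.2

/-- total number of overdense structures of a shape over all root sets of size `j` -/
def NB (G : Gr n) (j a b i : ℕ) : ℝ := ∑ R ∈ G.powersetCard j, ((Bad G R a b i).card : ℝ)

end conc

/-- bound for the total collision probability -/
def CC (Ξ m D H : ℝ) (L : ℕ) : ℝ :=
  Ξ * (1 + D) ^ 4 * Real.exp (3 * D * H) +
    m * D * (2 ^ L)⁻¹ * (1 + 2 * D) ^ 4 * Real.exp (6 * D * H)

/-! ## Parameters -/

def zz (n : ℕ) : ℝ := (n : ℝ) ^ ((1 : ℝ) / 6400)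
def mu0 (n : ℕ) : ℝ := zz n ^ 16
def rho (n : ℕ) : ℝ := (zz n ^ 2)⁻¹
def del (n : ℕ) : ℝ := (zz n)⁻¹
def tau0 (n : ℕ) : ℝ := Real.log (n / mu0 n) / 2
def p0 (n : ℕ) : ℝ := Real.exp (-tau0 n)
def LL (n : ℕ) : ℕ := ⌊zz n⌋₊
def lam (n : ℕ) : ℝ := Real.exp (-(zz n ^ 13 / 20))
def Xi0 (n : ℕ) : ℝ := (zz n ^ 3000)⁻¹
@[irreducible] def qq : ℕ := 80000

theorem qq_eq : qq = 80000 := by unfold qq; rfl
theorem qq_even : Even qq := by rw [qq_eq]; exact ⟨40000, rfl⟩
theorem two_le_qq : 2 ≤ qq := by rw [qq_eq]; norm_num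

/-- the test function of the statement -/
def phi (n : ℕ) (k : ℕ) : ℝ := ((k : ℝ) / (n : ℝ) ^ ((3 : ℝ) / 2) - 1 / (2 * Real.sqrt 2)) ^ 2

section V
variable {n : ℕ}

/-- regularity with the parameters of the proof -/
def RegN (G : Gr n) (τ : ℝ) : Prop := Reg G (Real.exp (-τ)) (rho n) (del n)

/-- the process continues -/
def good (G : Gr n) (τ : ℝ) : Prop := RegN G τ ∧ τ < tau0 n

/-- invariant of all reachable states -/
def Inv (G : Gr n) (τ : ℝ) : Prop := NoLoop G ∧ 0 ≤ τ ∧ τ ≤ tau0 n + 1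

def Vem (G : Gr n) (τ : ℝ) : ℝ :=
  ∑ w : Fin n, lam n * (Wup (rho n) ({w} ×ˢ univ) G τ + Wlo (rho n) ({w} ×ˢ univ) G τ) +
  ∑ PP ∈ (univ : Finset (Finset (Fin n) × Finset (Fin n))).erase (∅, ∅),
    lam n ^ (PP.1.card + PP.2.card) *
      (Wup (rho n) (PP.1 ×ˢ PP.2) G τ + Wlo (rho n) (PP.1 ×ˢ PP.2) G τ)

def Vphi (κ C : ℝ) (G : Gr n) (τ : ℝ) : ℝ :=
  Wphi qq κ C G τ / (Real.exp (-(qq * (tau0 n + 1))) * rho n ^ qq)

def Xi (G : Gr n) (τ : ℝ) : ℝ :=
  ∑ j ∈ ({1, 2} : Finset ℕ), ∑ a ∈ range (LL n + 1), ∑ b ∈ range (LL n + 1),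
    ∑ i ∈ range (LL n + 1), ∑ R ∈ (allEdges n).powersetCard j, ∑ t ∈ Bad (allEdges n) R a b i,
      Wsub (rho n) (Fplus R t) G τ * (2 * p0 n ^ (j + 2 * (a + b + i) + 1)) /
        (((n : ℝ) ^ 2 * p0 n) ^ j * (3 * mu0 n) ^ (a + b + i))

/-- few overdense structures -/
def Sparse (G : Gr n) : Prop :=
  ∀ j ∈ ({1, 2} : Finset ℕ), ∀ a b i : ℕ, a + b + i ≤ LL n →
    NB G j a b i ≤ Xi0 n * ((n : ℝ) ^ 2 * p0 n) ^ j * (3 * mu0 n) ^ (a + b + i)

end V

end

end Crest.Agent.R30
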