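import Crest.Agent.R30.Val

set_option autoImplicit false

open Finset
open scoped BigOperators Classical
open Crest.CombinatoricsR.TriangleRemoval

namespace Crest.Agent.R30

namespace DriftEX

theorem ana {ι : Type*} (S : Finset ι) (Z : ι → ℝ) {Qv μ y B x E : ℝ} (hQ : 0 < Qv) (hμ : 10 ≤ μ)
    (hx : x = μ / Qv) (hxm : x ≤ μ⁻¹) (hE : E = Real.exp (2 * x)) (hy0 : 0 ≤ y) (hy : y ≤ 3 / 2)
    (hB : |B| ≤ 3 / 2) (hcard : (S.card : ℝ) = Qv - y * μ) (hZ : ∀ T ∈ S, 0 ≤ Z T ∧ Z T ≤ 3)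
    (hsum : ∑ T ∈ S, Z T = μ ^ 2 * B + (2 * μ - 2) * (y * μ)) :
    |Qv⁻¹ * ∑ T ∈ S, (y * (E - 1) - Z T * E / μ) + x * B| ≤ x * (100 / μ) ∧
    Qv⁻¹ * ∑ T ∈ S, (y * (E - 1) - Z T * E / μ) ^ 2 ≤ x * (100 / μ) ∧
    ∀ T ∈ S, |y * (E - 1) - Z T * E / μ| ≤ 100 / μ := by
  have μ0 : 0 < μ := by linarith
  have x0 : 0 ≤ x := by rw [hx]; positivity
  obtain ⟨m, hm⟩ : ∃ m, m = μ⁻¹ := ⟨_, rfl⟩
  have m0 : 0 < m := by rw [hm]; positivity
  have m1 : m ≤ 1 / 10 := by
    rw [hm, inv_eq_one_div]; exact one_div_le_one_div_of_le (by norm_num) hμ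
  rw [← hm] at hxm
  have x1 : x ≤ 1 / 10 := hxm.trans m1
  have E1 : |E - 1 - 2 * x| ≤ (2 * x) ^ 2 := by
    rw [hE]
    exact Real.abs_exp_sub_one_sub_id_le (by rw [abs_of_nonneg (by linarith)]; linarith)
  obtain ⟨E2, E3⟩ := abs_le.1 E1
  have E4 : 0 ≤ E - 1 := by have := Real.add_one_le_exp (2 * x); linarith
  have xx : x * x ≤ x * m := mul_le_mul_of_nonneg_left hxm x0
  have xx' : x * x ≤ x * (1 / 10) := mul_le_mul_of_nonneg_left x1 x0
  have E5 : E - 1 ≤ 12 / 5 * x := by linarith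
  have E6 : E ≤ 5 / 4 := by linarith
  obtain ⟨B1, B2⟩ := abs_le.1 hB
  have c1 : Qv⁻¹ * S.card = 1 - x * y := by rw [hcard, hx]; field_simp
  have c2 : Qv⁻¹ * (∑ T ∈ S, Z T) * m = x * (B + (2 - 2 * m) * y) := by
    rw [hsum, hx, hm]; field_simp
  have xm0 : 0 ≤ x * m := by positivity
  have xD : x * (E - 1) ≤ 12 / 5 * (x * m) := by
    have := mul_le_mul_of_nonneg_left E5 x0
    linarith
  have xD0 : 0 ≤ x * (E - 1) := by positivity
  have yD : y * (E - 1) ≤ 18 / 5 * x := by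
    have := mul_le_mul hy E5 E4 (by norm_num)
    linarith
  have yD0 : 0 ≤ y * (E - 1) := by positivity
  simp only [div_eq_mul_inv, ← hm]
  refine ⟨?_, ?_, fun T hT => ?_⟩
  · have e : Qv⁻¹ * ∑ T ∈ S, (y * (E - 1) - Z T * E * m) + x * B =
        y * (E - 1 - 2 * x) - (2 * y + y ^ 2 + B) * (x * (E - 1)) + 2 * (E * y) * (x * m) := by
      rw [sum_sub_distrib, sum_const, nsmul_eq_mul, ← sum_mul, ← sum_mul]
      linear_combination (y * (E - 1)) * c1 - E * c2
    rw [e]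
    have a1 : |y * (E - 1 - 2 * x)| ≤ 6 * (x * m) := by
      rw [abs_mul, abs_of_nonneg hy0]
      have := mul_le_mul hy E1 (abs_nonneg _) (by norm_num)
      linarith
    have a2 : |(2 * y + y ^ 2 + B) * (x * (E - 1))| ≤ 17 * (x * m) := by
      have b1 : y ^ 2 ≤ (3 / 2) ^ 2 := pow_le_pow_left₀ hy0 hy 2
      have b2 : |2 * y + y ^ 2 + B| ≤ 7 := abs_le.2 ⟨by linarith [sq_nonneg y], by linarith⟩
      rw [abs_mul, abs_of_nonneg xD0]
      have := mul_le_mul b2 xD xD0 (by norm_num)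
      linarith
    have a3 : E * y ≤ 5 / 4 * (3 / 2) := mul_le_mul E6 hy hy0 (by norm_num)
    have a4 : 0 ≤ E * y := mul_nonneg (by linarith) hy0
    have a5 := mul_le_mul_of_nonneg_right a3 xm0
    have a6 := mul_nonneg a4 xm0
    obtain ⟨a11, a12⟩ := abs_le.1 a1
    obtain ⟨a21, a22⟩ := abs_le.1 a2
    exact abs_le.2 ⟨by linarith, by linarith⟩
  · have a1 : ∑ T ∈ S, (y * (E - 1) - Z T * E * m) ^ 2 ≤
        ∑ T ∈ S, (26 * (x * m) + 10 * m * (Z T * m)) := by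
      refine sum_le_sum fun T hT => ?_
      obtain ⟨z0, z1⟩ := hZ T hT
      have b1 : (y * (E - 1)) ^ 2 ≤ (18 / 5 * x) ^ 2 := pow_le_pow_left₀ yD0 yD 2
      have b2 : E ^ 2 ≤ (5 / 4) ^ 2 := pow_le_pow_left₀ (by linarith) E6 2
      have b3 : Z T * E ^ 2 ≤ 3 * (5 / 4) ^ 2 := mul_le_mul z1 b2 (sq_nonneg _) (by norm_num)
      have b4 := mul_le_mul_of_nonneg_left b3 (show 0 ≤ m * (Z T * m) by positivity)
      have b5 : 0 ≤ m * (Z T * m) := by positivity
      nlinarith [sq_nonneg (y * (E - 1) + Z T * E * m)]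
    refine (mul_le_mul_of_nonneg_left a1 (inv_nonneg.2 hQ.le)).trans ?_
    have e : Qv⁻¹ * ∑ T ∈ S, (26 * (x * m) + 10 * m * (Z T * m)) =
        26 * (x * m) * (1 - x * y) + 10 * (x * m) * (B + (2 - 2 * m) * y) := by
      rw [sum_add_distrib, sum_const, nsmul_eq_mul, ← mul_sum, ← sum_mul]
      linear_combination (26 * (x * m)) * c1 + 10 * m * c2
    rw [e]
    have a2 : 1 - x * y ≤ 1 := by have := mul_nonneg x0 hy0; linarith
    have a3 : B + (2 - 2 * m) * y ≤ 5 := by have := mul_nonneg m0.le hy0; linarith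
    have a4 := mul_le_mul_of_nonneg_left a2 xm0
    have a5 := mul_le_mul_of_nonneg_left a3 xm0
    linarith
  · obtain ⟨z0, z1⟩ := hZ T hT
    have b1 : Z T * E ≤ 3 * (5 / 4) := mul_le_mul z1 E6 (by linarith) (by norm_num)
    have b2 := mul_le_mul_of_nonneg_right b1 m0.le
    have b3 : 0 ≤ Z T * E * m := mul_nonneg (mul_nonneg z0 (by linarith)) m0.le
    exact abs_le.2 ⟨by linarith, by linarith⟩

variable {n : ℕ}

/-- number of common neighbours lost by removing `T` -/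
noncomputable def ZZ (G : Gr n) (u v : Fin n) (T : Finset (Fin n)) : ℝ :=
  ∑ w ∈ nb G u ∩ nb G v, (ind (s(u, w) ∈ T.sym2) + ind (s(v, w) ∈ T.sym2))

theorem cod_rem (G : Gr n) {u v : Fin n} {T : Finset (Fin n)} (h : s(u, v) ∉ T.sym2) :
    (cod (rem G T) u v : ℝ) = cod G u v - ZZ G u v T := by
  have e : nb (rem G T) u ∩ nb (rem G T) v =
      (nb G u ∩ nb G v).filter fun w => s(u, w) ∉ T.sym2 ∧ s(v, w) ∉ T.sym2 := by
    ext w
    simp only [mem_inter, mem_nb, mem_rem, mem_filter]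
    tauto
  unfold cod ZZ
  rw [e, card_filter, card_eq_sum_ones, Nat.cast_sum, Nat.cast_sum, ← sum_sub_distrib]
  refine sum_congr rfl fun w _ => ?_
  unfold ind
  simp only [mk_mem_sym2_iff] at h ⊢
  by_cases hu : u ∈ T <;> by_cases hv : v ∈ T <;> by_cases hw : w ∈ T <;> simp_all

theorem ZZ_bd (G : Gr n) {u v : Fin n} {T : Finset (Fin n)} (hT : T.card = 3)
    (h : s(u, v) ∉ T.sym2) : 0 ≤ ZZ G u v T ∧ ZZ G u v T ≤ 3 := by
  refine ⟨sum_nonneg fun w _ => add_nonneg (ind_nonneg _) (ind_nonneg _), ?_⟩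
  calc ZZ G u v T ≤ ∑ w ∈ nb G u ∩ nb G v, if w ∈ T then (1 : ℝ) else 0 := by
        refine sum_le_sum fun w _ => ?_
        unfold ind
        simp only [mk_mem_sym2_iff] at h ⊢
        by_cases hu : u ∈ T <;> by_cases hv : v ∈ T <;> by_cases hw : w ∈ T <;> simp_all
    _ = (((nb G u ∩ nb G v).filter fun w => w ∈ T).card : ℝ) := sum_boole _ _
    _ ≤ 3 := by
        have : ((nb G u ∩ nb G v).filter fun w => w ∈ T).card ≤ T.card :=
          card_le_card fun w hw => (mem_filter.1 hw).2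
        exact_mod_cast this.trans hT.le

theorem one {G : Gr n} (hG : NoLoop G) {u v w : Fin n} (huv : s(u, v) ∈ G)
    (hw : w ∈ nb G u ∩ nb G v) :
    ∑ T ∈ (triangles G).filter (fun T => s(u, v) ∉ T.sym2), ind (s(u, w) ∈ T.sym2) =
      cod G u w - 1 := by
  have h0 := tri_of_mem hG huv hw
  have h1 := card_tri_mem hG (mem_nb.1 (mem_inter.1 hw).1)
  have h2 := card_filter_add_card_filter_not
    (s := (triangles G).filter (fun T => s(u, w) ∈ T.sym2)) (fun T => s(u, v) ∈ T.sym2)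
  have h3 : ((triangles G).filter (fun T => s(u, w) ∈ T.sym2)).filter (fun T => s(u, v) ∈ T.sym2) =
      {{u, v, w}} := by
    refine eq_singleton_iff_unique_mem.2 ⟨by simp [h0], fun T hT => ?_⟩
    simp only [mem_filter, mk_mem_sym2_iff] at hT
    obtain ⟨⟨a, b, c⟩, -, d⟩ := hT
    refine (eq_of_subset_of_card_le (fun z hz => ?_) ?_).symm
    · simp only [mem_insert, mem_singleton] at hz
      rcases hz with rfl | rfl | rfl <;> assumption
    · rw [(mem_triangles_iff.1 a).1, (mem_triangles_iff.1 h0).1]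
  rw [h3, h1, card_singleton, filter_comm] at h2
  rw [← h2, card_filter]
  push_cast
  rw [add_sub_cancel_left]
  refine sum_congr rfl fun T _ => ?_
  unfold ind
  congr

theorem sum_ZZ {G : Gr n} (hG : NoLoop G) {u v : Fin n} (huv : s(u, v) ∈ G) :
    ∑ T ∈ (triangles G).filter (fun T => s(u, v) ∉ T.sym2), ZZ G u v T =
      ∑ w ∈ nb G u ∩ nb G v, ((cod G u w - 1 : ℝ) + (cod G v w - 1)) := by
  unfold ZZ
  rw [sum_comm]
  refine sum_congr rfl fun w hw => ?_
  have h := one hG (u := v) (v := u) (Sym2.eq_swap ▸ huv) (inter_comm (nb G u) _ ▸ hw)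
  rw [Sym2.eq_swap (a := v) (b := u)] at h
  rw [sum_add_distrib, one hG huv hw, h]

end DriftEX

open DriftEX in
/-- One-step drift, variance and jump size of `rr` at a surviving edge. -/
theorem drift_e : ∃ C : ℝ, 1 ≤ C ∧ ∀ (n : ℕ) (G : Gr n) (τ ρ δ : ℝ), 0 ≤ τ → 24 ≤ n →
    Reg G (Real.exp (-τ)) ρ δ → ρ ≤ 1 / 2 → δ ≤ 1 / 2 → 10 ≤ mu n (Real.exp (-τ)) →
    ∀ u v : Fin n, s(u, v) ∈ G →
      |(Q G : ℝ)⁻¹ * ∑ T ∈ (triangles G).filter (fun T => s(u, v) ∉ T.sym2),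
          (rr (rem G T) (Real.exp (-(τ + xs G τ))) u v - rr G (Real.exp (-τ)) u v) +
        xs G τ * Bop G (Real.exp (-τ)) (rr G (Real.exp (-τ))) u v| ≤
          xs G τ * (C / mu n (Real.exp (-τ))) ∧
      (Q G : ℝ)⁻¹ * ∑ T ∈ (triangles G).filter (fun T => s(u, v) ∉ T.sym2),
          (rr (rem G T) (Real.exp (-(τ + xs G τ))) u v - rr G (Real.exp (-τ)) u v) ^ 2 ≤
          xs G τ * (C / mu n (Real.exp (-τ))) ∧
      ∀ T ∈ (triangles G).filter (fun T => s(u, v) ∉ T.sym2),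
        |rr (rem G T) (Real.exp (-(τ + xs G τ))) u v - rr G (Real.exp (-τ)) u v| ≤
          C / mu n (Real.exp (-τ)) := by
  refine ⟨100, by norm_num, fun n G τ ρ δ hτ hn hR hρ hδ hμ u v huv => ?_⟩
  have p0 : 0 < Real.exp (-τ) := Real.exp_pos _
  obtain ⟨q0, hx⟩ := hR.xs_le p0 (Real.exp_le_one_iff.2 (by linarith)) hρ hδ hn
  have μ0 : 0 < mu n (Real.exp (-τ)) := by linarith
  have hy := hR.cod_le p0 huv
  have hy1 : (cod G u v : ℝ) / mu n (Real.exp (-τ)) ≤ 3 / 2 := by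
    rw [div_le_iff₀ μ0]
    exact hy.2.trans (mul_le_mul_of_nonneg_right (by linarith) μ0.le)
  have hc : ((nb G u ∩ nb G v).card : ℝ) = cod G u v := rfl
  have key := ana ((triangles G).filter (fun T => s(u, v) ∉ T.sym2)) (ZZ G u v)
    (Qv := Q G) (μ := mu n (Real.exp (-τ))) (y := cod G u v / mu n (Real.exp (-τ)))
    (B := Bop G (Real.exp (-τ)) (rr G (Real.exp (-τ))) u v) (x := xs G τ)
    (by exact_mod_cast q0) hμ rfl hx rfl (by positivity) hy1 ?_ ?_
    (fun T hT => ZZ_bd G (mem_triangles_iff.1 (mem_filter.1 hT).1).1 (mem_filter.1 hT).2) ?_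
  · have e : ∀ T ∈ (triangles G).filter (fun T => s(u, v) ∉ T.sym2),
        rr (rem G T) (Real.exp (-(τ + xs G τ))) u v - rr G (Real.exp (-τ)) u v =
          cod G u v / mu n (Real.exp (-τ)) * (Real.exp (2 * xs G τ) - 1) -
            ZZ G u v T * Real.exp (2 * xs G τ) / mu n (Real.exp (-τ)) := by
      intro T hT
      have e1 : mu n (Real.exp (-(τ + xs G τ))) =
          mu n (Real.exp (-τ)) / Real.exp (2 * xs G τ) := by
        unfold mu
        rw [neg_add, Real.exp_add, Real.exp_neg (xs G τ), two_mul, Real.exp_add]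
        field_simp
      unfold rr
      rw [cod_rem G (mem_filter.1 hT).2, e1]
      field_simp
      ring
    rw [sum_congr rfl e, sum_congr rfl fun T hT => congrArg (· ^ 2) (e T hT)]
    exact ⟨key.1, key.2.1, fun T hT => (e T hT).symm ▸ key.2.2 T hT⟩
  · unfold Bop
    rw [abs_mul, abs_of_pos (inv_pos.2 μ0), ← div_eq_inv_mul]
    refine le_trans (div_le_div_of_nonneg_right ?_ μ0.le) hy1
    refine (abs_sum_le_sum_abs _ _).trans ((sum_le_card_nsmul _ _ 1 fun w hw => ?_).trans ?_)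
    · have a := hR.codr u w (mem_nb.1 (mem_inter.1 hw).1)
      have b := hR.codr v w (mem_nb.1 (mem_inter.1 hw).2)
      exact (abs_add_le _ _).trans (by linarith)
    · rw [nsmul_eq_mul, mul_one, hc]
  · have h2 := card_filter_add_card_filter_not (s := triangles G) (fun T => s(u, v) ∈ T.sym2)
    rw [card_tri_mem hR.noloop huv] at h2
    rw [div_mul_cancel₀ _ μ0.ne', Q, ← h2]
    push_cast
    ring
  · rw [sum_ZZ hR.noloop huv, div_mul_cancel₀ _ μ0.ne', ← hc]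
    unfold Bop
    rw [← mul_assoc, mul_sum, mul_comm _ ((nb G u ∩ nb G v).card : ℝ), ← nsmul_eq_mul, ← sum_const,
      ← sum_add_distrib]
    refine sum_congr rfl fun w _ => ?_
    unfold rr
    field_simp
    ring

end Crest.Agent.R30
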