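import Crest.Agent.R30.DriftE

set_option autoImplicit false

open Finset
open scoped BigOperators Classical
open Crest.CombinatoricsR.TriangleRemoval

namespace Crest.Agent.R30

namespace DriftSX

theorem avg_le {κ : Type} {N : Finset κ} {m c : ℝ} (hm : 0 < m) (hN : (#N : ℝ) ≤ 3 / 2 * m)
    (hc : 0 ≤ c) {f : κ → ℝ} (hf : ∀ u ∈ N, |f u| ≤ c) : |m⁻¹ * ∑ u ∈ N, f u| ≤ 3 / 2 * c := by
  rw [abs_mul, abs_of_pos (inv_pos.2 hm), inv_mul_le_iff₀ hm]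
  refine (abs_sum_le_sum_abs _ _).trans ((sum_le_card_nsmul _ _ c hf).trans ?_)
  rw [nsmul_eq_mul]
  nlinarith

set_option maxHeartbeats 1600000 in
theorem core {ι κ : Type} (𝒯 : Finset ι) (N : Finset κ) (dead : ι → κ → Prop) (r b : κ → ℝ)
    (r' : ι → κ → ℝ) (Q m μ x E C ρ : ℝ) (hQ : Q = #𝒯) (Q0 : 0 < Q) (hμ : 10 ≤ μ) (hm : μ ≤ m)
    (x0 : 0 ≤ x) (hx : x ≤ μ⁻¹) (hE1 : E * (1 - x) ≤ 1) (hE2 : 1 + x ≤ E) (hC : 1 ≤ C)
    (hN : (#N : ℝ) ≤ 3 / 2 * m) (hr : ∀ u ∈ N, |r u| ≤ ρ) (hρ : ρ ≤ 1 / 2)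
    (hb : ∀ u ∈ N, |b u| ≤ 3 / 2)
    (hd : ∀ u ∈ N, Q⁻¹ * #(𝒯.filter fun T => dead T u) = x * (1 + r u))
    (hk : ∀ T ∈ 𝒯, #(N.filter fun u => dead T u) ≤ 3)
    (h1 : ∀ u ∈ N, |Q⁻¹ * ∑ T ∈ 𝒯.filter (fun T => ¬ dead T u), (r' T u - r u) + x * b u| ≤
      x * (C / μ))
    (h2 : ∀ u ∈ N, Q⁻¹ * ∑ T ∈ 𝒯.filter (fun T => ¬ dead T u), (r' T u - r u) ^ 2 ≤ x * (C / μ))
    (h3 : ∀ u ∈ N, ∀ T ∈ 𝒯.filter (fun T => ¬ dead T u), |r' T u - r u| ≤ C / μ)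
    (Δ : ι → ℝ) (hΔ : ∀ T, Δ T = E * m⁻¹ * ∑ u ∈ N.filter (fun u => ¬ dead T u), r' T u -
      m⁻¹ * ∑ u ∈ N, r u) :
    |Q⁻¹ * ∑ T ∈ 𝒯, Δ T + x * (m⁻¹ * ∑ u ∈ N, b u)| ≤
        x * (ρ * (m⁻¹ * ∑ u ∈ N, |r u|) + (9 * C + 12) / μ) ∧
      Q⁻¹ * ∑ T ∈ 𝒯, Δ T ^ 2 ≤ x * ((9 * C + 12) / μ) ∧ ∀ T ∈ 𝒯, |Δ T| ≤ (9 * C + 12) / μ := by
  have μ0 : 0 < μ := by linarith
  have m0 : 0 < m := by linarith
  have i0 : 0 < μ⁻¹ := inv_pos.2 μ0
  have im0 : 0 < m⁻¹ := inv_pos.2 m0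
  have im : m⁻¹ ≤ μ⁻¹ := inv_anti₀ μ0 hm
  have iQ : 0 < Q⁻¹ := inv_pos.2 Q0
  have x1 : x ≤ 1 / 10 := hx.trans (by rw [one_div]; exact inv_anti₀ (by norm_num) hμ)
  have E1 : 1 ≤ E := by linarith
  have E2 : E ≤ 10 / 9 := by nlinarith
  have E3 : E - 1 ≤ 10 / 9 * x := by nlinarith
  have xx : x * x ≤ x * μ⁻¹ := mul_le_mul_of_nonneg_left hx x0
  have r2 : ∀ u ∈ N, |r u| ≤ 1 / 2 := fun u hu => (hr u hu).trans hρ
  set A : ι → κ → ℝ := fun T u => if ¬ dead T u then r' T u - r u else 0 with hA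
  set D : ι → κ → ℝ := fun T u => if dead T u then r u else 0 with hD
  set s := m⁻¹ * ∑ u ∈ N, r u with hs
  have s1 : |s| ≤ 3 / 4 := (avg_le m0 hN (by norm_num) r2).trans (by norm_num)
  have dec : ∀ T, Δ T = (E - 1) * s + E * (m⁻¹ * ∑ u ∈ N, A T u) - E * (m⁻¹ * ∑ u ∈ N, D T u) := by
    intro T
    have e : ∑ u ∈ N.filter (fun u => ¬ dead T u), r' T u =
        ∑ u ∈ N, r u + ∑ u ∈ N, A T u - ∑ u ∈ N, D T u := by
      rw [sum_filter, ← sum_add_distrib, ← sum_sub_distrib]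
      refine sum_congr rfl fun u _ => ?_
      by_cases h : dead T u <;> simp [hA, hD, h]
    rw [hΔ, e, hs]
    ring
  have hDk : ∀ T, |∑ u ∈ N, D T u| ≤ 1 / 2 * #(N.filter fun u => dead T u) := fun T => by
    rw [hD, ← sum_filter]
    refine (abs_sum_le_sum_abs _ _).trans ((sum_le_card_nsmul _ _ (1 / 2 : ℝ)
      fun u hu => r2 u (mem_filter.1 hu).1).trans (le_of_eq ?_))
    rw [nsmul_eq_mul, mul_comm]
  have cμ : ∀ c : ℝ, c / μ = c * μ⁻¹ := fun c => div_eq_mul_inv c μ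
  have C0 : 0 ≤ C * μ⁻¹ := by positivity
  have C1 : μ⁻¹ ≤ C * μ⁻¹ := le_mul_of_one_le_left i0.le hC
  simp only [cμ] at h1 h2 h3 ⊢
  refine ⟨?_, ?_, fun T hT => ?_⟩
  · have e1 : Q⁻¹ * ∑ T ∈ 𝒯, ∑ u ∈ N, A T u =
        ∑ u ∈ N, (Q⁻¹ * ∑ T ∈ 𝒯.filter (fun T => ¬ dead T u), (r' T u - r u) + x * b u) -
          x * ∑ u ∈ N, b u := by
      rw [sum_comm, sum_add_distrib, mul_sum, mul_sum, add_sub_cancel_right]
      exact sum_congr rfl fun u _ => by rw [sum_filter]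
    have e2 : Q⁻¹ * ∑ T ∈ 𝒯, ∑ u ∈ N, D T u = x * (∑ u ∈ N, r u + ∑ u ∈ N, r u ^ 2) := by
      rw [sum_comm, ← sum_add_distrib, mul_sum, mul_sum]
      refine sum_congr rfl fun u hu => ?_
      rw [hD, ← sum_filter, sum_const, nsmul_eq_mul, ← mul_assoc, hd u hu]
      ring
    have e3 : Q⁻¹ * ∑ T ∈ 𝒯, Δ T = (E - 1) * s + E * m⁻¹ * (Q⁻¹ * ∑ T ∈ 𝒯, ∑ u ∈ N, A T u) -
        E * m⁻¹ * (Q⁻¹ * ∑ T ∈ 𝒯, ∑ u ∈ N, D T u) := by
      simp only [dec]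
      rw [sum_sub_distrib, sum_add_distrib, sum_const, nsmul_eq_mul, ← hQ, ← mul_sum, ← mul_sum,
        ← mul_sum, ← mul_sum]
      field_simp
    have a1 := avg_le m0 hN (mul_nonneg x0 C0) h1
    have a2 := avg_le m0 hN (by norm_num) hb
    have a3 : m⁻¹ * ∑ u ∈ N, r u ^ 2 ≤ ρ * (m⁻¹ * ∑ u ∈ N, |r u|) := by
      rw [mul_left_comm, mul_sum N _ ρ]
      refine mul_le_mul_of_nonneg_left (sum_le_sum fun u hu => ?_) im0.le
      rw [← sq_abs, sq]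
      exact mul_le_mul_of_nonneg_right (hr u hu) (abs_nonneg _)
    have a4 : |m⁻¹ * ∑ u ∈ N, r u ^ 2| ≤ 3 / 2 * (1 / 4) :=
      avg_le m0 hN (by norm_num) fun u hu => by
        rw [abs_pow]
        nlinarith [r2 u hu, abs_nonneg (r u)]
    have a5 : 0 ≤ m⁻¹ * ∑ u ∈ N, r u ^ 2 := by positivity
    rw [abs_of_nonneg a5] at a4
    have e4 : Q⁻¹ * ∑ T ∈ 𝒯, Δ T + x * (m⁻¹ * ∑ u ∈ N, b u) = (E - 1 - E * x) * s +
        E * (m⁻¹ * ∑ u ∈ N, (Q⁻¹ * ∑ T ∈ 𝒯.filter (fun T => ¬ dead T u), (r' T u - r u) +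
          x * b u)) - (E - 1) * x * (m⁻¹ * ∑ u ∈ N, b u) - E * x * (m⁻¹ * ∑ u ∈ N, r u ^ 2) := by
      rw [e3, e1, e2, hs]
      ring
    rw [e4]
    generalize m⁻¹ * ∑ u ∈ N, (Q⁻¹ * ∑ T ∈ 𝒯.filter (fun T => ¬ dead T u), (r' T u - r u) +
      x * b u) = y1 at a1 ⊢
    generalize m⁻¹ * ∑ u ∈ N, b u = y2 at a2 ⊢
    generalize m⁻¹ * ∑ u ∈ N, r u ^ 2 = y3 at a3 a4 a5 ⊢
    generalize ρ * (m⁻¹ * ∑ u ∈ N, |r u|) = y4 at a3 ⊢
    have b1 : |(E - 1 - E * x) * s| ≤ x * x * (3 / 4) := by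
      rw [abs_mul]
      refine mul_le_mul (abs_le.2 ⟨?_, ?_⟩) s1 (abs_nonneg _) (by positivity)
      · nlinarith [mul_le_mul_of_nonneg_right hE2 (by linarith : 0 ≤ 1 - x)]
      · nlinarith
    have b2 : |E * y1| ≤ 10 / 9 * (3 / 2 * (x * (C * μ⁻¹))) := by
      rw [abs_mul, abs_of_nonneg (by linarith : 0 ≤ E)]
      exact mul_le_mul E2 a1 (abs_nonneg _) (by norm_num)
    have b3 : |(E - 1) * x * y2| ≤ 10 / 9 * x * x * (3 / 2 * (3 / 2)) := by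
      rw [abs_mul, abs_of_nonneg (mul_nonneg (by linarith) x0)]
      exact mul_le_mul (mul_le_mul_of_nonneg_right E3 x0) a2 (abs_nonneg _) (by positivity)
    have b4 : (E - 1) * x * y3 ≤ 10 / 9 * x * x * (3 / 2 * (1 / 4)) :=
      mul_le_mul (mul_le_mul_of_nonneg_right E3 x0) a4 a5 (by positivity)
    have b5 : x * y3 ≤ x * y4 := mul_le_mul_of_nonneg_left a3 x0
    have b6 : 0 ≤ E * x * y3 := by positivity
    have b7 : 0 ≤ x * y3 := by positivity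
    have b8 : 0 ≤ x * (C * μ⁻¹) := by positivity
    have b9 : 0 ≤ x * μ⁻¹ := by positivity
    rw [abs_le] at b1 b2 b3 ⊢
    constructor <;> linarith [b1.1, b1.2, b2.1, b2.2, b3.1, b3.2]
  · have a1 : Q⁻¹ * ∑ T ∈ 𝒯, (m⁻¹ * ∑ u ∈ N, A T u) ^ 2 ≤ 9 / 4 * (x * (C * μ⁻¹)) := by
      have c1 : ∀ T ∈ 𝒯, (m⁻¹ * ∑ u ∈ N, A T u) ^ 2 ≤ 3 / 2 * (m⁻¹ * ∑ u ∈ N, A T u ^ 2) := by
        intro T _
        have d1 := sq_sum_le_card_mul_sum_sq (s := N) (f := A T)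
        have d2 : 0 ≤ ∑ u ∈ N, A T u ^ 2 := by positivity
        have d3 := d1.trans (mul_le_mul_of_nonneg_right hN d2)
        rw [mul_pow]
        refine (mul_le_mul_of_nonneg_left d3 (by positivity)).trans (le_of_eq ?_)
        field_simp
      refine (mul_le_mul_of_nonneg_left (sum_le_sum c1) iQ.le).trans ?_
      have c2 : Q⁻¹ * ∑ T ∈ 𝒯, 3 / 2 * (m⁻¹ * ∑ u ∈ N, A T u ^ 2) = 3 / 2 * (m⁻¹ *
          ∑ u ∈ N, Q⁻¹ * ∑ T ∈ 𝒯.filter (fun T => ¬ dead T u), (r' T u - r u) ^ 2) := by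
        rw [← mul_sum, ← mul_sum, sum_comm, ← mul_sum]
        have : ∀ u ∈ N, ∑ T ∈ 𝒯, A T u ^ 2 =
            ∑ T ∈ 𝒯.filter (fun T => ¬ dead T u), (r' T u - r u) ^ 2 := fun u _ => by
          rw [sum_filter]
          refine sum_congr rfl fun T _ => ?_
          by_cases h : dead T u <;> simp [hA, h]
        rw [sum_congr rfl this]
        ring
      have c3 := (le_abs_self _).trans (avg_le m0 hN (mul_nonneg x0 C0) fun u hu =>
        (abs_of_nonneg (by positivity)).trans_le (h2 u hu))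
      rw [c2]
      linarith
    have a2 : Q⁻¹ * ∑ T ∈ 𝒯, (m⁻¹ * ∑ u ∈ N, D T u) ^ 2 ≤ 2 * (x * μ⁻¹) := by
      have c1 : ∀ T ∈ 𝒯, (m⁻¹ * ∑ u ∈ N, D T u) ^ 2 ≤
          3 / 4 * m⁻¹ * (m⁻¹ * #(N.filter fun u => dead T u)) := by
        intro T hT
        have d1 := pow_le_pow_left₀ (abs_nonneg _) (hDk T) 2
        have d2 : (#(N.filter fun u => dead T u) : ℝ) ≤ 3 := by exact_mod_cast hk T hT
        have d3 : (0 : ℝ) ≤ #(N.filter fun u => dead T u) := Nat.cast_nonneg _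
        rw [sq_abs] at d1
        have d4 : (∑ u ∈ N, D T u) ^ 2 ≤ 3 / 4 * #(N.filter fun u => dead T u) := by nlinarith
        rw [mul_pow]
        refine (mul_le_mul_of_nonneg_left d4 (by positivity)).trans (le_of_eq ?_)
        ring
      refine (mul_le_mul_of_nonneg_left (sum_le_sum c1) iQ.le).trans ?_
      have c2 : Q⁻¹ * ∑ T ∈ 𝒯, 3 / 4 * m⁻¹ * (m⁻¹ * #(N.filter fun u => dead T u)) =
          3 / 4 * m⁻¹ * (m⁻¹ * ∑ u ∈ N, x * (1 + r u)) := by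
        rw [← mul_sum, ← mul_sum, ← sum_congr rfl hd, ← mul_sum]
        have : ∑ T ∈ 𝒯, (#(N.filter fun u => dead T u) : ℝ) =
            ∑ u ∈ N, (#(𝒯.filter fun T => dead T u) : ℝ) := by
          simp only [card_filter, Nat.cast_sum]
          exact sum_comm
        rw [this]
        ring
      have c3 := (le_abs_self _).trans (avg_le m0 hN (c := x * (3 / 2)) (by positivity)
        (f := fun u => x * (1 + r u)) fun u hu => by
          rw [abs_mul, abs_of_nonneg x0]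
          refine mul_le_mul_of_nonneg_left ?_ x0
          have := abs_le.1 (r2 u hu)
          exact abs_le.2 ⟨by linarith [this.1], by linarith [this.2]⟩)
      rw [c2]
      have c4 := mul_le_mul_of_nonneg_left c3 (by positivity : 0 ≤ 3 / 4 * m⁻¹)
      have c5 := mul_le_mul_of_nonneg_left im x0
      have c6 : 0 ≤ x * m⁻¹ := by positivity
      linarith
    have a3 : ((E - 1) * s) ^ 2 ≤ x * x := by
      have c1 : |(E - 1) * s| ≤ 10 / 9 * x * (3 / 4) := by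
        rw [abs_mul, abs_of_nonneg (by linarith : 0 ≤ E - 1)]
        exact mul_le_mul E3 s1 (abs_nonneg _) (by positivity)
      have c2 := pow_le_pow_left₀ (abs_nonneg _) c1 2
      rw [sq_abs] at c2
      nlinarith
    have E4 : E ^ 2 ≤ 5 / 4 := by nlinarith
    have a4 : ∀ T ∈ 𝒯, Δ T ^ 2 ≤ 3 * (x * x) + 15 / 4 * (m⁻¹ * ∑ u ∈ N, A T u) ^ 2 +
        15 / 4 * (m⁻¹ * ∑ u ∈ N, D T u) ^ 2 := by
      intro T _
      rw [dec]
      generalize m⁻¹ * ∑ u ∈ N, A T u = y1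
      generalize m⁻¹ * ∑ u ∈ N, D T u = y2
      generalize (E - 1) * s = y0 at a3
      have c1 := mul_le_mul_of_nonneg_right E4 (sq_nonneg y1)
      have c2 := mul_le_mul_of_nonneg_right E4 (sq_nonneg y2)
      nlinarith [sq_nonneg (y0 - E * y1), sq_nonneg (y0 + E * y2), sq_nonneg (E * y1 + E * y2)]
    refine (mul_le_mul_of_nonneg_left (sum_le_sum a4) iQ.le).trans ?_
    rw [sum_add_distrib, sum_add_distrib, sum_const, nsmul_eq_mul, ← hQ, ← mul_sum, ← mul_sum,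
      mul_add, mul_add, ← mul_assoc Q⁻¹ Q, inv_mul_cancel₀ Q0.ne', one_mul, mul_left_comm Q⁻¹,
      mul_left_comm Q⁻¹ (15 / 4)]
    have b8 : 0 ≤ x * (C * μ⁻¹) := by positivity
    have b9 : 0 ≤ x * μ⁻¹ := by positivity
    linarith
  · have a1 : |m⁻¹ * ∑ u ∈ N, A T u| ≤ 3 / 2 * (C * μ⁻¹) :=
      avg_le m0 hN C0 fun u hu => by
        simp only [hA]
        split_ifs with h
        · simpa using C0
        · exact h3 u hu T (mem_filter.2 ⟨hT, h⟩)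
    have a2 : |m⁻¹ * ∑ u ∈ N, D T u| ≤ μ⁻¹ * (3 / 2) := by
      have d2 : (#(N.filter fun u => dead T u) : ℝ) ≤ 3 := by exact_mod_cast hk T hT
      rw [abs_mul, abs_of_pos im0]
      exact mul_le_mul im (by linarith [hDk T]) (abs_nonneg _) i0.le
    have b1 : |(E - 1) * s| ≤ 10 / 9 * x * (3 / 4) := by
      rw [abs_mul, abs_of_nonneg (by linarith : 0 ≤ E - 1)]
      exact mul_le_mul E3 s1 (abs_nonneg _) (by positivity)
    have b2 : ∀ y c : ℝ, |y| ≤ c → |E * y| ≤ 10 / 9 * c := fun y c h => by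
      rw [abs_mul, abs_of_nonneg (by linarith : 0 ≤ E)]
      exact mul_le_mul E2 h (abs_nonneg _) (by norm_num)
    have b3 := abs_le.1 (b2 _ _ a1)
    have b4 := abs_le.1 (b2 _ _ a2)
    rw [dec]
    rw [abs_le] at b1 ⊢
    constructor <;> linarith [b1.1, b1.2, b3.1, b3.2, b4.1, b4.2]

end DriftSX

/-- One-step drift, variance and jump size of the star average of `rr`. -/
theorem drift_s : ∃ C : ℝ, 1 ≤ C ∧ ∀ (n : ℕ) (G : Gr n) (τ ρ δ : ℝ), 0 ≤ τ → 24 ≤ n →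
    Reg G (Real.exp (-τ)) ρ δ → ρ ≤ 1 / 2 → δ ≤ 1 / 2 → 10 ≤ mu n (Real.exp (-τ)) →
    ∀ w : Fin n,
      |(Q G : ℝ)⁻¹ * ∑ T ∈ triangles G,
          (sav (rem G T) (Real.exp (-(τ + xs G τ))) (rr (rem G T) (Real.exp (-(τ + xs G τ)))) w -
            sav G (Real.exp (-τ)) (rr G (Real.exp (-τ))) w) +
        xs G τ * sav G (Real.exp (-τ)) (Bop G (Real.exp (-τ)) (rr G (Real.exp (-τ)))) w| ≤
          xs G τ * (ρ * sav G (Real.exp (-τ)) (fun a b => |rr G (Real.exp (-τ)) a b|) w +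
            C / mu n (Real.exp (-τ))) ∧
      (Q G : ℝ)⁻¹ * ∑ T ∈ triangles G,
          (sav (rem G T) (Real.exp (-(τ + xs G τ))) (rr (rem G T) (Real.exp (-(τ + xs G τ)))) w -
            sav G (Real.exp (-τ)) (rr G (Real.exp (-τ))) w) ^ 2 ≤
          xs G τ * (C / mu n (Real.exp (-τ))) ∧
      ∀ T ∈ triangles G,
        |sav (rem G T) (Real.exp (-(τ + xs G τ))) (rr (rem G T) (Real.exp (-(τ + xs G τ)))) w -
            sav G (Real.exp (-τ)) (rr G (Real.exp (-τ))) w| ≤ C / mu n (Real.exp (-τ)) := by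
  obtain ⟨C, hC, H⟩ := drift_e
  refine ⟨9 * C + 12, by linarith, fun n G τ ρ δ hτ hn hR hρ hδ hμ w => ?_⟩
  have H' := H n G τ ρ δ hτ hn hR hρ hδ hμ
  have p0 := Real.exp_pos (-τ)
  have p1 : Real.exp (-τ) ≤ 1 := Real.exp_le_one_iff.2 (by linarith)
  obtain ⟨Q0, hx⟩ := hR.xs_le p0 p1 hρ hδ hn
  have Q0' : (0 : ℝ) < Q G := by exact_mod_cast Q0
  have μ0 : 0 < mu n (Real.exp (-τ)) := by linarith
  have n0 : (0 : ℝ) ≤ n * Real.exp (-τ) := by positivity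
  refine DriftSX.core (triangles G) (nb G w) (fun T u => s(w, u) ∈ T.sym2)
    (rr G (Real.exp (-τ)) w) (Bop G (Real.exp (-τ)) (rr G (Real.exp (-τ))) w)
    (fun T => rr (rem G T) (Real.exp (-(τ + xs G τ))) w) (Q G) (n * Real.exp (-τ))
    (mu n (Real.exp (-τ))) (xs G τ) (Real.exp (xs G τ)) C ρ rfl Q0' hμ ?_ (div_pos μ0 Q0').le hx
    ?_ ?_ hC ?_ (fun u hu => hR.codr _ _ (mem_nb.1 hu)) hρ (fun u hu => ?_) (fun u hu => ?_)
    (fun T hT => ?_) (fun u hu => ?_) (fun u hu => ?_) (fun u hu => ?_) _ fun T => ?_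
  · unfold mu
    rw [sq, ← mul_assoc]
    exact mul_le_of_le_one_right n0 p1
  · have h1 := Real.add_one_le_exp (-xs G τ)
    have h2 := mul_le_mul_of_nonneg_left h1 (Real.exp_pos (xs G τ)).le
    rw [← Real.exp_add, add_neg_cancel, Real.exp_zero] at h2
    linarith
  · linarith [Real.add_one_le_exp (xs G τ)]
  · have h1 := (abs_le.1 (hR.deg w)).2
    have h2 := mul_le_mul_of_nonneg_right hδ n0
    linarith
  · have h1 := (hR.cod_le p0 (mem_nb.1 hu)).2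
    have h2 := mul_le_mul_of_nonneg_right hρ μ0.le
    unfold Bop
    rw [abs_mul, abs_of_pos (inv_pos.2 μ0), inv_mul_le_iff₀ μ0]
    refine (abs_sum_le_sum_abs _ _).trans ((sum_le_card_nsmul _ _ (1 : ℝ) fun v hv => ?_).trans ?_)
    · have a1 := hR.codr _ _ (mem_nb.1 (mem_inter.1 hv).1)
      have a2 := hR.codr _ _ (mem_nb.1 (mem_inter.1 hv).2)
      linarith [abs_add_le (rr G (Real.exp (-τ)) w v) (rr G (Real.exp (-τ)) u v)]
    · rw [nsmul_eq_mul, mul_one]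
      unfold cod at h1
      linarith
  · have h1 := card_tri_mem hR.noloop (mem_nb.1 hu)
    have h2 : (Q G : ℝ)⁻¹ * cod G w u = xs G τ * (1 + rr G (Real.exp (-τ)) w u) := by
      unfold xs rr
      field_simp
      ring
    rw [← h2, ← h1]
    congr
  · rw [← (mem_triangles_iff.1 hT).1]
    refine card_le_card fun u hu => ?_
    simp only [mem_filter] at hu
    exact (mk_mem_sym2_iff.1 hu.2).2
  · convert (H' w u (mem_nb.1 hu)).1
  · convert (H' w u (mem_nb.1 hu)).2.1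
  · convert (H' w u (mem_nb.1 hu)).2.2
  · unfold sav
    have e1 : nb (rem G T) w = (nb G w).filter fun u => s(w, u) ∉ T.sym2 := by
      ext u
      rw [mem_nb, mem_rem, mem_filter, mem_nb]
    have e2 : ((n : ℝ) * Real.exp (-(τ + xs G τ)))⁻¹ =
        Real.exp (xs G τ) * ((n : ℝ) * Real.exp (-τ))⁻¹ := by
      rw [neg_add, Real.exp_add, Real.exp_neg (xs G τ), ← mul_assoc, mul_inv, inv_inv, mul_comm]
    rw [e1, e2]
    congr

end Crest.Agent.R30
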