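import Crest.Agent.R30.Val

set_option autoImplicit false

open Finset
open scoped BigOperators Classical
open Crest.CombinatoricsR.TriangleRemoval

namespace Crest.Agent.R30

variable {n : ℕ}

namespace EMStepX

theorem exp_neg_le {y : ℝ} (hy : 0 ≤ y) : Real.exp (-y) ≤ 1 - y + y ^ 2 / 2 := by
  have h1 := Real.quadratic_le_exp_of_nonneg hy
  have h2 : 0 ≤ 1 - y + y ^ 2 / 2 := by nlinarith [sq_nonneg (y - 1)]
  have h3 := mul_le_mul_of_nonneg_left h1 h2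
  rw [Real.exp_neg, inv_eq_one_div, div_le_iff₀ (Real.exp_pos y)]
  nlinarith [sq_nonneg (y ^ 2)]

theorem exp_mul_le {y θ : ℝ} (h0 : 0 ≤ θ) (h1 : θ ≤ 1) : Real.exp (y * θ) ≤ Real.exp y + 1 := by
  rcases le_total 0 y with h | h
  · have := Real.exp_le_exp.2 (mul_le_of_le_one_right h h1)
    linarith
  · have := Real.exp_le_one_iff.2 (mul_nonpos_of_nonpos_of_nonneg h h0)
    linarith [Real.exp_pos y]

theorem core {G : Gr n} {τ ρ δ : ℝ} (hτ : 0 ≤ τ) (hn : 24 ≤ n)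
    (h : Reg G (Real.exp (-τ)) ρ δ) (hρ : 0 < ρ) (hρ1 : ρ ≤ 1 / 20) (hδ : δ ≤ 1 / 2)
    (hμ : ρ⁻¹ ≤ mu n (Real.exp (-τ))) (F : Finset (Fin n × Fin n)) :
    0 < Q G ∧ 0 ≤ xs G τ ∧ xs G τ ≤ ρ ∧ ∃ Z : Finset (Fin n) → ℝ,
      (∀ T ∈ triangles G, 0 ≤ Z T ∧ Z T ≤ 6 ∧ (cnt (rem G T) F : ℝ) = cnt G F - Z T) ∧
      (1 - ρ) * (xs G τ * cnt G F) ≤ avgT G Z ∧ avgT G Z ≤ (1 + ρ) * (xs G τ * cnt G F) := by
  have hp := Real.exp_pos (-τ)
  obtain ⟨hQ, hx⟩ := h.xs_le hp (Real.exp_le_one_iff.2 (by linarith)) (by linarith) hδ hn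
  have μ0 : 0 < mu n (Real.exp (-τ)) := (inv_pos.2 hρ).trans_le hμ
  refine ⟨hQ, div_nonneg μ0.le (Nat.cast_nonneg _), hx.trans (inv_le_of_inv_le₀ hρ hμ),
    fun T => ((F.filter fun a => s(a.1, a.2) ∈ G).filter fun a => s(a.1, a.2) ∈ T.sym2).card,
    fun T hT => ⟨Nat.cast_nonneg _, ?_, ?_⟩, ?_⟩
  · have h3 := (mem_triangles_iff.1 hT).1
    have : ((F.filter fun a => s(a.1, a.2) ∈ G).filter fun a => s(a.1, a.2) ∈ T.sym2) ⊆
        T.offDiag := by
      intro a ha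
      simp only [mem_filter, mk_mem_sym2_iff] at ha
      exact mem_offDiag.2 ⟨ha.2.1, ha.2.2, fun e => h.noloop _ ha.1.2 (Sym2.mk_isDiag_iff.2 e)⟩
    have h6 := card_le_card this
    rw [offDiag_card, h3] at h6
    beta_reduce
    exact_mod_cast h6
  · have := card_filter_add_card_filter_not (s := F.filter fun a => s(a.1, a.2) ∈ G)
      (fun a => s(a.1, a.2) ∈ T.sym2)
    have e : cnt (rem G T) F =
        ((F.filter fun a => s(a.1, a.2) ∈ G).filter fun a => ¬ s(a.1, a.2) ∈ T.sym2).card := by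
      unfold cnt
      rw [filter_filter]
      exact congrArg card (filter_congr fun a _ => mem_rem)
    rw [e, eq_sub_iff_add_eq, add_comm]
    unfold cnt
    beta_reduce
    exact_mod_cast this
  · have e : avgT G (fun T => (((F.filter fun a => s(a.1, a.2) ∈ G).filter
        fun a => s(a.1, a.2) ∈ T.sym2).card : ℝ)) =
        (Q G : ℝ)⁻¹ * ∑ a ∈ F.filter (fun a => s(a.1, a.2) ∈ G), (cod G a.1 a.2 : ℝ) := by
      unfold avgT
      congr 1
      simp only [natCast_card_filter]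
      rw [sum_comm]
      refine sum_congr rfl fun a ha => ?_
      rw [← card_tri_mem h.noloop (mem_filter.1 ha).2, natCast_card_filter]
    have q0 : 0 ≤ (Q G : ℝ)⁻¹ := by positivity
    have e2 : ∀ c : ℝ, c * (xs G τ * cnt G F) =
        (Q G : ℝ)⁻¹ * ∑ _a ∈ F.filter (fun a => s(a.1, a.2) ∈ G), c * mu n (Real.exp (-τ)) := by
      intro c
      rw [sum_const, nsmul_eq_mul, xs, cnt]
      ring
    rw [e, e2, e2]
    exact ⟨mul_le_mul_of_nonneg_left (sum_le_sum fun a ha => (h.cod_le hp (mem_filter.1 ha).2).1) q0,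
      mul_le_mul_of_nonneg_left (sum_le_sum fun a ha => (h.cod_le hp (mem_filter.1 ha).2).2) q0⟩

theorem avg_lin {G : Gr n} (hG : NoLoop G) (hQ : 0 < Q G) (E c : ℝ) (Z : Finset (Fin n) → ℝ) :
    avgT G (fun T => E * (1 + c * Z T) + ((rem G T).card : ℝ)) =
      E * (1 + c * avgT G Z) + (G.card - 3) := by
  rw [avgT_add, avgT_mul, avgT_add, avgT_mul, avgT_const hQ, avgT_card_rem hG hQ]

end EMStepX

open EMStepX

theorem up_step {G : Gr n} {τ ρ δ : ℝ} (hτ : 0 ≤ τ) (hn : 24 ≤ n)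
    (h : Reg G (Real.exp (-τ)) ρ δ) (hρ : 0 < ρ) (hρ1 : ρ ≤ 1 / 20) (hδ : δ ≤ 1 / 2)
    (hμ : ρ⁻¹ ≤ mu n (Real.exp (-τ))) (F : Finset (Fin n × Fin n)) :
    Sup (Wup ρ F) G τ := by
  obtain ⟨hQ, x0, x1, Z, hZ, z1, -⟩ := core hτ hn h hρ hρ1 hδ hμ F
  unfold Sup Wup
  set x := xs G τ
  set m : ℝ := (cnt G F : ℝ)
  set a : ℝ := (cnt (allEdges n) F : ℝ)
  have m0 : 0 ≤ m := Nat.cast_nonneg _
  have a0 : 0 ≤ a := Nat.cast_nonneg _
  set A := Real.exp (-((1 - 10 * ρ) * τ)) * a with hA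
  set A' := Real.exp (-((1 - 10 * ρ) * (τ + x))) * a with hA'
  have A0 : 0 ≤ A := by positivity
  have h1 : A * (1 - (1 - 10 * ρ) * x) ≤ A' := by
    have e : A' = A * Real.exp (-((1 - 10 * ρ) * x)) := by
      rw [hA, hA', mul_add, neg_add, Real.exp_add]; ring
    rw [e]
    exact mul_le_mul_of_nonneg_left (Real.one_sub_le_exp_neg _) A0
  refine (avgT_mono G (g := fun T => Real.exp (ρ * (m - A')) * (1 + -(ρ * (1 - 3 * ρ)) * Z T) +
    ((rem G T).card : ℝ)) fun T hT => ?_).trans ?_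
  · obtain ⟨b0, b1, b2⟩ := hZ T hT
    rw [b2, show ρ * (m - Z T - A') = ρ * (m - A') + -(ρ * Z T) by ring, Real.exp_add]
    refine add_le_add_left (mul_le_mul_of_nonneg_left ((exp_neg_le (by positivity)).trans ?_)
      (Real.exp_pos _).le) _
    have := mul_le_mul_of_nonneg_left b1 (show 0 ≤ ρ * (ρ * Z T) by positivity)
    nlinarith
  rw [avg_lin h.noloop hQ]
  have xm : 0 ≤ x * m := by positivity
  have h2 : 1 + -(ρ * (1 - 3 * ρ)) * avgT G Z ≤ Real.exp (-(ρ * ((1 - 10 * ρ) * (x * m)))) := by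
    refine le_trans ?_ (Real.one_sub_le_exp_neg _)
    have b1 := mul_le_mul_of_nonneg_left z1 (show 0 ≤ ρ * (1 - 3 * ρ) from
      mul_nonneg hρ.le (by linarith))
    have b2 : 0 ≤ ρ * ρ * (x * m) := by positivity
    have b3 : 0 ≤ ρ * ρ * ρ * (x * m) := by positivity
    linarith
  have h3 := mul_le_mul_of_nonneg_left h2 (Real.exp_pos (ρ * (m - A'))).le
  rw [← Real.exp_add] at h3
  have h4 : ρ * (m - A') + -(ρ * ((1 - 10 * ρ) * (x * m))) ≤
      ρ * (m - A) * (1 - (1 - 10 * ρ) * x) := by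
    have := mul_le_mul_of_nonneg_left h1 hρ.le
    linarith
  have h5 := exp_mul_le (y := ρ * (m - A)) (θ := 1 - (1 - 10 * ρ) * x) (by nlinarith)
    (by nlinarith)
  have h6 := Real.exp_le_exp.2 h4
  linarith

theorem lo_step {G : Gr n} {τ ρ δ : ℝ} (hτ : 0 ≤ τ) (hn : 24 ≤ n)
    (h : Reg G (Real.exp (-τ)) ρ δ) (hρ : 0 < ρ) (hρ1 : ρ ≤ 1 / 20) (hδ : δ ≤ 1 / 2)
    (hμ : ρ⁻¹ ≤ mu n (Real.exp (-τ))) (F : Finset (Fin n × Fin n)) :
    Sup (Wlo ρ F) G τ := by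
  obtain ⟨hQ, x0, x1, Z, hZ, -, z1⟩ := core hτ hn h hρ hρ1 hδ hμ F
  unfold Sup Wlo
  set x := xs G τ
  set m : ℝ := (cnt G F : ℝ)
  set a : ℝ := (cnt (allEdges n) F : ℝ)
  have m0 : 0 ≤ m := Nat.cast_nonneg _
  have a0 : 0 ≤ a := Nat.cast_nonneg _
  set A := Real.exp (-((1 + 10 * ρ) * τ)) * a with hA
  set A' := Real.exp (-((1 + 10 * ρ) * (τ + x))) * a with hA'
  have A0 : 0 ≤ A := by positivity
  have h1 : A' ≤ A * (1 - (1 + 8 * ρ) * x) := by
    have e : A' = A * Real.exp (-((1 + 10 * ρ) * x)) := by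
      rw [hA, hA', mul_add (1 + 10 * ρ), neg_add, Real.exp_add]; ring
    rw [e]
    refine mul_le_mul_of_nonneg_left ((exp_neg_le (by positivity)).trans ?_) A0
    have b1 : (1 + 10 * ρ) ^ 2 ≤ 4 := by nlinarith
    have b2 := mul_le_mul b1 (mul_le_mul_of_nonneg_right x1 x0) (by positivity) (by norm_num)
    nlinarith
  refine (avgT_mono G (g := fun T => Real.exp (ρ * (A' - m)) * (1 + (ρ * (1 + 6 * ρ)) * Z T) +
    ((rem G T).card : ℝ)) fun T hT => ?_).trans ?_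
  · obtain ⟨b0, b1, b2⟩ := hZ T hT
    rw [b2, show ρ * (A' - (m - Z T)) = ρ * (A' - m) + ρ * Z T by ring, Real.exp_add]
    refine add_le_add_left (mul_le_mul_of_nonneg_left ?_ (Real.exp_pos _).le) _
    have b3 : |ρ * Z T| ≤ 1 := by
      rw [abs_of_nonneg (by positivity)]
      nlinarith
    have b4 := (abs_le.1 (Real.abs_exp_sub_one_sub_id_le b3)).2
    have := mul_le_mul_of_nonneg_left b1 (show 0 ≤ ρ * (ρ * Z T) by positivity)
    nlinarith
  rw [avg_lin h.noloop hQ]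
  have xm : 0 ≤ x * m := by positivity
  have h2 : 1 + ρ * (1 + 6 * ρ) * avgT G Z ≤ Real.exp (ρ * ((1 + 8 * ρ) * (x * m))) := by
    refine le_trans ?_ (Real.add_one_le_exp _)
    have b1 := mul_le_mul_of_nonneg_left z1 (show 0 ≤ ρ * (1 + 6 * ρ) by positivity)
    have b2 : 0 ≤ ρ * ρ * (x * m) := by positivity
    have b3 := mul_le_mul_of_nonneg_right hρ1 b2
    linarith
  have h3 := mul_le_mul_of_nonneg_left h2 (Real.exp_pos (ρ * (A' - m))).le
  rw [← Real.exp_add] at h3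
  have h4 : ρ * (A' - m) + ρ * ((1 + 8 * ρ) * (x * m)) ≤
      ρ * (A - m) * (1 - (1 + 8 * ρ) * x) := by
    have := mul_le_mul_of_nonneg_left h1 hρ.le
    linarith
  have h5 := exp_mul_le (y := ρ * (A - m)) (θ := 1 - (1 + 8 * ρ) * x) (by nlinarith)
    (by nlinarith)
  have h6 := Real.exp_le_exp.2 h4
  linarith

end Crest.Agent.R30
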