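import Crest.Agent.R30.Basic

set_option autoImplicit false

open Finset
open scoped BigOperators Classical
open Crest.CombinatoricsR.TriangleRemoval

namespace Crest.Agent.R30

open Filter

theorem zz_tendsto : Tendsto zz atTop atTop := by
  unfold zz
  exact (tendsto_rpow_atTop (by norm_num : (0 : ℝ) < 1 / 6400)).comp tendsto_natCast_atTop_atTop

theorem zz_pos {n : ℕ} (hn : 0 < n) : 0 < zz n :=
  Real.rpow_pos_of_pos (by exact_mod_cast hn) _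

theorem zz_nonneg (n : ℕ) : 0 ≤ zz n := Real.rpow_nonneg (Nat.cast_nonneg n) _

theorem one_le_zz {n : ℕ} (hn : 0 < n) : 1 ≤ zz n :=
  Real.one_le_rpow (by exact_mod_cast hn) (by norm_num)

theorem zz_pow_aux (n k : ℕ) : zz n ^ k = (n : ℝ) ^ ((k : ℝ) / 6400) := by
  unfold zz
  rw [← Real.rpow_natCast, ← Real.rpow_mul (Nat.cast_nonneg n)]
  congr 1
  ring

theorem zz_pow {n : ℕ} : zz n ^ 6400 = n := by
  rw [zz_pow_aux]
  have : ((6400 : ℕ) : ℝ) / 6400 = 1 := by norm_num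
  rw [this, Real.rpow_one]

theorem rpow_three_half {n : ℕ} : (n : ℝ) ^ ((3 : ℝ) / 2) = zz n ^ 9600 := by
  rw [zz_pow_aux]
  have : ((9600 : ℕ) : ℝ) / 6400 = 3 / 2 := by norm_num
  rw [this]

theorem log_n_eq (n : ℕ) : Real.log n = 6400 * Real.log (zz n) := by
  have h := @zz_pow n
  rw [← h, Real.log_pow]
  norm_num

theorem tau0_eq {n : ℕ} (hn : 0 < n) : tau0 n = 3192 * Real.log (zz n) := by
  have hz := zz_pos hn
  have hn' : (n : ℝ) ≠ 0 := by exact_mod_cast hn.ne'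
  unfold tau0 mu0
  rw [Real.log_div hn' (pow_pos hz 16).ne', log_n_eq, Real.log_pow]
  push_cast
  ring

theorem p0_eq {n : ℕ} (hn : 0 < n) : p0 n = (zz n ^ 3192)⁻¹ := by
  have hz := zz_pos hn
  unfold p0
  rw [tau0_eq hn, Real.exp_neg]
  congr 1
  have : (3192 : ℝ) * Real.log (zz n) = Real.log (zz n ^ 3192) := by
    rw [Real.log_pow]; norm_num
  rw [this, Real.exp_log (pow_pos hz _)]

theorem tau0_nonneg {n : ℕ} (hn : 0 < n) : 0 ≤ tau0 n := by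
  rw [tau0_eq hn]
  have := Real.log_nonneg (one_le_zz hn)
  positivity

theorem mu_exp (n : ℕ) (τ : ℝ) : mu n (Real.exp (-τ)) = n * Real.exp (-(2 * τ)) := by
  unfold mu
  rw [← Real.exp_nat_mul]
  congr 2
  push_cast
  ring

theorem mu0_pos {n : ℕ} (hn : 0 < n) : 0 < mu0 n := pow_pos (zz_pos hn) 16

theorem mu_tau0 {n : ℕ} (hn : 0 < n) : mu n (Real.exp (-tau0 n)) = mu0 n := by
  have hn' : (0 : ℝ) < n := by exact_mod_cast hn
  have hm := mu0_pos hn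
  rw [mu_exp]
  have : 2 * tau0 n = Real.log (n / mu0 n) := by unfold tau0; ring
  rw [this, Real.exp_neg, Real.exp_log (div_pos hn' hm)]
  field_simp

theorem mu_ge_of_le {n : ℕ} (hn : 0 < n) {τ : ℝ} (h : τ ≤ tau0 n + 1) :
    mu0 n / 8 ≤ mu n (Real.exp (-τ)) := by
  have hn' : (0 : ℝ) < n := by exact_mod_cast hn
  rw [← mu_tau0 hn, mu_exp, mu_exp]
  have h1 : Real.exp (-(2 * tau0 n)) * Real.exp (-2) ≤ Real.exp (-(2 * τ)) := by
    rw [← Real.exp_add]; exact Real.exp_le_exp.2 (by linarith)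
  have h2 : (1 : ℝ) / 8 ≤ Real.exp (-2) := by
    have h3 : Real.exp 2 ≤ 8 := by
      have : Real.exp 2 = Real.exp 1 * Real.exp 1 := by rw [← Real.exp_add]; norm_num
      rw [this]
      have := Real.exp_one_lt_d9
      have h0 := Real.exp_pos 1
      nlinarith
    rw [Real.exp_neg, one_div]
    exact inv_anti₀ (Real.exp_pos 2) h3
  have h4 := Real.exp_pos (-(2 * tau0 n))
  have h5 : Real.exp (-(2 * tau0 n)) / 8 ≤ Real.exp (-(2 * τ)) := by nlinarith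
  calc (n : ℝ) * Real.exp (-(2 * tau0 n)) / 8 = n * (Real.exp (-(2 * tau0 n)) / 8) := by ring
    _ ≤ _ := mul_le_mul_of_nonneg_left h5 hn'.le

theorem mu_le_of_ge {n : ℕ} (hn : 0 < n) {τ : ℝ} (h : tau0 n ≤ τ) :
    mu n (Real.exp (-τ)) ≤ mu0 n := by
  rw [← mu_tau0 hn, mu_exp, mu_exp]
  exact mul_le_mul_of_nonneg_left (Real.exp_le_exp.2 (by linarith)) (Nat.cast_nonneg n)

/-- any property of large reals holds eventually at `zz n` -/
theorem ev_zz {P : ℝ → Prop} (h : ∀ᶠ z in atTop, P z) : ∀ᶠ n in atTop, P (zz n) :=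
  zz_tendsto.eventually h

theorem ev_log_pow (k : ℕ) (c : ℝ) (hc : 0 < c) :
    ∀ᶠ z : ℝ in atTop, Real.log z ^ k ≤ c * z := by
  have h := (Real.isLittleO_pow_log_id_atTop (n := k)).bound hc
  filter_upwards [h, eventually_ge_atTop (0 : ℝ)] with z hz hz0
  simp only [id, Real.norm_eq_abs, abs_of_nonneg hz0] at hz
  exact (le_abs_self _).trans hz

theorem ev_log (c : ℝ) (hc : 0 < c) : ∀ᶠ z : ℝ in atTop, Real.log z ≤ c * z := by
  simpa using ev_log_pow 1 c hc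

theorem ev_log_sq (c : ℝ) (hc : 0 < c) : ∀ᶠ z : ℝ in atTop, Real.log z ^ 2 ≤ c * z :=
  ev_log_pow 2 c hc

theorem ev_pow_le_exp (k : ℕ) (A c : ℝ) (hc : 0 < c) :
    ∀ᶠ z : ℝ in atTop, A * z ^ k ≤ Real.exp (c * z) := by
  have h := (isLittleO_pow_exp_pos_mul_atTop k hc).bound
    (show (0 : ℝ) < (|A| + 1)⁻¹ by positivity)
  filter_upwards [h, eventually_ge_atTop (0 : ℝ)] with z hz hz0
  have hp : 0 ≤ z ^ k := pow_nonneg hz0 k
  rw [Real.norm_eq_abs, Real.norm_eq_abs, abs_of_nonneg hp, abs_of_pos (Real.exp_pos _)] at hz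
  have hA : A ≤ |A| + 1 := (le_abs_self A).trans (by linarith)
  have hA0 : 0 < |A| + 1 := by positivity
  calc A * z ^ k ≤ (|A| + 1) * z ^ k := mul_le_mul_of_nonneg_right hA hp
    _ ≤ (|A| + 1) * ((|A| + 1)⁻¹ * Real.exp (c * z)) := mul_le_mul_of_nonneg_left hz hA0.le
    _ = Real.exp (c * z) := by field_simp

theorem phi_nonneg (n k : ℕ) : 0 ≤ phi n k := sq_nonneg _

theorem cc_sq : (1 / (2 * Real.sqrt 2)) ^ 2 = (1 : ℝ) / 8 := by
  rw [div_pow, mul_pow, Real.sq_sqrt (by norm_num)]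
  norm_num

theorem cc_pos : (0 : ℝ) < 1 / (2 * Real.sqrt 2) := by positivity

theorem three_half_sq (n : ℕ) : ((n : ℝ) ^ ((3 : ℝ) / 2)) ^ 2 = (n : ℝ) ^ 3 := by
  rw [← Real.rpow_natCast, ← Real.rpow_mul (Nat.cast_nonneg n), ← Real.rpow_natCast]
  norm_num

theorem phi_le_of_sq {n : ℕ} (hn : 0 < n) {k : ℕ} {A : ℝ} (hA : 0 ≤ A)
    (hk : (k : ℝ) ^ 2 ≤ A * (n : ℝ) ^ 3) : phi n k ≤ A + 1 := by
  have hn' : (0 : ℝ) < n := by exact_mod_cast hn
  have hN : 0 < (n : ℝ) ^ ((3 : ℝ) / 2) := Real.rpow_pos_of_pos hn' _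
  have h1 : ((k : ℝ) / (n : ℝ) ^ ((3 : ℝ) / 2)) ^ 2 ≤ A := by
    rw [div_pow, three_half_sq, div_le_iff₀ (pow_pos hn' 3)]; exact hk
  have h2 : 0 ≤ (k : ℝ) / (n : ℝ) ^ ((3 : ℝ) / 2) := div_nonneg (Nat.cast_nonneg k) hN.le
  have h3 := cc_sq
  have h4 := cc_pos
  unfold phi
  nlinarith [mul_nonneg h2 h4.le]

theorem phi_le {n : ℕ} (hn : 0 < n) {k : ℕ} (hk : k ≤ n ^ 2) : phi n k ≤ n + 1 := by
  refine phi_le_of_sq hn (Nat.cast_nonneg n) ?_
  have : (k : ℝ) ≤ (n : ℝ) ^ 2 := by exact_mod_cast hk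
  calc (k : ℝ) ^ 2 ≤ ((n : ℝ) ^ 2) ^ 2 := pow_le_pow_left₀ (Nat.cast_nonneg k) this 2
    _ = n * (n : ℝ) ^ 3 := by ring

theorem del_le_one {n : ℕ} (hn : 0 < n) : del n ≤ 1 := inv_le_one_of_one_le₀ (one_le_zz hn)

theorem phi_le_reg {n : ℕ} (hn : 0 < n) {G : Gr n} {τ : ℝ} (h : RegN G τ) (hτ : tau0 n ≤ τ)
    {k : ℕ} (hk : k ≤ G.card) : phi n k ≤ mu0 n + 1 := by
  refine phi_le_of_sq hn (mu0_pos hn).le ?_
  have h1 := (abs_le.1 (Reg.card_close h)).2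
  have hp := Real.exp_pos (-τ)
  have hd := del_le_one hn
  have hn' : (0 : ℝ) < n := by exact_mod_cast hn
  have hq : 0 ≤ (n : ℝ) ^ 2 * Real.exp (-τ) := by positivity
  have h2 : (k : ℝ) ≤ (n : ℝ) ^ 2 * Real.exp (-τ) := by
    have : (k : ℝ) ≤ G.card := by exact_mod_cast hk
    nlinarith
  have h3 := mu_le_of_ge hn hτ
  unfold mu at h3
  calc (k : ℝ) ^ 2 ≤ ((n : ℝ) ^ 2 * Real.exp (-τ)) ^ 2 := pow_le_pow_left₀ (Nat.cast_nonneg k) h2 2
    _ = (n * Real.exp (-τ) ^ 2) * (n : ℝ) ^ 3 := by ring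
    _ ≤ _ := mul_le_mul_of_nonneg_right h3 (by positivity)

end Crest.Agent.R30
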