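import Crest.Agent.R30.FinalStage
import Crest.Agent.R30.Params

set_option autoImplicit false

open Finset
open scoped BigOperators Classical
open Crest.CombinatoricsR.TriangleRemoval

namespace Crest.Agent.R30

open Filter

namespace FAX

theorem T1_bound {U N g w μ tb s c : ℝ} (hN : 0 < N) (hw : 0 < w) (hμ : 0 < μ)
    (hwN : w ^ 2 = μ * N ^ 2) (hs : 0 < s) (hs1 : s ≤ 1 / 10) (hg : |2 * g - w| ≤ s * w)
    (hU1 : g * Real.exp (-tb - 2 * s) ≤ U) (hU2 : U ≤ g * Real.exp (-tb + 2 * s))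
    (hE1 : 1 + 2 * μ ≤ Real.exp (2 * tb)) (hE2 : Real.exp (2 * tb) ≤ 2 + 2 * μ)
    (hμs : 1 ≤ s * μ) (hc : 0 < c) (hc2 : c ^ 2 = 1 / 8) : (U / N - c) ^ 2 ≤ 2 * s := by
  obtain ⟨hg1, hg2⟩ := abs_le.1 hg
  have hg0 : 0 ≤ g := by nlinarith
  have hU0 : 0 ≤ U := le_trans (mul_nonneg hg0 (Real.exp_pos _).le) hU1
  set E := Real.exp (2 * tb) with hE
  have hE0 : 0 < E := Real.exp_pos _
  have e1 : Real.exp (-tb + 2 * s) ^ 2 * E = Real.exp (4 * s) := by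
    rw [hE, ← Real.exp_nat_mul, ← Real.exp_add]; congr 1; push_cast; ring
  have e2 : Real.exp (-tb - 2 * s) ^ 2 * E = Real.exp (-(4 * s)) := by
    rw [hE, ← Real.exp_nat_mul, ← Real.exp_add]; congr 1; push_cast; ring
  have e3 : Real.exp (4 * s) ≤ 1 + 5.6 * s := by
    have h := Real.abs_exp_sub_one_sub_id_le (x := 4 * s) (by rw [abs_of_pos (by linarith)]; linarith)
    have := (abs_le.1 h).2
    nlinarith
  have e4 : 1 - 4 * s ≤ Real.exp (-(4 * s)) := by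
    have := Real.add_one_le_exp (-(4 * s)); linarith
  set y := U / N with hy
  have hy0 : 0 ≤ y := div_nonneg hU0 hN.le
  have hUy : U = y * N := by rw [hy]; field_simp
  have hN2 : 0 < N ^ 2 := pow_pos hN 2
  -- upper bound
  have u1 : U ^ 2 * E ≤ g ^ 2 * (1 + 5.6 * s) := by
    have : U ^ 2 ≤ (g * Real.exp (-tb + 2 * s)) ^ 2 := pow_le_pow_left₀ hU0 hU2 2
    calc U ^ 2 * E ≤ (g * Real.exp (-tb + 2 * s)) ^ 2 * E := mul_le_mul_of_nonneg_right this hE0.le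
      _ = g ^ 2 * (Real.exp (-tb + 2 * s) ^ 2 * E) := by ring
      _ ≤ g ^ 2 * (1 + 5.6 * s) := by rw [e1]; exact mul_le_mul_of_nonneg_left e3 (sq_nonneg g)
  have u2 : 4 * g ^ 2 ≤ (1 + 2.1 * s) * (μ * N ^ 2) := by
    rw [← hwN]
    have h1 : 2 * g ≤ (1 + s) * w := by linarith
    have h2 : (2 * g) ^ 2 ≤ ((1 + s) * w) ^ 2 := pow_le_pow_left₀ (by linarith) h1 2
    have h3 : (1 + s) ^ 2 ≤ 1 + 2.1 * s := by nlinarith
    have h4 : (1 + s) ^ 2 * w ^ 2 ≤ (1 + 2.1 * s) * w ^ 2 :=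
      mul_le_mul_of_nonneg_right h3 (sq_nonneg w)
    nlinarith
  have u3 : 8 * y ^ 2 ≤ 1 + 9 * s := by
    have h1 : y ^ 2 * N ^ 2 * (2 * μ) ≤ U ^ 2 * E := by
      rw [hUy, mul_pow]
      exact mul_le_mul_of_nonneg_left (by linarith) (by positivity)
    have h2 : 4 * (g ^ 2 * (1 + 5.6 * s)) ≤ (1 + 9 * s) * (μ * N ^ 2) := by
      have h3 : 4 * g ^ 2 * (1 + 5.6 * s) ≤ (1 + 2.1 * s) * (μ * N ^ 2) * (1 + 5.6 * s) :=
        mul_le_mul_of_nonneg_right u2 (by linarith)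
      have h4 : (1 + 2.1 * s) * (1 + 5.6 * s) ≤ 1 + 9 * s := by nlinarith
      have h5 : (1 + 2.1 * s) * (1 + 5.6 * s) * (μ * N ^ 2) ≤ (1 + 9 * s) * (μ * N ^ 2) :=
        mul_le_mul_of_nonneg_right h4 (by positivity)
      nlinarith
    have h6 : 8 * y ^ 2 * (μ * N ^ 2) ≤ (1 + 9 * s) * (μ * N ^ 2) := by nlinarith
    exact le_of_mul_le_mul_right h6 (by positivity)
  -- lower bound
  have l1 : g ^ 2 * (1 - 4 * s) ≤ U ^ 2 * E := by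
    have : (g * Real.exp (-tb - 2 * s)) ^ 2 ≤ U ^ 2 :=
      pow_le_pow_left₀ (mul_nonneg hg0 (Real.exp_pos _).le) hU1 2
    calc g ^ 2 * (1 - 4 * s) ≤ g ^ 2 * (Real.exp (-tb - 2 * s) ^ 2 * E) := by
          rw [e2]; exact mul_le_mul_of_nonneg_left e4 (sq_nonneg g)
      _ = (g * Real.exp (-tb - 2 * s)) ^ 2 * E := by ring
      _ ≤ U ^ 2 * E := mul_le_mul_of_nonneg_right this hE0.le
  have l2 : (1 - 2 * s) * (μ * N ^ 2) ≤ 4 * g ^ 2 := by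
    rw [← hwN]
    have h1 : (1 - s) * w ≤ 2 * g := by linarith
    have h2 : ((1 - s) * w) ^ 2 ≤ (2 * g) ^ 2 :=
      pow_le_pow_left₀ (mul_nonneg (by linarith) hw.le) h1 2
    have h3 : 1 - 2 * s ≤ (1 - s) ^ 2 := by nlinarith
    have h4 : (1 - 2 * s) * w ^ 2 ≤ (1 - s) ^ 2 * w ^ 2 :=
      mul_le_mul_of_nonneg_right h3 (sq_nonneg w)
    nlinarith
  have l3 : 1 - 6 * s ≤ 8 * y ^ 2 * (1 + s) := by
    have h1 : U ^ 2 * E ≤ y ^ 2 * N ^ 2 * (2 * μ * (1 + s)) := by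
      rw [hUy, mul_pow]
      exact mul_le_mul_of_nonneg_left (by nlinarith) (by positivity)
    have h2 : (1 - 6 * s) * (μ * N ^ 2) ≤ 4 * (g ^ 2 * (1 - 4 * s)) := by
      have h3 : (1 - 2 * s) * (μ * N ^ 2) * (1 - 4 * s) ≤ 4 * g ^ 2 * (1 - 4 * s) :=
        mul_le_mul_of_nonneg_right l2 (by linarith)
      have h4 : 1 - 6 * s ≤ (1 - 2 * s) * (1 - 4 * s) := by nlinarith
      have h5 : (1 - 6 * s) * (μ * N ^ 2) ≤ (1 - 2 * s) * (1 - 4 * s) * (μ * N ^ 2) :=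
        mul_le_mul_of_nonneg_right h4 (by positivity)
      nlinarith
    have h6 : (1 - 6 * s) * (μ * N ^ 2) ≤ 8 * y ^ 2 * (1 + s) * (μ * N ^ 2) := by nlinarith
    exact le_of_mul_le_mul_right h6 (by positivity)
  have l4 : 1 - 9 * s ≤ 8 * y ^ 2 := by nlinarith
  rcases le_total y c with h | h
  · have : (y - c) ^ 2 ≤ c ^ 2 - y ^ 2 := by nlinarith
    linarith
  · have : (y - c) ^ 2 ≤ y ^ 2 - c ^ 2 := by nlinarith
    linarith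

/-- bound for `CC` in powers of `z` -/
theorem CC_bound {z Ξ m D H : ℝ} {L : ℕ} (hz : 10 ≤ z) (hΞ : 0 ≤ Ξ) (hm : 0 ≤ m)
    (hD : D = 3 * z ^ 16) (hH : 0 ≤ H) (hDH : D * H ≤ 864 * Real.log z) (hL : z - 1 ≤ L) :
    CC Ξ m D H L ≤ Ξ * z ^ 2660 + m * z ^ 5269 * (2 * Real.exp (-(1 / 2 * z))) := by
  have hz0 : 0 < z := by linarith
  have hz1 : 1 ≤ z := by linarith
  have h16 : 1 ≤ z ^ 16 := one_le_pow₀ hz1
  have h17 : z ^ 17 = z * z ^ 16 := by ring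
  have hD0 : 0 ≤ D := by rw [hD]; positivity
  have d1 : 1 + D ≤ z ^ 17 := by rw [hD, h17]; nlinarith
  have d2 : 1 + 2 * D ≤ z ^ 17 := by rw [hD, h17]; nlinarith
  have d3 : D ≤ z ^ 17 := by linarith
  have x1 : Real.exp (3 * D * H) ≤ z ^ 2592 := by
    have : z ^ 2592 = Real.exp (2592 * Real.log z) := by
      rw [show (2592 : ℝ) * Real.log z = Real.log (z ^ 2592) by rw [Real.log_pow]; norm_num,
        Real.exp_log (pow_pos hz0 _)]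
    rw [this]
    exact Real.exp_le_exp.2 (by linarith)
  have x2 : Real.exp (6 * D * H) ≤ z ^ 5184 := by
    have : z ^ 5184 = Real.exp (5184 * Real.log z) := by
      rw [show (5184 : ℝ) * Real.log z = Real.log (z ^ 5184) by rw [Real.log_pow]; norm_num,
        Real.exp_log (pow_pos hz0 _)]
    rw [this]
    exact Real.exp_le_exp.2 (by linarith)
  have x3 : ((2 : ℝ) ^ L)⁻¹ ≤ 2 * Real.exp (-(1 / 2 * z)) := by
    have h1 : Real.exp (1 / 2) ≤ 2 := by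
      have : Real.exp (1 / 2) * Real.exp (1 / 2) = Real.exp 1 := by rw [← Real.exp_add]; norm_num
      have h2 := Real.exp_one_lt_d9
      have h3 := Real.exp_pos (1 / 2)
      nlinarith
    have h2 : Real.exp (1 / 2 * z) ≤ 2 * 2 ^ L := by
      calc Real.exp (1 / 2 * z) ≤ Real.exp ((L + 1 : ℕ) * (1 / 2)) :=
            Real.exp_le_exp.2 (by push_cast; linarith)
        _ = Real.exp (1 / 2) ^ (L + 1) := by rw [Real.exp_nat_mul]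
        _ ≤ 2 ^ (L + 1) := pow_le_pow_left₀ (Real.exp_pos _).le h1 _
        _ = 2 * 2 ^ L := by ring
    rw [Real.exp_neg, ← div_eq_mul_inv, le_div_iff₀ (Real.exp_pos _), inv_mul_le_iff₀ (by positivity)]
    linarith
  have p1 : (1 + D) ^ 4 ≤ (z ^ 17) ^ 4 := pow_le_pow_left₀ (by linarith) d1 4
  have p2 : (1 + 2 * D) ^ 4 ≤ (z ^ 17) ^ 4 := pow_le_pow_left₀ (by linarith) d2 4
  unfold CC
  have q1 : Ξ * (1 + D) ^ 4 * Real.exp (3 * D * H) ≤ Ξ * (z ^ 17) ^ 4 * z ^ 2592 := by gcongr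
  have q2 : m * D * (2 ^ L)⁻¹ * (1 + 2 * D) ^ 4 * Real.exp (6 * D * H) ≤
      m * z ^ 17 * (2 * Real.exp (-(1 / 2 * z))) * (z ^ 17) ^ 4 * z ^ 5184 := by gcongr
  have r1 : Ξ * (z ^ 17) ^ 4 * z ^ 2592 = Ξ * z ^ 2660 := by
    rw [mul_assoc, ← pow_mul, ← pow_add]
  have r2 : m * z ^ 17 * (2 * Real.exp (-(1 / 2 * z))) * (z ^ 17) ^ 4 * z ^ 5184 =
      m * z ^ 5269 * (2 * Real.exp (-(1 / 2 * z))) := by
    have : z ^ 5269 = z ^ 17 * (z ^ 17) ^ 4 * z ^ 5184 := by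
      rw [← pow_mul, ← pow_add, ← pow_add]
    rw [this]
    generalize z ^ 17 = a
    generalize z ^ 5184 = b
    ring
  linarith

theorem ev_c4 (C : ℝ) (hC : 0 < C) : ∀ᶠ z : ℝ in atTop, ∀ tb : ℝ, tb ≤ 9 * Real.log z →
    C * (z ^ 6400) ^ 2 * (10 * (z⁻¹) ^ 2) ^ qq * Real.exp (qq * (1 / 40) * tb) ≤ (z⁻¹) ^ qq := by
  filter_upwards [Real.tendsto_log_atTop.eventually_ge_atTop
    ((Real.log C + 80000 * Real.log 10) / 49200), eventually_gt_atTop (0 : ℝ)] with z hz hz0 tb htb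
  have hq : (qq : ℝ) = 80000 := by rw [qq_eq]; norm_num
  have hl : 0 < C * (z ^ 6400) ^ 2 * (10 * (z⁻¹) ^ 2) ^ qq * Real.exp (qq * (1 / 40) * tb) := by
    positivity
  have hr : 0 < (z⁻¹) ^ qq := by positivity
  rw [← Real.log_le_log_iff hl hr, Real.log_mul (by positivity) (by positivity),
    Real.log_mul (by positivity) (by positivity), Real.log_mul (by positivity) (by positivity),
    Real.log_exp, Real.log_pow, Real.log_pow, Real.log_pow, Real.log_pow,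
    Real.log_mul (by positivity) (by positivity), Real.log_pow, Real.log_inv, hq]
  rw [div_le_iff₀ (by norm_num)] at hz
  push_cast
  linarith

theorem pow_le_n {z x : ℝ} (hz1 : 1 ≤ z) (hx : x = z ^ 6400) {k : ℕ} (hk : k ≤ 6400) :
    z ^ k ≤ x := by
  rw [hx]; exact pow_le_pow_right₀ hz1 hk

theorem c34 {z μ K : ℝ} (hz : 10 ≤ z) (hμ0 : 0 < μ) (hμ2 : μ ≤ z ^ 16) (hK : z ^ 34 ≤ K) :
    4 * μ ^ 2 ≤ K := by
  have a1 : μ ^ 2 ≤ (z ^ 16) ^ 2 := pow_le_pow_left₀ hμ0.le hμ2 2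
  have a2 : z ^ 34 = z ^ 2 * (z ^ 16) ^ 2 := by rw [← pow_mul, ← pow_add]
  have hz2 : 100 ≤ z ^ 2 := by nlinarith
  have a3 : 0 ≤ (z ^ 16) ^ 2 := by positivity
  rw [a2] at hK
  generalize (z ^ 16) ^ 2 = A at *
  generalize z ^ 2 = B at *
  nlinarith

theorem z_le_mu {z μ : ℝ} (hz : 10 ≤ z) (hμ1 : z ^ 16 / 8 ≤ μ) : z ≤ μ := by
  have h1 : z ^ 2 ≤ z ^ 16 := pow_le_pow_right₀ (by linarith) (by norm_num)
  generalize z ^ 16 = A at *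
  nlinarith

theorem tb9 {z μ tb : ℝ} (hz : 10 ≤ z) (hμ2 : μ ≤ z ^ 16) (hE3 : Real.exp (2 * tb) ≤ 2 + 2 * μ) :
    tb ≤ 9 * Real.log z := by
  have hz0 : 0 < z := by linarith
  have a1 : Real.exp (2 * tb) ≤ z ^ 18 := by
    have h1 : z ^ 18 = z ^ 2 * z ^ 16 := by rw [← pow_add]
    have h2 : 1 ≤ z ^ 16 := one_le_pow₀ (by linarith)
    have hz2 : 100 ≤ z ^ 2 := by nlinarith
    rw [h1]
    generalize z ^ 16 = A at *
    generalize z ^ 2 = B at *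
    nlinarith
  have a2 : 2 * tb ≤ Real.log (z ^ 18) := (Real.le_log_iff_exp_le (pow_pos hz0 _)).2 a1
  rw [Real.log_pow] at a2
  push_cast at a2
  linarith

theorem c2 {z μ tb : ℝ} (hz : 10 ≤ z) (hμ1 : z ^ 16 / 8 ≤ μ) (htb0 : 0 ≤ tb)
    (htb9 : tb ≤ 9 * Real.log z) (hlog : Real.log z ^ 2 ≤ 1 * z) :
    2 * tb / μ * (2 * tb + 3) ≤ (z⁻¹) ^ 2 := by
  have hz0 : 0 < z := by linarith
  have hz1 : 1 ≤ z := by linarith
  have hμ0 : 0 < μ := by linarith [z_le_mu hz hμ1]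
  have hlog1 : 1 ≤ Real.log z := by
    rw [Real.le_log_iff_exp_le hz0]
    linarith [Real.exp_one_lt_d9]
  have a1 : 2 * tb * (2 * tb + 3) ≤ 400 * z := by
    clear hμ1
    nlinarith
  have a2 : 3200 * z * z ^ 2 ≤ z ^ 16 := by
    have b2 : z ^ 4 ≤ z ^ 13 := pow_le_pow_right₀ hz1 (by norm_num)
    have b3 : (10 : ℝ) ^ 4 ≤ z ^ 4 := pow_le_pow_left₀ (by norm_num) hz 4
    have b4 : 0 < z ^ 3 := pow_pos hz0 3
    have b5 : 3200 * z ^ 3 ≤ z ^ 13 * z ^ 3 := mul_le_mul_of_nonneg_right (by linarith) b4.le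
    calc 3200 * z * z ^ 2 = 3200 * z ^ 3 := by ring
      _ ≤ z ^ 13 * z ^ 3 := b5
      _ = z ^ 16 := by ring
  rw [div_mul_eq_mul_div, div_le_iff₀ hμ0, inv_pow, ← div_eq_inv_mul,
    le_div_iff₀ (pow_pos hz0 2)]
  have a3 : 2 * tb * (2 * tb + 3) * z ^ 2 ≤ 400 * z * z ^ 2 :=
    mul_le_mul_of_nonneg_right a1 (by positivity)
  linarith

theorem c3 {z μ K : ℝ} (hz : 10 ≤ z) (hμ2 : μ ≤ z ^ 16) (hK : z ^ 20 ≤ K) :
    μ / K ≤ (z⁻¹) ^ 4 := by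
  have hz0 : 0 < z := by linarith
  have hK0 : 0 < K := lt_of_lt_of_le (pow_pos hz0 _) hK
  rw [div_le_iff₀ hK0, inv_pow, ← div_eq_inv_mul, le_div_iff₀ (pow_pos hz0 4)]
  have a1 : μ * z ^ 4 ≤ z ^ 16 * z ^ 4 := mul_le_mul_of_nonneg_right hμ2 (by positivity)
  rw [← pow_add] at a1
  exact a1.trans hK

theorem cDH {z μ tb : ℝ} (hz : 10 ≤ z) (hμ1 : z ^ 16 / 8 ≤ μ) (htb0 : 0 ≤ tb)
    (htb9 : tb ≤ 9 * Real.log z) : 3 * z ^ 16 * (4 * tb / μ) ≤ 864 * Real.log z := by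
  have hμ0 : 0 < μ := by linarith [z_le_mu hz hμ1]
  rw [← mul_div_assoc, div_le_iff₀ hμ0]
  have a1 : z ^ 16 * tb ≤ 8 * μ * tb := mul_le_mul_of_nonneg_right (by linarith) htb0
  have a2 : μ * tb ≤ μ * (9 * Real.log z) := mul_le_mul_of_nonneg_left htb9 hμ0.le
  generalize z ^ 16 = A at *
  linarith

theorem csm {z : ℝ} (hz0 : 0 < z) (hexp : 2 * z ^ 30870 ≤ Real.exp (1 / 2 * z)) :
    z ^ 25600 * z ^ 5269 * (2 * Real.exp (-(1 / 2 * z))) ≤ z⁻¹ := by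
  have a1 : z ^ 30870 = z ^ 25600 * z ^ 5269 * z := by rw [← pow_add, ← pow_succ]
  rw [a1] at hexp
  generalize z ^ 25600 * z ^ 5269 = A at hexp ⊢
  rw [Real.exp_neg, ← div_eq_mul_inv, ← mul_div_assoc, div_le_iff₀ (Real.exp_pos _),
    ← div_eq_inv_mul, le_div_iff₀ hz0]
  linarith

theorem cXi {z : ℝ} (hz1 : 1 ≤ z) : (z ^ 3000)⁻¹ * z ^ 16 * z ^ 2660 ≤ z⁻¹ := by
  have hz0 : 0 < z := by linarith
  rw [mul_assoc, ← pow_add, ← div_eq_inv_mul, div_le_iff₀ (pow_pos hz0 _),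
    ← div_eq_inv_mul, le_div_iff₀ hz0, ← pow_succ]
  exact pow_le_pow_right₀ hz1 (by norm_num)

theorem cT3 {z N g H : ℝ} {L : ℕ} (hz : 10 ≤ z) (hN1 : 1 ≤ N) (hg0 : 0 ≤ g)
    (hg : g ≤ z ^ 25600) (hH0 : 0 ≤ H) (hDH : 3 * z ^ 16 * H ≤ 864 * Real.log z)
    (hL : z - 1 ≤ L) (hexp : 2 * z ^ 30870 ≤ Real.exp (1 / 2 * z)) (j : ℕ) (hj1 : 1 ≤ j)
    (hj : j ≤ 2) :
    CC ((z ^ 3000)⁻¹ * (z ^ 8 * N) ^ j) g (3 * z ^ 16) H L ≤ 2 * z⁻¹ * N ^ j := by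
  have hz0 : 0 < z := by linarith
  have hz1 : 1 ≤ z := by linarith
  have hN0 : 0 < N := by linarith
  refine (CC_bound hz (by positivity) hg0 rfl hH0 hDH hL).trans ?_
  have a1 : (z ^ 3000)⁻¹ * (z ^ 8 * N) ^ j * z ^ 2660 ≤ z⁻¹ * N ^ j := by
    have b1 : (z ^ 8) ^ j ≤ z ^ 16 := by
      rw [← pow_mul]; exact pow_le_pow_right₀ hz1 (by omega)
    have b2 : (z ^ 3000)⁻¹ * (z ^ 8) ^ j * z ^ 2660 ≤ (z ^ 3000)⁻¹ * z ^ 16 * z ^ 2660 :=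
      mul_le_mul_of_nonneg_right (mul_le_mul_of_nonneg_left b1 (by positivity)) (by positivity)
    have b3 := mul_le_mul_of_nonneg_right (b2.trans (cXi hz1)) (pow_pos hN0 j).le
    rw [mul_pow]
    refine le_trans (le_of_eq ?_) b3
    generalize z ^ 2660 = A
    generalize (z ^ 3000)⁻¹ = B
    generalize (z ^ 8) ^ j = D
    ring
  have a2 : g * z ^ 5269 * (2 * Real.exp (-(1 / 2 * z))) ≤ z⁻¹ * N ^ j := by
    have b2 : g * z ^ 5269 * (2 * Real.exp (-(1 / 2 * z))) ≤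
        z ^ 25600 * z ^ 5269 * (2 * Real.exp (-(1 / 2 * z))) :=
      mul_le_mul_of_nonneg_right (mul_le_mul_of_nonneg_right hg (by positivity)) (by positivity)
    have b3 : z⁻¹ * 1 ≤ z⁻¹ * N ^ j :=
      mul_le_mul_of_nonneg_left (one_le_pow₀ hN1) (inv_pos.2 hz0).le
    rw [mul_one] at b3
    exact (b2.trans (csm hz0 hexp)).trans b3
  refine (add_le_add a1 a2).trans (le_of_eq ?_)
  ring

theorem cT5 {z x Qn : ℝ} (hz : 10 ≤ z) (hx : z ^ 18 ≤ x) (hQ0 : 0 ≤ Qn) (hQ : Qn ≤ x ^ 3) :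
    (z ^ 16 + 1) * Qn ^ 2 / x ^ 10 ≤ z⁻¹ := by
  have hz0 : 0 < z := by linarith
  have hz1 : 1 ≤ z := by linarith
  have hx1 : 1 ≤ x := (one_le_pow₀ hz1).trans hx
  have hx0 : 0 < x := by linarith
  have hs0 : 0 < z⁻¹ := inv_pos.2 hz0
  rw [div_le_iff₀ (pow_pos hx0 _)]
  have a2 : Qn ^ 2 ≤ (x ^ 3) ^ 2 := pow_le_pow_left₀ hQ0 hQ 2
  have a3 : (z ^ 16 + 1) * z ≤ x := by
    have b2 : z ^ 18 = z ^ 16 * z * z := by ring
    have b3 : 1 ≤ z ^ 16 := one_le_pow₀ hz1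
    rw [b2] at hx
    generalize z ^ 16 = A at *
    have b4 : 0 < A * z := by positivity
    nlinarith
  have a4 : z ^ 16 + 1 ≤ z⁻¹ * x := by
    rw [← div_eq_inv_mul, le_div_iff₀ hz0]; exact a3
  have a5 : x * (x ^ 3) ^ 2 ≤ x ^ 10 := by
    rw [← pow_mul, ← pow_succ']
    exact pow_le_pow_right₀ hx1 (by norm_num)
  calc (z ^ 16 + 1) * Qn ^ 2 ≤ (z⁻¹ * x) * (x ^ 3) ^ 2 :=
        mul_le_mul a4 a2 (by positivity) (by positivity)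
    _ = z⁻¹ * (x * (x ^ 3) ^ 2) := by ring
    _ ≤ z⁻¹ * x ^ 10 := mul_le_mul_of_nonneg_left a5 hs0.le

theorem cT2 {z x g : ℝ} (hz0 : 0 < z) (hx : z ≤ x) (hg : g ≤ x ^ 2) : g / x ^ 3 ≤ z⁻¹ := by
  have hx0 : 0 < x := by linarith
  rw [div_le_iff₀ (by positivity), ← div_eq_inv_mul, le_div_iff₀ hz0]
  calc g * z ≤ x ^ 2 * x := mul_le_mul hg hx hz0.le (by positivity)
    _ = x ^ 3 := by ring

theorem total {v T1 T2 C2 C1 T5 s N c η : ℝ} (hN : 0 < N) (hs : 0 < s) (hc0 : 0 < c)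
    (hc : c ^ 2 = 1 / 8) (h : v ≤ T1 + T2 + 2 * C2 / N ^ 2 + 2 * c * C1 / N + T5)
    (h1 : T1 ≤ 2 * s) (h2 : T2 ≤ s) (h3 : C2 ≤ 2 * s * N ^ 2) (h4 : C1 ≤ 2 * s * N ^ 1)
    (h5 : T5 ≤ s) (hη : 12 * s ≤ η) : v ≤ η := by
  have a3 : 2 * C2 / N ^ 2 ≤ 4 * s := by rw [div_le_iff₀ (pow_pos hN 2)]; linarith
  have a4 : 2 * c * C1 / N ≤ 4 * s := by
    rw [div_le_iff₀ hN]
    rw [pow_one] at h4
    have a1 : c ≤ 1 := by nlinarith
    have a2 := mul_le_mul_of_nonneg_left h4 (show 0 ≤ 2 * c by positivity)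
    have a3 : 0 ≤ s * N := by positivity
    nlinarith
  linarith

theorem w_eq {n : ℕ} (hn : 0 < n) :
    (n : ℝ) ^ 2 * p0 n = zz n ^ 8 * (n : ℝ) ^ ((3 : ℝ) / 2) := by
  have hz0 := zz_pos hn
  rw [p0_eq hn, rpow_three_half]
  have h := @zz_pow n
  generalize zz n = z at *
  rw [← h, ← pow_mul, ← pow_add, ← div_eq_mul_inv, div_eq_iff (pow_pos hz0 _).ne', ← pow_add]

end FAX

open FAX in
theorem final_asym (η : ℝ) (hη : 0 < η) : ∀ᶠ n : ℕ in atTop, ∀ (G : Gr n) (τ : ℝ),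
    tau0 n ≤ τ → τ ≤ tau0 n + 1 → RegN G τ → Sparse G → val (phi n) G ≤ η := by
  obtain ⟨δ0, C, hδ0, -, hC, H⟩ := final_stage qq qq_even two_le_qq (1 / 40) (by norm_num)
  filter_upwards [eventually_gt_atTop 0, ev_zz (eventually_ge_atTop (10 : ℝ)),
    ev_zz (eventually_ge_atTop δ0⁻¹), ev_zz (eventually_ge_atTop (12 / η)),
    ev_zz (ev_log_sq 1 one_pos), ev_zz (ev_c4 C hC),
    ev_zz (ev_pow_le_exp 30870 2 (1 / 2) (by norm_num))]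
    with n hn hz hzδ hzη hlog hc4 hexp G τ hτ1 hτ2 hreg hsp
  have hz0 : 0 < zz n := zz_pos hn
  have hz1 : 1 ≤ zz n := one_le_zz hn
  have hnz : (n : ℝ) = zz n ^ 6400 := zz_pow.symm
  have hn0 : (0 : ℝ) < n := Nat.cast_pos.2 hn
  have hn1 : (1 : ℝ) ≤ n := Nat.one_le_cast.2 hn
  have hp0 : 0 < Real.exp (-τ) := Real.exp_pos _
  have hp1 : Real.exp (-τ) ≤ 1 :=
    Real.exp_le_one_iff.2 (neg_nonpos.2 ((tau0_nonneg hn).trans hτ1))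
  have hμ1 : zz n ^ 16 / 8 ≤ mu n (Real.exp (-τ)) := mu_ge_of_le hn hτ2
  have hμ2 : mu n (Real.exp (-τ)) ≤ zz n ^ 16 := mu_le_of_ge hn hτ1
  have hzμ := z_le_mu hz hμ1
  have hμ0 : 0 < mu n (Real.exp (-τ)) := hz0.trans_le hzμ
  have hK0 : 0 < n ^ 10 := pow_pos hn 10
  have hKr : ((n ^ 10 : ℕ) : ℝ) = (n : ℝ) ^ 10 := Nat.cast_pow n 10
  have hKn : (n : ℝ) ≤ ((n ^ 10 : ℕ) : ℝ) := by
    rw [hKr]; exact le_self_pow₀ hn1 (by norm_num)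
  have hK0' : (0 : ℝ) < ((n ^ 10 : ℕ) : ℝ) := hn0.trans_le hKn
  have h34 := c34 hz hμ0 hμ2 ((pow_le_n hz1 hnz (by norm_num)).trans hKn)
  have h2K : 2 * mu n (Real.exp (-τ)) ≤ ((n ^ 10 : ℕ) : ℝ) := by
    refine le_trans ?_ h34
    have := hz1.trans hzμ
    generalize mu n (Real.exp (-τ)) = m at this ⊢
    clear * - this
    nlinarith
  obtain ⟨hE1, hE2⟩ := tau_final hμ0.le hK0 h2K
  have htb0 := tau_nonneg hμ0.le (n ^ 10) (n ^ 10)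
  have hE3 : Real.exp (2 * tau (mu n (Real.exp (-τ))) (n ^ 10) (n ^ 10)) ≤
      2 + 2 * mu n (Real.exp (-τ)) := by
    have := (div_le_one hK0').2 h34
    refine hE2.trans ?_
    clear * - this
    linarith
  have htb9 := tb9 hz hμ2 hE3
  have hs0 : 0 < (zz n)⁻¹ := inv_pos.2 hz0
  have hs1 : (zz n)⁻¹ ≤ 1 / 10 := by rw [one_div]; exact inv_anti₀ (by norm_num) hz
  have hsδ : (zz n)⁻¹ ≤ δ0 := by
    have := inv_anti₀ (inv_pos.2 hδ0) hzδ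
    rwa [inv_inv] at this
  have hρs : rho n = (zz n)⁻¹ ^ 2 := by rw [inv_pow]; rfl
  have hρδ : rho n ≤ δ0 := by
    rw [hρs]
    refine le_trans ?_ hsδ
    generalize (zz n)⁻¹ = s at hs0 hs1 ⊢
    clear * - hs0 hs1
    nlinarith
  have hc4' := hc4 _ htb9
  rw [← hnz] at hc4'
  have hp00 : 0 < p0 n := Real.exp_pos _
  have hX0 : 0 < Xi0 n := inv_pos.2 (pow_pos hz0 _)
  have hN0 : 0 < (n : ℝ) ^ ((3 : ℝ) / 2) := Real.rpow_pos_of_pos hn0 _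
  have hN1 : 1 ≤ (n : ℝ) ^ ((3 : ℝ) / 2) := Real.one_le_rpow hn1 (by norm_num)
  obtain ⟨U, hU1, hU2, hval⟩ := H n G (Real.exp (-τ)) (rho n) (del n) (zz n)⁻¹ (n ^ 10) hp0 hp1
    hreg hρδ hsδ hK0 hμ0 hs0 hs1 hρs.le (c2 hz hμ1 htb0 htb9 hlog)
    (c3 hz hμ2 ((pow_le_n hz1 hnz (by norm_num)).trans hKn)) hc4' (3 * mu0 n)
    (Xi0 n * ((n : ℝ) ^ 2 * p0 n) ^ 1) (Xi0 n * ((n : ℝ) ^ 2 * p0 n) ^ 2)
    ((n : ℝ) ^ ((3 : ℝ) / 2)) (1 / (2 * Real.sqrt 2)) (mu0 n + 1) (LL n)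
    (mul_le_mul_of_nonneg_left hμ2 (by norm_num)) (by positivity) (by positivity)
    (fun a b i h => hsp 1 (by simp) a b i h) (fun a b i h => hsp 2 (by simp) a b i h) hN0
    cc_pos.le (fun k hk => phi_le_reg hn hreg hτ1 hk)
  have hG2 : (G.card : ℝ) ≤ (n : ℝ) ^ 2 := by exact_mod_cast card_le_sq G
  have hG0 : (0 : ℝ) ≤ G.card := Nat.cast_nonneg _
  have hn4 : ((n : ℝ) ^ 2) ^ 2 = zz n ^ 25600 := by
    conv_lhs => rw [hnz]
    rw [← pow_mul, ← pow_mul]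
  have hL : zz n - 1 ≤ LL n := (Nat.sub_one_lt_floor (zz n)).le
  have hH0 : 0 ≤ 4 * tau (mu n (Real.exp (-τ))) (n ^ 10) (n ^ 10) / mu n (Real.exp (-τ)) := by
    positivity
  have hDH := cDH hz hμ1 htb0 htb9
  refine total hN0 hs0 cc_pos cc_sq hval ?_ ?_ ?_ ?_ ?_ ?_
  · refine T1_bound (w := (n : ℝ) ^ 2 * Real.exp (-τ)) hN0 (by positivity) hμ0 ?_ hs0 hs1
      (Reg.card_close hreg) hU1 hU2 hE1 hE3 ?_ cc_pos cc_sq
    · rw [three_half_sq]; unfold mu; ring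
    · rw [← div_eq_inv_mul, le_div_iff₀ hz0, one_mul]; exact hzμ
  · rw [three_half_sq]
    exact cT2 hz0 (by simpa using pow_le_n hz1 hnz (k := 1) (by norm_num)) hG2
  · rw [w_eq hn]
    exact cT3 hz hN1 (by positivity) (hn4 ▸ pow_le_pow_left₀ hG0 hG2 2) hH0 hDH hL hexp 2
      (by norm_num) le_rfl
  · rw [w_eq hn]
    exact cT3 hz hN1 hG0 (hn4 ▸ hG2.trans (le_self_pow₀ (one_le_pow₀ hn1) (by norm_num))) hH0
      hDH hL hexp 1 le_rfl (by norm_num)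
  · rw [hKr]
    exact cT5 hz (pow_le_n hz1 hnz (by norm_num)) (Nat.cast_nonneg _)
      (by exact_mod_cast Q_le_cube G)
  · rw [← div_eq_mul_inv, div_le_iff₀ hz0, mul_comm, ← div_le_iff₀ hη]
    exact hzη

end Crest.Agent.R30
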