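import Crest.Agent.R30.Defs

set_option autoImplicit false

open Finset
open scoped BigOperators Classical
open Crest.CombinatoricsR.TriangleRemoval

namespace Crest.Agent.R30

/-- independence of functions of disjoint coordinate sets -/
theorem expect_mul_of_disjoint {I Ω : Type} [Fintype I] [DecidableEq I] [Fintype Ω] [Nonempty Ω]
    (f g : (I → Ω) → ℝ) (S : Set I) (hf : DependsOn f S) (hg : DependsOn g Sᶜ) :
    (𝔼 ω : I → Ω, f ω * g ω) = (𝔼 ω : I → Ω, f ω) * 𝔼 ω : I → Ω, g ω := by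
  let mix : (I → Ω) → (I → Ω) → I → Ω := fun x y i => if i ∈ S then x i else y i
  have hinv : Function.Involutive
      (fun p : (I → Ω) × (I → Ω) => (mix p.1 p.2, mix p.2 p.1)) := by
    rintro ⟨x, y⟩
    ext i <;> by_cases h : i ∈ S <;> simp [mix, h]
  have h1 : (𝔼 ω : I → Ω, f ω) * (𝔼 ω : I → Ω, g ω) =
      𝔼 p : (I → Ω) × (I → Ω), f p.1 * g p.2 := by
    rw [Fintype.expect_mul_expect, ← univ_product_univ,
      Finset.expect_product' _ _ (fun x y => f x * g y)]
  have h2 : (𝔼 ω : I → Ω, f ω * g ω) = 𝔼 p : (I → Ω) × (I → Ω), f p.1 * g p.1 := by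
    rw [← univ_product_univ, Finset.expect_product' _ _ (fun x _ => f x * g x)]
    simp only [Fintype.expect_const]
  rw [h1, h2]
  refine (Fintype.expect_equiv hinv.toPerm _ _ fun p => ?_).symm
  show f p.1 * g p.2 = f (mix p.1 p.2) * g (mix p.1 p.2)
  congr 1
  · exact hf fun i hi => by simp [mix, hi]
  · exact hg fun i hi => by simp [mix, show i ∉ S from hi]

theorem expect_prod_of_disjoint {I Ω ι : Type} [Fintype I] [DecidableEq I] [Fintype Ω]
    [Nonempty Ω] (s : Finset ι) (f : ι → (I → Ω) → ℝ) (S : ι → Set I)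
    (hf : ∀ c ∈ s, DependsOn (f c) (S c))
    (hd : ∀ c ∈ s, ∀ c' ∈ s, c ≠ c' → Disjoint (S c) (S c')) :
    (𝔼 ω : I → Ω, ∏ c ∈ s, f c ω) = ∏ c ∈ s, 𝔼 ω : I → Ω, f c ω := by
  induction s using Finset.induction_on with
  | empty => simp
  | insert a s ha ih =>
    simp only [prod_insert ha]
    rw [expect_mul_of_disjoint (f a) (fun ω => ∏ c ∈ s, f c ω) (S a) (hf a (mem_insert_self _ _)),
      ih (fun c hc => hf c (mem_insert_of_mem hc))
        (fun c hc c' hc' => hd c (mem_insert_of_mem hc) c' (mem_insert_of_mem hc'))]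
    intro x y hxy
    refine prod_congr rfl fun c hc => hf c (mem_insert_of_mem hc) fun i hi => hxy i ?_
    exact Set.disjoint_left.1 (hd c (mem_insert_of_mem hc) a (mem_insert_self _ _)
      (fun e => ha (e ▸ hc))) hi

theorem expect_coord {I : Type} [Fintype I] [DecidableEq I] {K : ℕ} (i : I) {j : ℕ}
    (hj : j < K) : (𝔼 ω : I → Fin K, ind ((ω i : ℕ) = j)) = (K : ℝ)⁻¹ := by
  have : Nonempty (Fin K) := ⟨⟨j, hj⟩⟩
  rw [Fintype.expect_equiv (Equiv.funSplitAt i (Fin K))
    (fun ω : I → Fin K => ind ((ω i : ℕ) = j)) (fun p => ind ((p.1 : ℕ) = j))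
    (fun _ => rfl), ← univ_product_univ,
    Finset.expect_product' _ _ (fun (x : Fin K) (_ : {k // k ≠ i} → Fin K) => ind ((x : ℕ) = j))]
  simp only [Fintype.expect_const]
  rw [Finset.expect_eq_sum_div_card, sum_eq_single (⟨j, hj⟩ : Fin K), ind_pos rfl]
  · simp
  · intro b _ hb
    exact ind_neg fun e => hb (Fin.ext e)
  · intro h
    exact absurd (mem_univ _) h

variable {σ : Type} [Fintype σ] [DecidableEq σ]

namespace TreeProdX

omit [Fintype σ] [DecidableEq σ] in
theorem tb_congr (kids : List σ → Finset σ) {lb lb' : List σ → ℕ} (k : ℕ) (l : List σ)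
    (h : ∀ l', l <:+ l' → l' ≠ l → lb l' = lb' l') : tb kids lb k l ↔ tb kids lb' k l := by
  induction k using Nat.strong_induction_on generalizing l with
  | _ k ih =>
  rw [tb_iff, tb_iff]
  refine forall_congr' fun c => forall_congr' fun _ => ?_
  have e : lb (c :: l) = lb' (c :: l) := h _ (List.suffix_cons c l) (List.cons_ne_self c l)
  rw [← e]
  refine forall_congr' fun hk => not_congr (ih _ hk _ fun l' h1 _ => ?_)
  refine h l' ((List.suffix_cons c l).trans h1) fun e' => ?_
  have := h1.length_le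
  simp [e'] at this

omit [Fintype σ] [DecidableEq σ] in
theorem lab_congr {K : ℕ} {x y : Nd σ K → Fin K} {l : List σ}
    (h : ∀ i : Nd σ K, i.1 = l → x i = y i) : lab x l = lab y l := by
  unfold lab
  split_ifs with hl
  · rw [h ⟨l, hl⟩ rfl]
  · rfl

theorem ind_congr {P Q : Prop} (h : P ↔ Q) : ind P = ind Q := by rw [propext h]

theorem ind_forall_not {ι : Type} (s : Finset ι) (P : ι → Prop) :
    ind (∀ c ∈ s, ¬ P c) = ∏ c ∈ s, (1 - ind (P c)) := by
  by_cases h : ∀ c ∈ s, ¬ P c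
  · rw [ind_pos h]
    exact (prod_eq_one fun c hc => by rw [ind_neg (h c hc), sub_zero]).symm
  · rw [ind_neg h]
    push Not at h
    obtain ⟨c, hc, hP⟩ := h
    exact (prod_eq_zero hc (by rw [ind_pos hP, sub_self])).symm

theorem ind_lt_and (a k : ℕ) (P : ℕ → Prop) :
    ind (a < k ∧ P a) = ∑ j ∈ range k, ind (a = j) * ind (P j) := by
  by_cases h : a < k
  · rw [sum_eq_single a, ind_pos (rfl : a = a), one_mul]
    · exact ind_congr (and_iff_right h)
    · intro b _ hb
      rw [ind_neg (Ne.symm hb), zero_mul]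
    · intro h'
      exact absurd (mem_range.2 h) h'
  · rw [ind_neg fun h' => h h'.1]
    refine (sum_eq_zero fun j hj => ?_).symm
    rw [ind_neg fun e : a = j => h (e ▸ mem_range.1 hj), zero_mul]

end TreeProdX

open TreeProdX

/-- `tb` at `l` only reads labels of proper descendants of `l` -/
theorem tb_dependsOn (kids : List σ → Finset σ) (K k : ℕ) (l : List σ) :
    DependsOn (fun ω : Nd σ K → Fin K => ind (tb kids (lab ω) k l))
      {i | l <:+ i.1 ∧ i.1 ≠ l} := by
  intro x y h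
  exact ind_congr (tb_congr kids k l fun l' h1 h2 =>
    lab_congr fun i hi => h i ⟨hi ▸ h1, hi ▸ h2⟩)

namespace TreeProdX

theorem acc_of (kids : List σ → Finset σ) {K : ℕ} (hK : 0 < K) (k : ℕ) (l : List σ) (c : σ)
    (hk : k ≤ K) (hl : l.length + k ≤ K + 1)
    (ih : ∀ j < k, (𝔼 ω : Nd σ K → Fin K, ind (tb kids (lab ω) j (c :: l))) =
      tβ kids K j (c :: l)) :
    (𝔼 ω : Nd σ K → Fin K, ind (lab ω (c :: l) < k ∧ tb kids (lab ω) (lab ω (c :: l)) (c :: l))) =
      (K : ℝ)⁻¹ * ∑ j ∈ range k, tβ kids K j (c :: l) := by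
  have : Nonempty (Fin K) := ⟨⟨0, hK⟩⟩
  have e : ∀ ω : Nd σ K → Fin K,
      ind (lab ω (c :: l) < k ∧ tb kids (lab ω) (lab ω (c :: l)) (c :: l)) =
      ∑ j ∈ range k, ind (lab ω (c :: l) = j) * ind (tb kids (lab ω) j (c :: l)) := fun ω =>
    ind_lt_and _ k (fun j => tb kids (lab ω) j (c :: l))
  simp only [e]
  rw [Finset.expect_sum_comm, mul_sum]
  refine sum_congr rfl fun j hj => ?_
  have hj' := mem_range.1 hj
  have hlen : (c :: l).length ≤ K + 1 := by rw [List.length_cons]; omega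
  let i0 : Nd σ K := ⟨c :: l, hlen⟩
  have e2 : ∀ ω : Nd σ K → Fin K, lab ω (c :: l) = (ω i0 : ℕ) := fun ω => dif_pos hlen
  simp only [e2]
  rw [expect_mul_of_disjoint (fun ω : Nd σ K → Fin K => ind ((ω i0 : ℕ) = j))
    (fun ω => ind (tb kids (lab ω) j (c :: l))) {i0}
    (fun x y h => by simp only [h i0 rfl])
    ((tb_dependsOn kids K j (c :: l)).mono fun i hi e => hi.2 (by rw [e])),
    expect_coord i0 (by omega), ih j hj']

theorem prod_aux (kids : List σ → Finset σ) {K : ℕ} (hK : 0 < K) (k : ℕ) (l : List σ)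
    (hk : k ≤ K) (hl : l.length + k ≤ K + 1) :
    (𝔼 ω : Nd σ K → Fin K, ind (tb kids (lab ω) k l)) = tβ kids K k l := by
  induction k using Nat.strong_induction_on generalizing l with
  | _ k ih =>
  have : Nonempty (Fin K) := ⟨⟨0, hK⟩⟩
  have e : ∀ ω : Nd σ K → Fin K, ind (tb kids (lab ω) k l) = ∏ c ∈ kids l,
      (1 - ind (lab ω (c :: l) < k ∧ tb kids (lab ω) (lab ω (c :: l)) (c :: l))) := fun ω => by
    rw [← ind_forall_not]
    refine ind_congr ?_
    rw [tb_iff]
    simp only [not_and]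
  simp only [e]
  rw [expect_prod_of_disjoint (kids l) (fun c (ω : Nd σ K → Fin K) =>
      1 - ind (lab ω (c :: l) < k ∧ tb kids (lab ω) (lab ω (c :: l)) (c :: l)))
    (fun c => {i | c :: l <:+ i.1}), tβ_eq]
  · refine prod_congr rfl fun c _ => ?_
    rw [Finset.expect_sub_distrib, Fintype.expect_const,
      acc_of kids hK k l c hk hl fun j hj => ih j hj _ (by omega) (by rw [List.length_cons]; omega)]
  · intro c _ x y h
    have e1 : ∀ l', c :: l <:+ l' → lab x l' = lab y l' := fun l' hl' =>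
      lab_congr fun i hi => h i (hi ▸ hl' : c :: l <:+ i.1)
    simp only
    rw [e1 _ (List.suffix_refl _)]
    congr 1
    exact ind_congr (and_congr_right fun _ => tb_congr kids _ _ fun l' h1 _ => e1 l' h1)
  · intro c _ c' _ hcc
    refine Set.disjoint_left.2 fun i h1 h2 => hcc ?_
    exact (List.cons.inj ((List.suffix_of_suffix_length_le h1 h2 (by simp)).eq_of_length
      (by simp))).1

end TreeProdX

/-- probability that the child `c` of `l` is accepted before time `k` -/
theorem tree_acc (kids : List σ → Finset σ) {K : ℕ} (hK : 0 < K) (k : ℕ) (l : List σ) (c : σ)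
    (hk : k ≤ K) (hl : l.length + k ≤ K + 1) :
    (𝔼 ω : Nd σ K → Fin K, ind (lab ω (c :: l) < k ∧ tb kids (lab ω) (lab ω (c :: l)) (c :: l))) =
      (K : ℝ)⁻¹ * ∑ j ∈ range k, tβ kids K j (c :: l) :=
  acc_of kids hK k l c hk hl fun j hj =>
    prod_aux kids hK j _ (by omega) (by rw [List.length_cons]; omega)

theorem tree_prod (kids : List σ → Finset σ) {K : ℕ} (hK : 0 < K) (k : ℕ) (l : List σ)
    (hk : k ≤ K) (hl : l.length + k ≤ K + 1) :
    (𝔼 ω : Nd σ K → Fin K, ind (tb kids (lab ω) k l)) = tβ kids K k l :=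
  prod_aux kids hK k l hk hl

end Crest.Agent.R30
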