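import Crest.Agent.R30.Val
import Crest.Agent.R30.TreeProd

set_option autoImplicit false

open Finset
open scoped BigOperators Classical
open Crest.CombinatoricsR.TriangleRemoval

namespace Crest.Agent.R30

variable {n : ℕ}

namespace GreedyX

theorem alive_congr (G : Gr n) (ω ω' : Finset (Fin n) → ℕ)
    (h : ∀ T ∈ triangles G, ω T = ω' T) (k : ℕ) :
    ∀ f, alive G ω k f ↔ alive G ω' k f := by
  induction k using Nat.strong_induction_on with
  | _ k ih =>
    intro f
    rw [alive_iff, alive_iff]
    refine forall_congr' fun T => forall_congr' fun hT => forall_congr' fun _ => ?_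
    rw [← h T hT]
    refine forall_congr' fun hk => not_congr ?_
    exact forall_congr' fun g => forall_congr' fun _ => ih _ hk g

theorem dead {G : Gr n} {ω : Finset (Fin n) → ℕ} {T : Finset (Fin n)} (hT : T ∈ triangles G)
    (hmin : ∀ T' ∈ triangles G, T' ≠ T → ω T < ω T') {k : ℕ} (hk : ω T < k)
    {g : Sym2 (Fin n)} (hg : g ∈ T.sym2) : ¬ alive G ω k g := by
  intro h
  rw [alive_iff] at h
  refine h T hT hg hk fun g' _ => ?_
  rw [alive_iff]
  intro T' hT' _ hlt
  exfalso
  by_cases e : T' = T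
  · rw [e] at hlt; exact lt_irrefl _ hlt
  · exact lt_asymm hlt (hmin T' hT' e)

theorem alive_rem {G : Gr n} {ω : Finset (Fin n) → ℕ} {T : Finset (Fin n)} (hT : T ∈ triangles G)
    (hmin : ∀ T' ∈ triangles G, T' ≠ T → ω T < ω T') (k : ℕ) :
    ∀ f, f ∉ T.sym2 → (alive G ω k f ↔ alive (rem G T) ω k f) := by
  induction k using Nat.strong_induction_on with
  | _ k ih =>
    intro f hf
    rw [alive_iff, alive_iff]
    constructor
    · intro h T' hT' hfT' hk hall
      refine h T' (triangles_mono Finset.sdiff_subset hT') hfT' hk fun g hg => ?_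
      have hg' : g ∈ rem G T := (mem_triangles_iff.1 hT').2 (Finset.mem_of_mem_erase hg)
      exact (ih _ hk g (mem_rem.1 hg').2).2 (hall g hg)
    · intro h T' hT' hfT' hk hall
      have hne : T' ≠ T := by rintro rfl; exact hf hfT'
      by_cases hr : T' ∈ triangles (rem G T)
      · refine h T' hr hfT' hk fun g hg => ?_
        have hg' : g ∈ rem G T := (mem_triangles_iff.1 hr).2 (Finset.mem_of_mem_erase hg)
        exact (ih _ hk g (mem_rem.1 hg').2).1 (hall g hg)
      · have h3 := mem_triangles_iff.1 hT'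
        have : ¬ tE T' ⊆ rem G T := fun hs => hr (mem_triangles_iff.2 ⟨h3.1, hs⟩)
        obtain ⟨g, hg, hg'⟩ := Finset.not_subset.1 this
        have hgT : g ∈ T.sym2 := by
          by_contra hc
          exact hg' (mem_rem.2 ⟨h3.2 hg, hc⟩)
        have hgf : g ≠ f := by rintro rfl; exact hf hgT
        exact dead hT hmin (hmin T' hT' hne) hgT (hall g (Finset.mem_erase.2 ⟨hgf, hg⟩))

/-- the final graph of the greedy process -/
noncomputable def fin (G : Gr n) (K : ℕ) (ω : Finset (Fin n) → Fin K) : Gr n :=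
  G.filter (fun f => alive G (fun T => (ω T : ℕ)) K f)

theorem fin_congr (G : Gr n) (K : ℕ) (ω ω' : Finset (Fin n) → Fin K)
    (h : ∀ T ∈ triangles G, ω T = ω' T) : fin G K ω = fin G K ω' := by
  unfold fin
  refine Finset.filter_congr fun f _ => ?_
  exact alive_congr G _ _ (fun T hT => by simp only [h T hT]) K f

theorem fin_rem {G : Gr n} {K : ℕ} {ω : Finset (Fin n) → Fin K} {T : Finset (Fin n)}
    (hT : T ∈ triangles G) (hmin : ∀ T' ∈ triangles G, T' ≠ T → (ω T : ℕ) < ω T') :
    fin G K ω = fin (rem G T) K ω := by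
  ext f
  unfold fin
  rw [Finset.mem_filter, Finset.mem_filter, mem_rem]
  by_cases hf : f ∈ T.sym2
  · constructor
    · rintro ⟨-, h⟩
      exact absurd h (dead (ω := fun T => (ω T : ℕ)) hT hmin (ω T).2 hf)
    · rintro ⟨⟨-, h⟩, -⟩
      exact absurd hf h
  · rw [alive_rem (ω := fun T => (ω T : ℕ)) hT hmin K f hf]
    tauto

theorem fin_empty {G : Gr n} {K : ℕ} (ω : Finset (Fin n) → Fin K) (h : triangles G = ∅) :
    fin G K ω = G := by
  unfold fin
  refine Finset.filter_true_of_mem fun f _ => ?_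
  rw [alive_iff]
  intro T hT
  rw [h] at hT
  exact absurd hT (Finset.notMem_empty _)

theorem not_mem_rem (G : Gr n) (T : Finset (Fin n)) : T ∉ triangles (rem G T) := by
  intro h
  have h3 := mem_triangles_iff.1 h
  have hc := card_tE h3.1
  obtain ⟨g, hg⟩ : (tE T).Nonempty := Finset.card_pos.1 (by omega)
  exact (mem_rem.1 (h3.2 hg)).2 (mem_tE.1 hg).1

/-- the event: injective on `A` with values at least `a` -/
def P {I : Type} {K : ℕ} (A : Finset I) (a : ℕ) (ω : I → Fin K) : Prop :=
  (∀ T ∈ A, ∀ T' ∈ A, ω T = ω T' → T = T') ∧ ∀ T ∈ A, a ≤ (ω T : ℕ)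

theorem ind_split {I : Type} [DecidableEq I] {K : ℕ} (A : Finset I) (a : ℕ) (ω : I → Fin K) :
    ind (P A a ω) = ind (P A (a + 1) ω) +
      ∑ T ∈ A, ind ((ω T : ℕ) = a) * ind (P (A.erase T) (a + 1) ω) := by
  by_cases hex : ∃ T ∈ A, (ω T : ℕ) = a
  · obtain ⟨T, hT, hTa⟩ := hex
    have h1 : ¬ P A (a + 1) ω := fun h => by have := h.2 T hT; omega
    rw [ind_neg h1, zero_add, Finset.sum_eq_single T]
    · rw [ind_pos hTa, one_mul]
      congr 1
      apply propext
      constructor
      · intro h
        refine ⟨fun S hS S' hS' => h.1 S (Finset.mem_of_mem_erase hS) S'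
          (Finset.mem_of_mem_erase hS'), fun S hS => ?_⟩
        have h2 := h.2 S (Finset.mem_of_mem_erase hS)
        have h3 : (ω S : ℕ) ≠ a := fun e =>
          (Finset.mem_erase.1 hS).1 (h.1 S (Finset.mem_of_mem_erase hS) T hT
            (Fin.ext (e.trans hTa.symm)))
        omega
      · intro h
        refine ⟨fun S hS S' hS' e => ?_, fun S hS => ?_⟩
        · by_cases e1 : S = T
          · by_cases e2 : S' = T
            · rw [e1, e2]
            · have := h.2 S' (Finset.mem_erase.2 ⟨e2, hS'⟩)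
              rw [← e, e1] at this
              omega
          · by_cases e2 : S' = T
            · have := h.2 S (Finset.mem_erase.2 ⟨e1, hS⟩)
              rw [e, e2] at this
              omega
            · exact h.1 S (Finset.mem_erase.2 ⟨e1, hS⟩) S' (Finset.mem_erase.2 ⟨e2, hS'⟩) e
        · by_cases e1 : S = T
          · rw [e1]; omega
          · have := h.2 S (Finset.mem_erase.2 ⟨e1, hS⟩)
            omega
    · intro S hS hne
      have : ¬ P (A.erase S) (a + 1) ω := fun h => by
        have := h.2 T (Finset.mem_erase.2 ⟨hne.symm, hT⟩)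
        omega
      rw [ind_neg this, mul_zero]
    · intro h; exact absurd hT h
  · have h0 : ∑ T ∈ A, ind ((ω T : ℕ) = a) * ind (P (A.erase T) (a + 1) ω) = 0 := by
      refine Finset.sum_eq_zero fun T hT => ?_
      rw [ind_neg (fun h => hex ⟨T, hT, h⟩), zero_mul]
    rw [h0, add_zero]
    congr 1
    apply propext
    constructor
    · intro h
      refine ⟨h.1, fun S hS => ?_⟩
      have h2 := h.2 S hS
      have h3 : (ω S : ℕ) ≠ a := fun e => hex ⟨S, hS, e⟩
      omega
    · intro h
      exact ⟨h.1, fun S hS => by have := h.2 S hS; omega⟩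

theorem expect_coord_mul {I : Type} [Fintype I] [DecidableEq I] {K : ℕ} (i : I) {j : ℕ}
    (hj : j < K) (g : (I → Fin K) → ℝ) (hg : ∀ x y, (∀ i', i' ≠ i → x i' = y i') → g x = g y) :
    (𝔼 ω : I → Fin K, ind ((ω i : ℕ) = j) * g ω) = (K : ℝ)⁻¹ * 𝔼 ω : I → Fin K, g ω := by
  have : Nonempty (Fin K) := ⟨⟨j, hj⟩⟩
  rw [expect_mul_of_disjoint (fun ω : I → Fin K => ind ((ω i : ℕ) = j)) g {i}, expect_coord i hj]
  · intro x y h
    simp only [h i rfl]
  · intro x y h
    exact hg x y fun i' hi' => h i' hi'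

/-- the probability of `P A (K - d)` for `|A| = m` -/
noncomputable def w (K : ℕ) : ℕ → ℕ → ℝ
  | 0, m => if m = 0 then 1 else 0
  | d + 1, m => w K d m + m * ((K : ℝ)⁻¹ * w K d (m - 1))

theorem sum_val (φ : ℕ → ℝ) {G : Gr n} (hG : NoLoop G) :
    ∑ T ∈ triangles G, val φ (rem G T) = (Q G : ℝ) * val φ G := by
  rcases Nat.eq_zero_or_pos (Q G) with h | h
  · have : triangles G = ∅ := Finset.card_eq_zero.1 h
    rw [this, h]; simp
  · rw [val_step φ hG h, avgT, ← mul_assoc, mul_inv_cancel₀ (by positivity), one_mul]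

theorem main (φ : ℕ → ℝ) (K : ℕ) (hK : 0 < K) (d : ℕ) :
    ∀ a : ℕ, a + d = K → ∀ (A : Finset (Finset (Fin n))) (G : Gr n), NoLoop G →
      triangles G ⊆ A →
      (𝔼 ω : Finset (Fin n) → Fin K, ind (P A a ω) * φ (fin G K ω).card) =
        val φ G * w K d A.card := by
  have : Nonempty (Fin K) := ⟨⟨0, hK⟩⟩
  induction d with
  | zero =>
    intro a ha A G hG hA
    rcases A.eq_empty_or_nonempty with rfl | ⟨T, hT⟩
    · have h0 : triangles G = ∅ := Finset.subset_empty.1 hA
      have hQ : Q G = 0 := by rw [Q, h0]; rfl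
      have : ∀ ω : Finset (Fin n) → Fin K,
          ind (P (∅ : Finset (Finset (Fin n))) a ω) * φ (fin G K ω).card = φ G.card := by
        intro ω
        rw [fin_empty ω h0, ind_pos ⟨by simp, by simp⟩, one_mul]
      simp only [this]
      rw [Finset.expect_const Finset.univ_nonempty, val_of_Q_zero φ hQ]
      simp [w]
    · have : ∀ ω : Finset (Fin n) → Fin K, ind (P A a ω) * φ (fin G K ω).card = 0 := by
        intro ω
        rw [ind_neg, zero_mul]
        intro h
        have h1 := h.2 T hT
        have h2 := (ω T).2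
        omega
      simp only [this]
      have hc : A.card ≠ 0 := Finset.card_ne_zero.2 ⟨T, hT⟩
      simp [w, hc]
  | succ d ih =>
    intro a ha A G hG hA
    have e1 : ∀ ω : Finset (Fin n) → Fin K, ind (P A a ω) * φ (fin G K ω).card =
        ind (P A (a + 1) ω) * φ (fin G K ω).card + ∑ T ∈ A, ind ((ω T : ℕ) = a) *
          (ind (P (A.erase T) (a + 1) ω) *
            φ (fin (if T ∈ triangles G then rem G T else G) K ω).card) := by
      intro ω
      rw [ind_split A a ω, add_mul, Finset.sum_mul]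
      congr 1
      refine Finset.sum_congr rfl fun T _ => ?_
      rw [mul_assoc]
      by_cases hT : T ∈ triangles G
      · rw [if_pos hT]
        by_cases h1 : (ω T : ℕ) = a
        · by_cases h2 : P (A.erase T) (a + 1) ω
          · rw [fin_rem hT]
            intro T' hT' hne
            have := h2.2 T' (Finset.mem_erase.2 ⟨hne, hA hT'⟩)
            omega
          · rw [ind_neg h2]; simp
        · rw [ind_neg h1]; simp
      · rw [if_neg hT]
    simp only [e1]
    rw [Finset.expect_add_distrib, Finset.expect_sum_comm, ih (a + 1) (by omega) A G hG hA]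
    have e2 : ∀ T ∈ A, (𝔼 ω : Finset (Fin n) → Fin K, ind ((ω T : ℕ) = a) *
          (ind (P (A.erase T) (a + 1) ω) *
            φ (fin (if T ∈ triangles G then rem G T else G) K ω).card)) =
        val φ (if T ∈ triangles G then rem G T else G) * ((K : ℝ)⁻¹ * w K d (A.card - 1)) := by
      intro T hT
      have hsub : triangles (if T ∈ triangles G then rem G T else G) ⊆ A.erase T := by
        intro T' hT'
        split_ifs at hT' with h
        · refine Finset.mem_erase.2 ⟨?_, hA (triangles_mono Finset.sdiff_subset hT')⟩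
          rintro rfl
          exact not_mem_rem G _ hT'
        · refine Finset.mem_erase.2 ⟨?_, hA hT'⟩
          rintro rfl
          exact h hT'
      have hN : NoLoop (if T ∈ triangles G then rem G T else G) := by
        split_ifs
        · exact hG.rem T
        · exact hG
      rw [expect_coord_mul T (by omega), ih (a + 1) (by omega) _ _ hN hsub,
        Finset.card_erase_of_mem hT]
      · ring
      · intro x y h
        have h' : ∀ T' ∈ A.erase T, x T' = y T' := fun T' hT' => h T' (Finset.mem_erase.1 hT').1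
        rw [fin_congr _ K x y fun T' hT' => h' T' (hsub hT')]
        congr 2
        apply propext
        unfold P
        refine and_congr ?_ ?_
        · refine forall_congr' fun S => forall_congr' fun hS => forall_congr' fun S' =>
            forall_congr' fun hS' => ?_
          rw [h' S hS, h' S' hS']
        · refine forall_congr' fun S => forall_congr' fun hS => ?_
          rw [h' S hS]
    rw [Finset.sum_congr rfl e2, ← Finset.sum_mul]
    have e3 : ∑ T ∈ A, val φ (if T ∈ triangles G then rem G T else G) = A.card * val φ G := by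
      rw [← Finset.sum_sdiff hA]
      have s1 : ∑ T ∈ A \ triangles G, val φ (if T ∈ triangles G then rem G T else G) =
          ((A.card : ℝ) - Q G) * val φ G := by
        rw [Finset.sum_congr rfl (g := fun _ => val φ G)
          (fun T hT => by rw [if_neg (Finset.mem_sdiff.1 hT).2]), Finset.sum_const,
          Finset.card_sdiff_of_subset hA, nsmul_eq_mul, Nat.cast_sub (Finset.card_le_card hA), Q]
      have s2 : ∑ T ∈ triangles G, val φ (if T ∈ triangles G then rem G T else G) =
          (Q G : ℝ) * val φ G := by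
        rw [← sum_val φ hG]
        exact Finset.sum_congr rfl fun T hT => by rw [if_pos hT]
      rw [s1, s2]; ring
    rw [e3, w]
    ring

theorem expect_eq {I : Type} [Fintype I] [DecidableEq I] {K : ℕ} (hK : 0 < K) {i i' : I}
    (h : i ≠ i') : (𝔼 ω : I → Fin K, ind (ω i = ω i')) = (K : ℝ)⁻¹ := by
  have e1 : ∀ ω : I → Fin K, ind (ω i = ω i') =
      ∑ j ∈ range K, ind ((ω i : ℕ) = j) * ind ((ω i' : ℕ) = j) := by
    intro ω
    rw [Finset.sum_eq_single (ω i : ℕ)]
    · rw [ind_pos (rfl : (ω i : ℕ) = ω i), one_mul]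
      congr 1
      apply propext
      rw [Fin.ext_iff]
      exact eq_comm
    · intro j _ hj
      rw [ind_neg (fun e => hj e.symm), zero_mul]
    · intro h
      exact absurd (Finset.mem_range.2 (ω i).2) h
  simp only [e1]
  rw [Finset.expect_sum_comm]
  have e2 : ∀ j ∈ range K, (𝔼 ω : I → Fin K, ind ((ω i : ℕ) = j) * ind ((ω i' : ℕ) = j)) =
      (K : ℝ)⁻¹ * (K : ℝ)⁻¹ := by
    intro j hj
    rw [expect_coord_mul i (Finset.mem_range.1 hj), expect_coord i' (Finset.mem_range.1 hj)]
    intro x y hxy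
    rw [hxy i' h.symm]
  rw [Finset.sum_congr rfl e2, Finset.sum_const, Finset.card_range, nsmul_eq_mul,
    ← mul_assoc, mul_inv_cancel₀ (by positivity), one_mul]

theorem one_sub_le {I : Type} [Fintype I] [DecidableEq I] {K : ℕ} (hK : 0 < K) (A : Finset I) :
    1 - (𝔼 ω : I → Fin K, ind (P A 0 ω)) ≤ (A.card : ℝ) ^ 2 / K := by
  have : Nonempty (Fin K) := ⟨⟨0, hK⟩⟩
  have e1 : ∀ ω : I → Fin K, (1 : ℝ) ≤ ind (P A 0 ω) +
      ∑ T ∈ A, ∑ T' ∈ A.erase T, ind (ω T = ω T') := by
    intro ω
    have hn : ∀ T, 0 ≤ ∑ T' ∈ A.erase T, ind (ω T = ω T') :=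
      fun T => Finset.sum_nonneg fun _ _ => ind_nonneg _
    by_cases h : P A 0 ω
    · rw [ind_pos h]
      have := Finset.sum_nonneg (s := A) fun T _ => hn T
      linarith
    · rw [ind_neg h, zero_add]
      have : ¬ ∀ T ∈ A, ∀ T' ∈ A, ω T = ω T' → T = T' :=
        fun h' => h ⟨h', fun _ _ => Nat.zero_le _⟩
      push Not at this
      obtain ⟨T, hT, T', hT', e, hne⟩ := this
      refine le_trans ?_ (Finset.single_le_sum (fun S _ => hn S) hT)
      refine le_trans ?_ (Finset.single_le_sum (f := fun T' => ind (ω T = ω T'))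
        (fun S _ => ind_nonneg _) (Finset.mem_erase.2 ⟨hne.symm, hT'⟩))
      rw [ind_pos e]
  have e2 : (𝔼 _ω : I → Fin K, (1 : ℝ)) ≤ 𝔼 ω : I → Fin K, (ind (P A 0 ω) +
      ∑ T ∈ A, ∑ T' ∈ A.erase T, ind (ω T = ω T')) :=
    Finset.expect_le_expect fun ω _ => e1 ω
  rw [Finset.expect_const Finset.univ_nonempty, Finset.expect_add_distrib,
    Finset.expect_sum_comm] at e2
  have e3 : ∑ T ∈ A, (𝔼 ω : I → Fin K, ∑ T' ∈ A.erase T, ind (ω T = ω T')) ≤
      ∑ _T ∈ A, (A.card : ℝ) * (K : ℝ)⁻¹ := by
    refine Finset.sum_le_sum fun T _ => ?_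
    rw [Finset.expect_sum_comm, Finset.sum_congr rfl (g := fun _ => (K : ℝ)⁻¹)
      (fun T' hT' => expect_eq hK (Finset.mem_erase.1 hT').1.symm), Finset.sum_const,
      nsmul_eq_mul]
    gcongr
    exact Finset.erase_subset _ _
  rw [Finset.sum_const, nsmul_eq_mul] at e3
  have : (A.card : ℝ) ^ 2 / K = A.card * (A.card * (K : ℝ)⁻¹) := by ring
  linarith

end GreedyX

/-- The process is the greedy process for independent uniform labels (up to ties). -/
theorem val_le_greedy (φ : ℕ → ℝ) {G : Gr n} (hG : NoLoop G) (M : ℝ) (h0 : ∀ k, 0 ≤ φ k)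
    (hM : ∀ k ≤ G.card, φ k ≤ M) (K : ℕ) (hK : 0 < K) :
    val φ G ≤ (𝔼 ω : Finset (Fin n) → Fin K,
        φ (G.filter (fun f => alive G (fun T => (ω T : ℕ)) K f)).card) +
      M * (Q G : ℝ) ^ 2 / K := by
  have h1 := GreedyX.main φ K hK K 0 (by simp) (triangles G) G hG subset_rfl
  have hE : triangles (∅ : Gr n) = ∅ := by
    refine Finset.eq_empty_of_forall_notMem fun T hT => ?_
    have h3 := mem_triangles_iff.1 hT
    have hc := card_tE h3.1
    rw [Finset.subset_empty.1 h3.2] at hc
    simp at hc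
  have h2 := GreedyX.main (fun _ => (1 : ℝ)) K hK K 0 (by simp) (triangles G) (∅ : Gr n)
    (fun e he => absurd he (Finset.notMem_empty _)) (by rw [hE]; exact Finset.empty_subset _)
  rw [val_of_Q_zero _ (by rw [Q, hE]; rfl), one_mul] at h2
  simp only [mul_one] at h2
  have h3 := GreedyX.one_sub_le hK (triangles G)
  rw [h2] at h3
  have h4 : (𝔼 ω : Finset (Fin n) → Fin K,
      ind (GreedyX.P (triangles G) 0 ω) * φ (GreedyX.fin G K ω).card) ≤
      𝔼 ω : Finset (Fin n) → Fin K, φ (GreedyX.fin G K ω).card :=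
    Finset.expect_le_expect fun ω _ => mul_le_of_le_one_left (h0 _) (ind_le_one _)
  rw [h1] at h4
  have h5 := val_le φ hM
  have h6 := val_nonneg φ G h0
  have h7 : 0 ≤ (Q G : ℝ) ^ 2 / K := by positivity
  have h8 : val φ G * (1 - GreedyX.w K K (triangles G).card) ≤ M * ((Q G : ℝ) ^ 2 / K) :=
    calc val φ G * (1 - GreedyX.w K K (triangles G).card) ≤ val φ G * ((Q G : ℝ) ^ 2 / K) :=
          mul_le_mul_of_nonneg_left h3 h6
      _ ≤ M * ((Q G : ℝ) ^ 2 / K) := mul_le_mul_of_nonneg_right h5 h7
  rw [mul_div_assoc]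
  unfold GreedyX.fin at h4
  linarith

end Crest.Agent.R30
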