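import Crest.Agent.R30.Defs

set_option autoImplicit false

open Finset
open scoped BigOperators Classical
open Crest.CombinatoricsR.TriangleRemoval

namespace Crest.Agent.R30

namespace MomentsX

theorem sum_pc1 {ι : Type} [DecidableEq ι] (X : Finset ι) (g : Finset ι → ℝ) :
    ∑ R ∈ X.powersetCard 1, g R = ∑ f ∈ X, g {f} := by
  rw [Finset.powersetCard_one, Finset.sum_map]
  rfl

theorem sq_sum {ι : Type} [DecidableEq ι] (v : ι → ℝ) (X : Finset ι) :
    (∑ f ∈ X, v f) ^ 2 = ∑ f ∈ X, v f ^ 2 + 2 * ∑ R ∈ X.powersetCard 2, ∏ f ∈ R, v f := by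
  induction X using Finset.induction_on with
  | empty => simp [Finset.powersetCard_eq_empty.2]
  | insert a s ha ih =>
    rw [Finset.sum_insert ha, Finset.sum_insert ha, Finset.powersetCard_succ_insert ha,
      Finset.sum_union, Finset.sum_image]
    · have h1 : ∑ R ∈ s.powersetCard 1, ∏ f ∈ insert a R, v f = v a * ∑ f ∈ s, v f := by
        rw [sum_pc1, Finset.mul_sum]
        refine Finset.sum_congr rfl fun f hf => ?_
        have : a ∉ ({f} : Finset ι) := by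
          simp only [Finset.mem_singleton]; rintro rfl; exact ha hf
        rw [Finset.prod_insert this, Finset.prod_singleton]
      rw [h1]
      have : (1 : ℕ).succ = 2 := rfl
      simp only [this]
      nlinarith [ih]
    · intro R hR R' hR' h
      have h1 : a ∉ R := fun h' => ha ((Finset.mem_powersetCard.1 hR).1 h')
      have h2 : a ∉ R' := fun h' => ha ((Finset.mem_powersetCard.1 hR').1 h')
      rw [← Finset.erase_insert h1, ← Finset.erase_insert h2, h]
    · rw [Finset.disjoint_left]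
      intro R hR hR'
      obtain ⟨R', _, rfl⟩ := Finset.mem_image.1 hR'
      exact ha ((Finset.mem_powersetCard.1 hR).1 (Finset.mem_insert_self _ _))

theorem prod_ind {ι : Type} (R : Finset ι) (P : ι → Prop) :
    ∏ f ∈ R, ind (P f) = ind (∀ f ∈ R, P f) := by
  by_cases h : ∀ f ∈ R, P f
  · rw [ind_pos h]; exact Finset.prod_eq_one fun f hf => ind_pos (h f hf)
  · rw [ind_neg h]
    push Not at h
    obtain ⟨f, hf, hP⟩ := h
    exact Finset.prod_eq_zero hf (ind_neg hP)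

theorem wt_nonneg {H : ℝ} (hH : 0 ≤ H) (d : ℕ) : 0 ≤ wt H d := by
  unfold wt; positivity

theorem s1 {D H : ℝ} (hD : 0 ≤ D) (hH : 0 ≤ H) (B : ℕ) :
    ∑ a ∈ range B, D ^ a * wt H a ≤ (1 + D) * Real.exp (D * H) := by
  have he : 1 ≤ Real.exp (D * H) := Real.one_le_exp (by positivity)
  cases B with
  | zero => simp; positivity
  | succ B =>
    rw [Finset.sum_range_succ']
    have h1 : ∑ a ∈ range B, D ^ (a + 1) * wt H (a + 1) =
        D * ∑ a ∈ range B, (D * H) ^ a / a.factorial := by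
      rw [Finset.mul_sum]
      refine Finset.sum_congr rfl fun a _ => ?_
      simp only [wt, Nat.add_sub_cancel, mul_pow]; ring
    have h2 := Real.sum_le_exp_of_nonneg (x := D * H) (by positivity) B
    rw [h1]
    have h3 : D ^ 0 * wt H 0 = 1 := by simp [wt]
    rw [h3]
    nlinarith [mul_le_mul_of_nonneg_left h2 hD]

theorem s2 {D H : ℝ} (hD : 0 ≤ D) (hH : 0 ≤ H) (B : ℕ) :
    ∑ a ∈ range B, D ^ a * wt H (a - 1) ≤ (1 + D) ^ 2 * Real.exp (D * H) := by
  have he : 1 ≤ Real.exp (D * H) := Real.one_le_exp (by positivity)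
  cases B with
  | zero => simp; positivity
  | succ B =>
    rw [Finset.sum_range_succ']
    have h1 : ∑ a ∈ range B, D ^ (a + 1) * wt H (a + 1 - 1) =
        D * ∑ a ∈ range B, D ^ a * wt H a := by
      rw [Finset.mul_sum]
      refine Finset.sum_congr rfl fun a _ => ?_
      simp only [Nat.add_sub_cancel]; ring
    have h2 := s1 hD hH B
    rw [h1]
    have h3 : D ^ 0 * wt H (0 - 1) = 1 := by simp [wt]
    rw [h3]
    nlinarith [mul_le_mul_of_nonneg_left h2 hD, mul_nonneg hD (le_trans zero_le_one he)]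

theorem s3 {D H : ℝ} (hD : 0 ≤ D) (hH : 0 ≤ H) (B : ℕ) :
    ∑ a ∈ range B, ∑ b ∈ range B, ∑ i ∈ range B,
      D ^ (a + b + i) * (wt H a * wt H (b - 1) * wt H i) ≤
        (1 + D) ^ 4 * Real.exp (3 * D * H) := by
  have h : ∑ a ∈ range B, ∑ b ∈ range B, ∑ i ∈ range B,
      D ^ (a + b + i) * (wt H a * wt H (b - 1) * wt H i) =
      (∑ a ∈ range B, D ^ a * wt H a) * (∑ a ∈ range B, D ^ a * wt H (a - 1)) *
        (∑ a ∈ range B, D ^ a * wt H a) := by
    rw [Finset.sum_mul_sum, Finset.sum_mul]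
    refine Finset.sum_congr rfl fun a _ => ?_
    rw [Finset.sum_mul]
    refine Finset.sum_congr rfl fun b _ => ?_
    rw [Finset.mul_sum]
    refine Finset.sum_congr rfl fun i _ => ?_
    ring
  rw [h]
  have a1 := s1 hD hH B
  have a2 := s2 hD hH B
  have p1 : 0 ≤ ∑ a ∈ range B, D ^ a * wt H a :=
    Finset.sum_nonneg fun a _ => mul_nonneg (pow_nonneg hD _) (wt_nonneg hH _)
  have p2 : 0 ≤ ∑ a ∈ range B, D ^ a * wt H (a - 1) :=
    Finset.sum_nonneg fun a _ => mul_nonneg (pow_nonneg hD _) (wt_nonneg hH _)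
  have e : (1 + D) ^ 4 * Real.exp (3 * D * H) =
      (1 + D) * Real.exp (D * H) * ((1 + D) ^ 2 * Real.exp (D * H)) *
        ((1 + D) * Real.exp (D * H)) := by
    rw [show 3 * D * H = D * H + D * H + D * H by ring, Real.exp_add, Real.exp_add]; ring
  rw [e]
  exact mul_le_mul (mul_le_mul a1 a2 p2 (p1.trans a1)) a1 p1 (by positivity)

end MomentsX

open MomentsX in
/-- first and second moment -/
theorem moments {Ω ι : Type} [Fintype Ω] [Nonempty Ω] [DecidableEq ι] (X : Finset ι)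
    (al : Ω → ι → Prop) (u : ι → ℝ) (cl : Finset ι → ℝ) (hu : ∀ f ∈ X, 0 ≤ u f)
    (h : ∀ j ∈ ({1, 2} : Finset ℕ), ∀ R ∈ X.powersetCard j,
      |(𝔼 ω, ind (∀ f ∈ R, al ω f)) - ∏ f ∈ R, u f| ≤ cl R)
    (N c : ℝ) (hN : 0 < N) (hc : 0 ≤ c) :
    (𝔼 ω, (((X.filter (al ω)).card : ℝ) / N - c) ^ 2) ≤
      ((∑ f ∈ X, u f) / N - c) ^ 2 + X.card / N ^ 2 +
        2 * (∑ R ∈ X.powersetCard 2, cl R) / N ^ 2 +
        2 * c * (∑ R ∈ X.powersetCard 1, cl R) / N := by
  have hF : ∀ ω, ((X.filter (al ω)).card : ℝ) = ∑ f ∈ X, ind (al ω f) := by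
    intro ω
    rw [Finset.card_filter]
    push_cast
    refine Finset.sum_congr rfl fun f _ => ?_
    unfold ind
    split_ifs <;> simp
  have hpt : ∀ ω, (((X.filter (al ω)).card : ℝ) / N - c) ^ 2 ≤
      (X.card + 2 * ∑ R ∈ X.powersetCard 2, ind (∀ f ∈ R, al ω f)) / N ^ 2 -
        2 * c / N * (∑ R ∈ X.powersetCard 1, ind (∀ f ∈ R, al ω f)) + c ^ 2 := by
    intro ω
    have h1 := sq_sum (fun f => ind (al ω f)) X
    simp only [prod_ind] at h1
    have h2 : ∑ f ∈ X, ind (al ω f) ^ 2 ≤ X.card := by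
      have : ∑ f ∈ X, ind (al ω f) ^ 2 ≤ ∑ f ∈ X, (1 : ℝ) :=
        Finset.sum_le_sum fun f _ => by
          have := ind_nonneg (al ω f); have := ind_le_one (al ω f); nlinarith
      simpa using this
    have h3 : ∑ R ∈ X.powersetCard 1, ind (∀ f ∈ R, al ω f) = ∑ f ∈ X, ind (al ω f) := by
      rw [sum_pc1]; simp
    rw [hF, h3]
    set F := ∑ f ∈ X, ind (al ω f)
    have h4 : (F / N - c) ^ 2 = F ^ 2 / N ^ 2 - 2 * c / N * F + c ^ 2 := by
      field_simp; ring
    rw [h4]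
    have h5 : F ^ 2 / N ^ 2 ≤
        (X.card + 2 * ∑ R ∈ X.powersetCard 2, ind (∀ f ∈ R, al ω f)) / N ^ 2 :=
      div_le_div_of_nonneg_right (by linarith) (by positivity)
    linarith
  refine le_trans (Finset.expect_le_expect fun ω _ => hpt ω) ?_
  have hne : (Finset.univ : Finset Ω).Nonempty := Finset.univ_nonempty
  rw [Finset.expect_add_distrib, Finset.expect_sub_distrib, Finset.expect_const hne,
    ← Finset.mul_expect, ← Finset.expect_div, Finset.expect_add_distrib, Finset.expect_const hne,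
    ← Finset.mul_expect, Finset.expect_sum_comm, Finset.expect_sum_comm]
  have e1 : ∑ R ∈ X.powersetCard 2, (𝔼 ω, ind (∀ f ∈ R, al ω f)) ≤
      ∑ R ∈ X.powersetCard 2, ∏ f ∈ R, u f + ∑ R ∈ X.powersetCard 2, cl R := by
    rw [← Finset.sum_add_distrib]
    exact Finset.sum_le_sum fun R hR => by
      have := (abs_le.1 (h 2 (by simp) R hR)).2; linarith
  have e2 : ∑ f ∈ X, u f - ∑ R ∈ X.powersetCard 1, cl R ≤
      ∑ R ∈ X.powersetCard 1, (𝔼 ω, ind (∀ f ∈ R, al ω f)) := by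
    have : ∑ f ∈ X, u f = ∑ R ∈ X.powersetCard 1, ∏ f ∈ R, u f := by
      rw [sum_pc1]; simp
    rw [this, ← Finset.sum_sub_distrib]
    exact Finset.sum_le_sum fun R hR => by
      have := (abs_le.1 (h 1 (by simp) R hR)).1; linarith
  have e3 := sq_sum u X
  have e4 : 0 ≤ ∑ f ∈ X, u f ^ 2 := Finset.sum_nonneg fun f _ => sq_nonneg _
  set U := ∑ f ∈ X, u f
  set C1 := ∑ R ∈ X.powersetCard 1, cl R
  set C2 := ∑ R ∈ X.powersetCard 2, cl R
  set E1 := ∑ R ∈ X.powersetCard 1, (𝔼 ω, ind (∀ f ∈ R, al ω f))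
  set E2 := ∑ R ∈ X.powersetCard 2, (𝔼 ω, ind (∀ f ∈ R, al ω f))
  have f1 : ((X.card : ℝ) + 2 * E2) / N ^ 2 ≤ (X.card + U ^ 2 + 2 * C2) / N ^ 2 :=
    div_le_div_of_nonneg_right (by linarith) (by positivity)
  have f2 : 2 * c / N * (U - C1) ≤ 2 * c / N * E1 :=
    mul_le_mul_of_nonneg_left e2 (by positivity)
  have f3 : (U / N - c) ^ 2 + X.card / N ^ 2 + 2 * C2 / N ^ 2 + 2 * c * C1 / N =
      (X.card + U ^ 2 + 2 * C2) / N ^ 2 - 2 * c / N * (U - C1) + c ^ 2 := by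
    field_simp; ring
  rw [f3]
  linarith

open MomentsX in
/-- summing the chain weights -/
theorem wsum_le (Nn : ℕ → ℕ → ℕ → ℝ) (Ξ m D H : ℝ) (L B : ℕ) (hΞ : 0 ≤ Ξ) (hm : 0 ≤ m)
    (hD : 0 ≤ D) (hH : 0 ≤ H)
    (h1 : ∀ a b i, a + b + i ≤ L → Nn a b i ≤ Ξ * D ^ (a + b + i))
    (h2 : ∀ a b i, Nn a b i ≤ m * D ^ (a + b + i + 1)) :
    ∑ a ∈ range B, ∑ b ∈ range B, ∑ i ∈ range B,
        Nn a b i * (wt H a * wt H (b - 1) * wt H i) ≤ CC Ξ m D H L := by
  have hpt : ∀ a b i, Nn a b i ≤ Ξ * D ^ (a + b + i) +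
      m * D * (2 ^ L)⁻¹ * (2 * D) ^ (a + b + i) := by
    intro a b i
    have p1 : 0 ≤ Ξ * D ^ (a + b + i) := by positivity
    have p2 : 0 ≤ m * D * (2 ^ L)⁻¹ * (2 * D) ^ (a + b + i) := by positivity
    by_cases hL : a + b + i ≤ L
    · have := h1 a b i hL; linarith
    · have h3 := h2 a b i
      have h4 : (2 : ℝ) ^ L ≤ 2 ^ (a + b + i) := pow_le_pow_right₀ (by norm_num) (by omega)
      have h5 : (1 : ℝ) ≤ (2 ^ L)⁻¹ * 2 ^ (a + b + i) := by
        rw [inv_mul_eq_div, le_div_iff₀ (by positivity)]; linarith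
      have h6 : m * D * (2 ^ L)⁻¹ * (2 * D) ^ (a + b + i) =
          m * D ^ (a + b + i + 1) * ((2 ^ L)⁻¹ * 2 ^ (a + b + i)) := by
        rw [mul_pow]; ring
      have h7 : 0 ≤ m * D ^ (a + b + i + 1) := by positivity
      rw [h6]
      nlinarith
  have hw : ∀ a b i, 0 ≤ wt H a * wt H (b - 1) * wt H i := fun a b i =>
    mul_nonneg (mul_nonneg (wt_nonneg hH _) (wt_nonneg hH _)) (wt_nonneg hH _)
  have hle : ∑ a ∈ range B, ∑ b ∈ range B, ∑ i ∈ range B,
        Nn a b i * (wt H a * wt H (b - 1) * wt H i) ≤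
      Ξ * (∑ a ∈ range B, ∑ b ∈ range B, ∑ i ∈ range B,
        D ^ (a + b + i) * (wt H a * wt H (b - 1) * wt H i)) +
      m * D * (2 ^ L)⁻¹ * (∑ a ∈ range B, ∑ b ∈ range B, ∑ i ∈ range B,
        (2 * D) ^ (a + b + i) * (wt H a * wt H (b - 1) * wt H i)) := by
    simp only [Finset.mul_sum, ← Finset.sum_add_distrib]
    refine Finset.sum_le_sum fun a _ => Finset.sum_le_sum fun b _ =>
      Finset.sum_le_sum fun i _ => ?_
    have := mul_le_mul_of_nonneg_right (hpt a b i) (hw a b i)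
    linarith
  have a1 := s3 hD hH B
  have a2 := s3 (D := 2 * D) (by positivity) hH B
  rw [show 3 * (2 * D) * H = 6 * D * H by ring] at a2
  unfold CC
  have b1 := mul_le_mul_of_nonneg_left a1 hΞ
  have b2 := mul_le_mul_of_nonneg_left a2 (show 0 ≤ m * D * (2 ^ L)⁻¹ by positivity)
  linarith

end Crest.Agent.R30
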