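import Crest.Agent.R30.UODE
import Crest.Agent.R30.Greedy
import Crest.Agent.R30.Couple
import Crest.Agent.R30.Moments
import Crest.Agent.R30.Coll
import Crest.Agent.R30.BadCount

set_option autoImplicit false

open Finset
open scoped BigOperators Classical
open Crest.CombinatoricsR.TriangleRemoval

namespace Crest.Agent.R30

namespace FinalStageX

variable {n : ℕ}

/-- the collision bound for a root set -/
noncomputable def cl (G : Gr n) (K : ℕ) (H : ℝ) (R : Gr n) : ℝ :=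
  ∑ a ∈ range (K + 2), ∑ b ∈ range (K + 2), ∑ i ∈ range (K + 2),
    ((Bad G R a b i).card : ℝ) * (wt H a * wt H (b - 1) * wt H i)

theorem sum_exp {μ : ℝ} (hμ : 0 < μ) (K j : ℕ) :
    (K : ℝ)⁻¹ * ∑ i ∈ range j, 2 * Real.exp (-(2 * tau μ K i)) = 2 * tau μ K j / μ := by
  rw [tau_eq_sum μ K j, Finset.mul_sum, Finset.mul_sum, Finset.sum_div]
  refine Finset.sum_congr rfl fun i _ => ?_
  field_simp

theorem coup {G R : Gr n} (hG : NoLoop G) (hR : R ⊆ G) (hR2 : R.card ≤ 2) {K : ℕ} (hK : 0 < K)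
    {μ ρ' : ℝ} (hμ : 0 < μ) (hρ' : ρ' ≤ 1 / 10) (hτ : 2 * tau μ K K / μ ≤ 1 / 2)
    (hu : ∀ k ≤ K, ∀ f ∈ G, ∀ T0 : Finset (Fin n),
      Real.exp (-tau μ K k - 2 * ρ') ≤ uu G K k f T0 ∧ uu G K k f T0 ≤ Real.exp (-tau μ K k + 2 * ρ')) :
    |(𝔼 ω : Finset (Fin n) → Fin K, ind (∀ f ∈ R, alive G (fun T => (ω T : ℕ)) K f))
      - ∏ f ∈ R, uu G K K f ∅| ≤ cl G K (4 * tau μ K K / μ) R := by
  have : Nonempty (Fin K) := ⟨⟨0, hK⟩⟩
  have h1 := couple (I := Nd (St n) K) (J := Finset (Fin n)) (Ω := Fin K) (fun i => prj i.1)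
    (Rset (kd G R)) (fun ω => tb (kd G R) (lab ω) K []) (fun ω ω' h => tree_stop _ K ω ω' h)
  rw [tree_prod (kd G R) hK K [] le_rfl (by simp), tβ_eq_uu] at h1
  simp only [tb_pull] at h1
  have hB : ∀ l, Valid (kd G R) l → l ≠ [] → ∀ j ≤ K,
      tβ (kd G R) K j l ≤ 2 * Real.exp (-(2 * tau μ K j)) := by
    intro l hl hne j hj
    obtain ⟨f1, -, f3⟩ := fr_valid hR hR2 hG hl
    rw [tβ_eq_uu]
    have e1 : ∏ f ∈ fr R l, uu G K j f (prj l) ≤ ∏ _f ∈ fr R l, Real.exp (-tau μ K j + 2 * ρ') :=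
      Finset.prod_le_prod (fun f hf => (Real.exp_pos _).le.trans (hu j hj f (f1 hf) _).1)
        fun f hf => (hu j hj f (f1 hf) _).2
    rw [Finset.prod_const, f3 hne, ← Real.exp_nat_mul] at e1
    refine e1.trans ?_
    have e2 : (2 : ℝ) * Real.exp (-(2 * tau μ K j)) = Real.exp (Real.log 2 + -(2 * tau μ K j)) := by
      rw [Real.exp_add, Real.exp_log (by norm_num)]
    rw [e2]
    refine Real.exp_le_exp.2 ?_
    have := Real.log_two_gt_d9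
    push_cast
    linarith
  have hhalf : ∀ l, Valid (kd G R) l → ∀ c ∈ kd G R l, ∀ j ≤ K,
      (K : ℝ)⁻¹ * ∑ i ∈ range j, tβ (kd G R) K i (c :: l) ≤ 1 / 2 := by
    intro l hl c hc j hj
    have e1 : ∑ i ∈ range j, tβ (kd G R) K i (c :: l)
        ≤ ∑ i ∈ range j, 2 * Real.exp (-(2 * tau μ K i)) :=
      Finset.sum_le_sum fun i hi => hB _ (valid_cons.2 ⟨hl, hc⟩) (List.cons_ne_nil _ _) i
        ((Finset.mem_range.1 hi).le.trans hj)
    refine (mul_le_mul_of_nonneg_left e1 (by positivity)).trans ?_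
    rw [sum_exp hμ]
    refine le_trans ?_ hτ
    have := tau_mono hμ.le K hj
    gcongr
  have h2 := coll_le G R hK (fun j => 2 * Real.exp (-(2 * tau μ K j))) (fun j => by positivity) hB hhalf
  have hH : (K : ℝ)⁻¹ * ∑ j ∈ range K, 2 * (2 * Real.exp (-(2 * tau μ K j))) = 4 * tau μ K K / μ := by
    rw [← Finset.mul_sum, mul_left_comm, sum_exp hμ]; ring
  rw [hH] at h2
  exact h1.trans h2

theorem sum_cl {G : Gr n} (hG : NoLoop G) (K : ℕ) {H D Δ Ξ : ℝ} (L j : ℕ) (hj : j ≤ 2) (hH : 0 ≤ H)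
    (hΞ : 0 ≤ Ξ) (hΔ0 : 0 ≤ Δ) (hΔ : ∀ u v, s(u, v) ∈ G → (cod G u v : ℝ) ≤ Δ) (hD : 2 * Δ ≤ D)
    (h1 : ∀ a b i, a + b + i ≤ L → NB G j a b i ≤ Ξ * D ^ (a + b + i)) :
    ∑ R ∈ G.powersetCard j, cl G K H R ≤ CC Ξ ((G.card : ℝ) ^ j) D H L := by
  have hD0 : 0 ≤ D := by linarith
  refine le_trans (le_of_eq ?_) (wsum_le (NB G j) Ξ ((G.card : ℝ) ^ j) D H L (K + 2) hΞ (by positivity)
    hD0 hH h1 fun a b i => ?_)
  · unfold cl NB
    rw [Finset.sum_comm]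
    refine Finset.sum_congr rfl fun a _ => ?_
    rw [Finset.sum_comm]
    refine Finset.sum_congr rfl fun b _ => ?_
    rw [Finset.sum_comm]
    refine Finset.sum_congr rfl fun i _ => ?_
    rw [Finset.sum_mul]
  · unfold NB
    have e1 : ∑ R ∈ G.powersetCard j, ((Bad G R a b i).card : ℝ)
        ≤ ∑ _R ∈ G.powersetCard j, D ^ (a + b + i + 1) := by
      refine Finset.sum_le_sum fun R hR => ?_
      obtain ⟨hR1, hR2⟩ := Finset.mem_powersetCard.1 hR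
      exact bad_card_le hD0 (fun l hl => (kd_card_le hG hR1 (by omega) hΔ0 hΔ hl).trans hD) a b i
    refine e1.trans ?_
    rw [Finset.sum_const, Finset.card_powersetCard, nsmul_eq_mul]
    refine mul_le_mul_of_nonneg_right ?_ (by positivity)
    exact_mod_cast Nat.choose_le_pow _ _

end FinalStageX

/-- the final stage with explicit parameters -/
theorem final_stage (q : ℕ) (hq : Even q) (hq2 : 2 ≤ q) (γ : ℝ) (hγ : 0 < γ) :
    ∃ δ0 C : ℝ, 0 < δ0 ∧ δ0 ≤ 1 / 2 ∧ 0 < C ∧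
      ∀ (n : ℕ) (G : Gr n) (p ρ δ ρ' : ℝ) (K : ℕ), 0 < p → p ≤ 1 → Reg G p ρ δ → ρ ≤ δ0 →
        δ ≤ δ0 → 0 < K → 0 < mu n p → 0 < ρ' → ρ' ≤ 1 / 10 → ρ ≤ ρ' ^ 2 →
        2 * tau (mu n p) K K / mu n p * (2 * tau (mu n p) K K + 3) ≤ ρ' ^ 2 →
        mu n p / K ≤ ρ' ^ 4 →
        C * (n : ℝ) ^ 2 * (10 * ρ' ^ 2) ^ q * Real.exp (q * γ * tau (mu n p) K K) ≤ ρ' ^ q →
        ∀ (D Ξ1 Ξ2 N c M : ℝ) (L : ℕ), 3 * mu n p ≤ D → 0 ≤ Ξ1 → 0 ≤ Ξ2 →
          (∀ a b i, a + b + i ≤ L → NB G 1 a b i ≤ Ξ1 * D ^ (a + b + i)) →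
          (∀ a b i, a + b + i ≤ L → NB G 2 a b i ≤ Ξ2 * D ^ (a + b + i)) →
          0 < N → 0 ≤ c → (∀ k ≤ G.card, ((k : ℝ) / N - c) ^ 2 ≤ M) →
          ∃ U : ℝ, G.card * Real.exp (-tau (mu n p) K K - 2 * ρ') ≤ U ∧
            U ≤ G.card * Real.exp (-tau (mu n p) K K + 2 * ρ') ∧
            val (fun k => ((k : ℝ) / N - c) ^ 2) G ≤
              (U / N - c) ^ 2 + G.card / N ^ 2 +
                2 * CC Ξ2 ((G.card : ℝ) ^ 2) D (4 * tau (mu n p) K K / mu n p) L / N ^ 2 +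
                2 * c * CC Ξ1 G.card D (4 * tau (mu n p) K K / mu n p) L / N +
                M * (Q G : ℝ) ^ 2 / K := by
  obtain ⟨δ0, C, h1, h2, h3, H⟩ := u_bounds q hq hq2 γ hγ
  refine ⟨δ0, C, h1, h2, h3, ?_⟩
  intro n G p ρ δ ρ' K hp hp1 hreg hρ hδ hK hμ hρ' hρ'1 hρρ hτ hμK hC D Ξ1 Ξ2 N c M L hD hΞ1 hΞ2
    hN1 hN2 hN hc hM
  have hu := H n G p ρ δ ρ' K hp hp1 hreg hρ hδ hK hμ hρ' hρ'1 hρρ hτ hμK hC
  have hG := hreg.noloop
  have hτ0 := tau_nonneg hμ.le K K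
  have hτ' : 2 * tau (mu n p) K K / mu n p ≤ 1 / 2 := by
    have e0 : 0 ≤ 2 * tau (mu n p) K K / mu n p := by positivity
    nlinarith
  have : Nonempty (Fin K) := ⟨⟨0, hK⟩⟩
  refine ⟨∑ f ∈ G, uu G K K f ∅, ?_, ?_, ?_⟩
  · have := Finset.sum_le_sum fun f (hf : f ∈ G) => (hu K le_rfl f hf ∅).1
    rwa [Finset.sum_const, nsmul_eq_mul] at this
  · have := Finset.sum_le_sum fun f (hf : f ∈ G) => (hu K le_rfl f hf ∅).2
    rwa [Finset.sum_const, nsmul_eq_mul] at this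
  have g1 := val_le_greedy (fun k => ((k : ℝ) / N - c) ^ 2) hG M (fun k => sq_nonneg _) hM K hK
  have g2 := moments (Ω := Finset (Fin n) → Fin K) G
    (fun ω f => alive G (fun T => (ω T : ℕ)) K f) (fun f => uu G K K f ∅)
    (FinalStageX.cl G K (4 * tau (mu n p) K K / mu n p))
    (fun f hf => (Real.exp_pos _).le.trans (hu K le_rfl f hf ∅).1)
    (fun j hj R hR => by
      obtain ⟨hR1, hR2⟩ := Finset.mem_powersetCard.1 hR
      have : j ≤ 2 := by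
        simp only [Finset.mem_insert, Finset.mem_singleton] at hj
        omega
      exact FinalStageX.coup hG hR1 (by omega) hK hμ hρ'1 hτ' hu) N c hN hc
  have hΔ : ∀ u v, s(u, v) ∈ G → (cod G u v : ℝ) ≤ 3 / 2 * mu n p := fun u v h =>
    (hreg.cod_le hp h).2.trans (mul_le_mul_of_nonneg_right (by linarith) hμ.le)
  have hH : 0 ≤ 4 * tau (mu n p) K K / mu n p := by positivity
  have g3 := FinalStageX.sum_cl hG K L 1 (by norm_num) hH hΞ1 (by positivity) hΔ (by linarith) hN1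
  have g4 := FinalStageX.sum_cl hG K L 2 le_rfl hH hΞ2 (by positivity) hΔ (by linarith) hN2
  rw [pow_one] at g3
  refine g1.trans (add_le_add_left (g2.trans ?_) _)
  gcongr

end Crest.Agent.R30
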