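import Crest.Agent.R30.Pull

set_option autoImplicit false

open Finset
open scoped BigOperators Classical
open Crest.CombinatoricsR.TriangleRemoval

namespace Crest.Agent.R30

variable {n : ℕ}

namespace FreshCardX

theorem mem_kd {G R : Gr n} {l : List (St n)} {c : St n} :
    c ∈ kd G R l ↔ c.1 ∈ fr R l ∧ c.2 ∈ triangles G ∧ c.1 ∈ c.2.sym2 ∧ c.2 ≠ prj l := by
  simp [kd]

theorem mem_Fs {R : Gr n} {S : Finset (List (St n))} {e : Sym2 (Fin n)} :
    e ∈ Fs R S ↔ ∃ l ∈ S, e ∈ fr R l := by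
  simp [Fs]

theorem mem_Vs {R : Gr n} {S : Finset (List (St n))} {v : Fin n} :
    v ∈ Vs R S ↔ (∃ e ∈ R, v ∈ e) ∨ ∃ l ∈ S, v ∈ prj l := by
  simp [Vs]

theorem vs_of_fs {R : Gr n} {S : Finset (List (St n))} {e : Sym2 (Fin n)} (he : e ∈ Fs R S)
    {v : Fin n} (hv : v ∈ e) : v ∈ Vs R S := by
  obtain ⟨l, hl, he⟩ := mem_Fs.1 he
  rw [mem_Vs]
  cases l with
  | nil => exact Or.inl ⟨e, he, hv⟩
  | cons c l =>
    exact Or.inr ⟨c :: l, hl, Finset.mem_sym2_iff.1 (mem_tE.1 (mem_of_mem_erase he)).1 v hv⟩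

/-- the invariant of fresh sets -/
structure Iv (G R : Gr n) (S : Finset (List (St n))) : Prop where
  par : ∀ c l, c :: l ∈ S → l ∈ S ∧ c ∈ kd G R l
  disj : ∀ l ∈ S, ∀ l' ∈ S, ∀ e, e ∈ fr R l → e ∈ fr R l' → l = l'
  card : (Fs R S).card + 2 = R.card + 2 * S.card
  tri : ∀ T : Finset (Fin n), T.card = 3 → tE T ⊆ Fs R S → ∃ c l, c :: l ∈ S ∧ T = c.2

theorem Iv.sub {G R : Gr n} {S : Finset (List (St n))} (h : Iv G R S) (hR : R ⊆ G) :
    Fs R S ⊆ G := by
  intro e he
  obtain ⟨l, hl, he⟩ := mem_Fs.1 he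
  cases l with
  | nil => exact hR he
  | cons c l =>
    exact (mem_triangles_iff.1 (mem_kd.1 (h.par c l hl).2).2.1).2 (mem_of_mem_erase he)

theorem iv_of_fresh {G R : Gr n} (hG : NoLoop G) (hR : R ⊆ G) (hR2 : R.card ≤ 2)
    {S : Finset (List (St n))} (h : Fresh G R S) : Iv G R S := by
  induction h with
  | base =>
    have e : Fs R {[]} = R := by simp [Fs, fr]
    refine ⟨fun c l h => by simp at h, fun l hl l' hl' _ _ _ => ?_, by simp [e], fun T hT h => ?_⟩
    · rw [mem_singleton.1 hl, mem_singleton.1 hl']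
    · rw [e] at h
      have := card_le_card h
      rw [card_tE hT] at this
      omega
  | step S l c _ hl hc hV ih =>
    obtain ⟨f, T⟩ := c
    obtain ⟨h1, h2, h3, -⟩ := mem_kd.1 hc
    simp only at h1 h2 h3 hV
    have hfF : f ∈ Fs R S := mem_Fs.2 ⟨l, hl, h1⟩
    induction f using Sym2.ind with
    | _ a b =>
    have hfG := ih.sub hR hfF
    obtain ⟨z, hz, rfl⟩ := exists_apex hG hfG h2 h3
    have hab : a ≠ b := by simpa using hG _ hfG
    have haz : a ≠ z := by simpa using hG _ (mem_nb.1 (mem_inter.1 hz).1)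
    have hbz : b ≠ z := by simpa using hG _ (mem_nb.1 (mem_inter.1 hz).2)
    have ha : a ∈ Vs R S := vs_of_fs hfF (by simp)
    have hb : b ∈ Vs R S := vs_of_fs hfF (by simp)
    have hzV : z ∉ Vs R S := fun hz' => hV (by
      intro v hv
      simp only [mem_insert, mem_singleton] at hv
      rcases hv with rfl | rfl | rfl <;> assumption)
    have hnew : ((s(a, b), ({a, b, z} : Finset (Fin n))) : St n) :: l ∉ S := fun hm =>
      hzV (mem_Vs.2 (Or.inr ⟨_, hm, by simp [prj]⟩))
    obtain ⟨e1, e2⟩ := erase_tE hab haz hbz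
    have hfr : fr R (((s(a, b), ({a, b, z} : Finset (Fin n))) : St n) :: l) =
        {s(a, z), s(b, z)} := e1
    have hzfr : ∀ e ∈ ({s(a, z), s(b, z)} : Gr n), z ∈ e := by
      intro e he
      simp only [mem_insert, mem_singleton] at he
      rcases he with rfl | rfl <;> simp
    have hFs : Fs R (insert (((s(a, b), ({a, b, z} : Finset (Fin n))) : St n) :: l) S) =
        {s(a, z), s(b, z)} ∪ Fs R S := by
      rw [Fs, biUnion_insert, hfr]
      rfl
    refine ⟨fun c' l' h => ?_, fun l1 hl1 l2 hl2 e he1 he2 => ?_, ?_, fun T' hT' h => ?_⟩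
    · rcases mem_insert.1 h with h | h
      · obtain ⟨rfl, rfl⟩ := List.cons.inj h
        exact ⟨mem_insert_of_mem hl, hc⟩
      · exact ⟨mem_insert_of_mem (ih.par c' l' h).1, (ih.par c' l' h).2⟩
    · rcases mem_insert.1 hl1 with rfl | hl1 <;> rcases mem_insert.1 hl2 with rfl | hl2
      · rfl
      · exact absurd (vs_of_fs (mem_Fs.2 ⟨l2, hl2, he2⟩) (hzfr e (hfr ▸ he1))) hzV
      · exact absurd (vs_of_fs (mem_Fs.2 ⟨l1, hl1, he1⟩) (hzfr e (hfr ▸ he2))) hzV
      · exact ih.disj l1 hl1 l2 hl2 e he1 he2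
    · rw [hFs, card_union_of_disjoint (disjoint_left.2 fun e he he' =>
        hzV (vs_of_fs he' (hzfr e he))), card_pair e2, card_insert_of_notMem hnew]
      have := ih.card
      omega
    · rw [hFs] at h
      by_cases hzT : z ∈ T'
      · refine ⟨_, _, mem_insert_self _ _, eq_of_subset_of_card_le (fun u hu => ?_) ?_⟩
        · by_cases huz : u = z
          · simp [huz]
          · have hm : s(u, z) ∈ tE T' := mem_tE.2 ⟨by simp [hu, hzT], by simpa using huz⟩
            rcases mem_union.1 (h hm) with h' | h'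
            · simp only [mem_insert, mem_singleton, Sym2.congr_left] at h'
              rcases h' with rfl | rfl <;> simp
            · exact absurd (vs_of_fs h' (by simp)) hzV
        · rw [hT']
          exact card_le_three
      · obtain ⟨c', l', h1', h2'⟩ := ih.tri T' hT' fun e he => by
          rcases mem_union.1 (h he) with h' | h'
          · exact absurd (Finset.mem_sym2_iff.1 (mem_tE.1 he).1 z (hzfr e h')) hzT
          · exact h'
        exact ⟨c', l', mem_insert_of_mem h1', h2'⟩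

theorem card_sufs {σ : Type} [DecidableEq σ] (l : List σ) : (sufs l).card = l.length + 1 := by
  induction l with
  | nil => simp [sufs]
  | cons c l ih =>
    have e : sufs (c :: l) = insert (c :: l) (sufs l) := by simp [sufs]
    rw [e, card_insert_of_notMem, ih, List.length_cons]
    intro h
    have := (mem_sufs.1 h).length_le
    simp at this

end FreshCardX

open FreshCardX in
/-- an overdense structure with `a + b + i` fresh steps has at least one extra edge -/
theorem fplus_card {G R : Gr n} (hG : NoLoop G) (hR : R ⊆ G) (hR2 : R.card ≤ 2) {a b i : ℕ}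
    {t : List (St n) × List (St n) × List (St n) × St n} (ht : t ∈ Bad G R a b i) :
    Fplus R t ⊆ G ∧ R.card + 2 * (a + b + i) + 1 ≤ (Fplus R t).card ∧
      (Fplus R t).card ≤ R.card + 2 * (a + b + i) + 3 := by
  obtain ⟨l0, l1, l2, c⟩ := t
  obtain ⟨hm, h1, h2, hD, hF, hc, hn, -⟩ := mem_filter.1 ht
  simp only at h1 h2 hD hF hc hn
  have h0 : l0 ∈ ext (kd G R) [] a := (mem_product.1 hm).1
  have len0 := length_of_mem_ext h0
  have len1 := length_of_mem_ext h1
  have len2 := length_of_mem_ext h2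
  have hint : sufs l1 ∩ sufs l2 = sufs l0 := by
    ext l
    simp only [mem_inter, mem_sufs]
    exact ⟨fun h => hD l h.1 h.2, fun h =>
      ⟨h.trans (suffix_of_mem_ext h1), h.trans (suffix_of_mem_ext h2)⟩⟩
  have hcard := card_union_add_card_inter (sufs l1) (sufs l2)
  rw [hint, card_sufs, card_sufs, card_sufs] at hcard
  have iv := iv_of_fresh hG hR hR2 hF
  have hFc := iv.card
  obtain ⟨k1, k2, k3, k4⟩ := mem_kd.1 hc
  obtain ⟨t3, tG⟩ := mem_triangles_iff.1 k2
  have hl2 : l2 ∈ sufs l1 ∪ sufs l2 := mem_union_right _ (mem_sufs.2 (List.suffix_refl _))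
  have hnot : ¬ tE c.2 ⊆ Fs R (sufs l1 ∪ sufs l2) := by
    intro hsub
    obtain ⟨c', l', hm', e⟩ := iv.tri c.2 t3 hsub
    obtain ⟨p1, p2⟩ := iv.par c' l' hm'
    by_cases hcc : c.1 = c'.1
    · have e1 : l' = l2 := iv.disj l' p1 l2 hl2 c.1 (hcc ▸ (mem_kd.1 p2).1) k1
      have e2 : c = c' := Prod.ext hcc e
      subst e1 e2
      rcases mem_union.1 hm' with h | h
      · exact hn h
      · have := (mem_sufs.1 h).length_le
        simp at this
    · have hcT : c.1 ∈ fr R (c' :: l') := mem_erase.2 ⟨hcc, mem_tE.2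
        ⟨e ▸ k3, hG _ (iv.sub hR (mem_Fs.2 ⟨l2, hl2, k1⟩))⟩⟩
      have e1 := iv.disj _ hm' l2 hl2 c.1 hcT k1
      exact k4 (by rw [← e1]; exact e)
  show Fs R (sufs l1 ∪ sufs l2) ∪ tE c.2 ⊆ G ∧
    R.card + 2 * (a + b + i) + 1 ≤ (Fs R (sufs l1 ∪ sufs l2) ∪ tE c.2).card ∧
    (Fs R (sufs l1 ∪ sufs l2) ∪ tE c.2).card ≤ R.card + 2 * (a + b + i) + 3
  have hlt : (Fs R (sufs l1 ∪ sufs l2)).card < (Fs R (sufs l1 ∪ sufs l2) ∪ tE c.2).card :=
    card_lt_card ⟨subset_union_left, fun h => hnot (subset_union_right.trans h)⟩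
  have hle := card_union_le (Fs R (sufs l1 ∪ sufs l2)) (tE c.2)
  rw [card_tE t3] at hle
  simp only [List.length_nil] at len0
  exact ⟨union_subset (iv.sub hR) tG, by omega, by omega⟩

end Crest.Agent.R30
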