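import Crest.Agent.R30.Lyap

set_option autoImplicit false

open Finset
open scoped BigOperators Classical
open Crest.CombinatoricsR.TriangleRemoval

namespace Crest.Agent.R30

namespace LinODEX

variable {n : ℕ}

theorem inv_mul_le {c b S : ℝ} (hc : 0 ≤ c) (hb : 0 ≤ b) (h : |S| ≤ b * c) : |c⁻¹ * S| ≤ b := by
  rw [abs_mul, abs_of_nonneg (inv_nonneg.2 hc)]
  rcases hc.eq_or_lt with rfl | hc
  · simpa using hb
  · rw [inv_mul_le_iff₀ hc, mul_comm]; exact h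

theorem sav_le {G : Gr n} {p ρ δ : ℝ} (hp : 0 < p) (hR : Reg G p ρ δ) (hδ : δ ≤ 1 / 2)
    {a : Fin n → Fin n → ℝ} {b : ℝ} (hb : 0 ≤ b) (h : ∀ u v, s(u, v) ∈ G → |a u v| ≤ b)
    (w : Fin n) : |sav G p a w| ≤ 3 / 2 * b := by
  have hnp : (0 : ℝ) ≤ n * p := by positivity
  refine inv_mul_le hnp (by positivity) ((abs_sum_le_sum_abs _ _).trans ?_)
  have h1 : ∑ u ∈ nb G w, |a w u| ≤ ∑ _u ∈ nb G w, b := sum_le_sum fun u hu => h w u (mem_nb.1 hu)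
  rw [sum_const, nsmul_eq_mul] at h1
  have h2 := (abs_le.1 (hR.deg w)).2
  have h3 : ((nb G w).card : ℝ) ≤ 3 / 2 * (n * p) := by nlinarith
  nlinarith

theorem Bop_le {G : Gr n} {p ρ δ : ℝ} (hp : 0 < p) (hR : Reg G p ρ δ) (hρ : ρ ≤ 1 / 2)
    {a : Fin n → Fin n → ℝ} (h : ∀ u v, s(u, v) ∈ G → |a u v| ≤ 1) {u v : Fin n}
    (huv : s(u, v) ∈ G) : |Bop G p a u v| ≤ 3 := by
  have hmu : (0 : ℝ) ≤ mu n p := by unfold mu; positivity
  refine inv_mul_le hmu (by norm_num) ((abs_sum_le_sum_abs _ _).trans ?_)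
  have h1 : ∑ w ∈ nb G u ∩ nb G v, |a u w + a v w| ≤ ∑ _w ∈ nb G u ∩ nb G v, (2 : ℝ) :=
    sum_le_sum fun w hw => by
      have h1 := h u w (mem_nb.1 (mem_inter.1 hw).1)
      have h2 := h v w (mem_nb.1 (mem_inter.1 hw).2)
      have h3 := abs_add_le (a u w) (a v w)
      linarith
  rw [sum_const, nsmul_eq_mul] at h1
  have h2 := (hR.cod_le hp huv).2
  unfold cod at h2
  nlinarith

theorem scalar_step (q : ℕ) (hq : Even q) (hq2 : 2 ≤ q) (θ : ℝ) (hθ : 0 < θ) :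
    ∃ C : ℝ, 0 < C ∧ ∀ a x f0 g : ℝ, 0 ≤ f0 → f0 ≤ 1 → 0 ≤ x → x ≤ f0 ^ 2 → |g| ≤ 6 →
      (a + x * g) ^ q ≤ a ^ q + q * x * (a ^ (q - 1) * g) + x * (θ * a ^ q + C * f0 ^ q) := by
  obtain ⟨C, hC, h⟩ := moment_step q hq hq2 θ hθ
  refine ⟨C * 6 ^ q, by positivity, fun a x f0 g h0 h1 hx hx' hg => ?_⟩
  have hxf : x ≤ f0 := hx'.trans (by nlinarith)
  have hg2 : g ^ 2 ≤ 36 := by
    have := abs_le.1 hg
    nlinarith
  have := h Unit univ 1 a x (6 * f0) (fun _ => x * g) zero_le_one (by simp) hx (by positivity)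
    (fun _ _ => by
      rw [abs_mul, abs_of_nonneg hx]
      nlinarith [abs_nonneg g])
    (by
      simp only [univ_unique, sum_singleton, one_mul]
      have h2 : x * g ^ 2 ≤ f0 ^ 2 * 36 := mul_le_mul hx' hg2 (sq_nonneg _) (sq_nonneg _)
      nlinarith)
  simp only [univ_unique, sum_singleton, one_mul, mul_pow] at this
  linarith

theorem Phi_nonneg {q : ℕ} (hq : Even q) {κ : ℝ} (hκ : 0 ≤ κ) (G : Gr n) {p : ℝ} (hp : 0 < p)
    (a : Fin n → Fin n → ℝ) : 0 ≤ Phi q κ G p a :=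
  add_nonneg (sum_nonneg fun _ _ => hq.pow_nonneg _)
    (mul_nonneg (by positivity) (sum_nonneg fun _ _ => hq.pow_nonneg _))

theorem phi_step (q : ℕ) (hq : Even q) (hq2 : 2 ≤ q) (γ : ℝ) (hγ : 0 < γ) :
    ∃ κ δ0 C : ℝ, 1 ≤ κ ∧ 0 < δ0 ∧ δ0 ≤ 1 / 2 ∧ 0 < C ∧
      ∀ (n : ℕ) (G : Gr n) (p ρ δ : ℝ), 0 < p → p ≤ 1 → Reg G p ρ δ → ρ ≤ δ0 → δ ≤ δ0 →
      ∀ (x : ℝ) (a a' : Fin n → Fin n → ℝ) (f0 : ℝ), 0 ≤ f0 → f0 ≤ 1 → 0 ≤ x → x ≤ f0 ^ 2 →
        (∀ u v, s(u, v) ∈ G → |a u v| ≤ 1) →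
        (∀ u v, s(u, v) ∈ G → |a' u v - a u v + x * Bop G p a u v| ≤ x * f0) →
        Phi q κ G p a' ≤ (1 + q * γ * x) * Phi q κ G p a + x * (C * (n : ℝ) ^ 2 * f0 ^ q) := by
  have hq0 : (0 : ℝ) < q := by exact_mod_cast (by omega : 0 < q)
  obtain ⟨κ, δ0, C, hκ, hδ0, hδ1, hC, hl⟩ := lyap q hq hq2 (γ / 2) (by positivity)
  obtain ⟨C1, hC1, hs⟩ := scalar_step q hq hq2 (q * γ / 2) (by positivity)
  refine ⟨κ, δ0, q * C * (1 + κ * 2 ^ q) + C1 * (1 + κ), hκ, hδ0, hδ1, by positivity,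
    fun n G p ρ δ hp hp1 hR hρ hδ x a a' f0 h0 h1 hx hx' ha ha' => ?_⟩
  obtain ⟨f, hf, he⟩ : ∃ f : Fin n → Fin n → ℝ, (∀ u v, s(u, v) ∈ G → |f u v| ≤ f0) ∧
      ∀ u v, s(u, v) ∈ G → a' u v = a u v + x * (-Bop G p a u v + f u v) := by
    rcases hx.eq_or_lt with rfl | hx0
    · refine ⟨fun _ _ => 0, fun _ _ _ => by simpa using h0, fun u v huv => ?_⟩
      have := ha' u v huv
      simp only [zero_mul, add_zero, abs_nonpos_iff] at this ⊢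
      linarith
    · refine ⟨fun u v => x⁻¹ * (a' u v - a u v + x * Bop G p a u v), fun u v huv =>
        inv_mul_le hx h0 (by rw [mul_comm f0]; exact ha' u v huv), fun u v _ => ?_⟩
      field_simp
      ring
  have hB : ∀ u v, s(u, v) ∈ G → |Bop G p a u v| ≤ 3 := fun u v huv =>
    Bop_le hp hR (hρ.trans hδ1) ha huv
  have hsf := sav_le hp hR (hδ.trans hδ1) h0 hf
  have hsB := sav_le hp hR (hδ.trans hδ1) (by norm_num) hB
  have hsav : ∀ w, sav G p a' w = sav G p a w + x * (-sav G p (Bop G p a) w + sav G p f w) := by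
    intro w
    unfold sav
    rw [sum_congr rfl fun u hu => he w u (mem_nb.1 hu), sum_add_distrib, ← mul_sum,
      sum_add_distrib, sum_neg_distrib]
    ring
  have k1 : ∑ e ∈ arcs G, a' e.1 e.2 ^ q ≤ ∑ e ∈ arcs G, (a e.1 e.2 ^ q +
      q * x * (a e.1 e.2 ^ (q - 1) * (-Bop G p a e.1 e.2 + f e.1 e.2)) +
        x * (q * γ / 2 * a e.1 e.2 ^ q + C1 * f0 ^ q)) := sum_le_sum fun e he' => by
    have huv := mem_arcs.1 he'
    rw [he _ _ huv]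
    refine hs _ _ _ _ h0 h1 hx hx' ?_
    have := abs_le.1 (hB _ _ huv)
    have := abs_le.1 (hf _ _ huv)
    rw [abs_le]; constructor <;> linarith
  have k2 : ∑ w, sav G p a' w ^ q ≤ ∑ w, (sav G p a w ^ q +
      q * x * (sav G p a w ^ (q - 1) * (-sav G p (Bop G p a) w + sav G p f w)) +
        x * (q * γ / 2 * sav G p a w ^ q + C1 * f0 ^ q)) := sum_le_sum fun w _ => by
    rw [hsav w]
    refine hs _ _ _ _ h0 h1 hx hx' ?_
    have := abs_le.1 (hsB w)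
    have := abs_le.1 (hsf w)
    rw [abs_le]; constructor <;> linarith
  have k3 := hl n G p ρ δ hp hR hρ hδ a f (sav G p f)
  have hf0 : 0 ≤ f0 ^ q := pow_nonneg h0 q
  have hN : ((arcs G).card : ℝ) ≤ (n : ℝ) ^ 2 := by exact_mod_cast card_arcs_le G
  have k4 : ∑ e ∈ arcs G, f e.1 e.2 ^ q ≤ (n : ℝ) ^ 2 * f0 ^ q := by
    calc _ ≤ ∑ _e ∈ arcs G, f0 ^ q := sum_le_sum fun e he' => by
          rw [← hq.pow_abs]
          exact pow_le_pow_left₀ (abs_nonneg _) (hf _ _ (mem_arcs.1 he')) q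
      _ ≤ _ := by rw [sum_const, nsmul_eq_mul]; gcongr
  have k5 : ∑ w, sav G p f w ^ q ≤ n * (2 ^ q * f0 ^ q) := by
    calc _ ≤ ∑ _w : Fin n, 2 ^ q * f0 ^ q := sum_le_sum fun w _ => by
          rw [← hq.pow_abs, ← mul_pow]
          exact pow_le_pow_left₀ (abs_nonneg _) ((hsf w).trans (by linarith)) q
      _ = _ := by simp
  have hnp : (0 : ℝ) ≤ n * p := by positivity
  have hnp' : (n : ℝ) * p * n ≤ (n : ℝ) ^ 2 := by
    have : (0 : ℝ) ≤ n := Nat.cast_nonneg n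
    nlinarith [mul_le_mul_of_nonneg_left hp1 (mul_nonneg this this)]
  have hκ0 : 0 ≤ κ := by linarith
  have k6 : κ * (n * p) * ∑ w, sav G p f w ^ q ≤ κ * 2 ^ q * ((n : ℝ) ^ 2 * f0 ^ q) := by
    calc _ ≤ κ * (n * p) * (n * (2 ^ q * f0 ^ q)) := by gcongr
      _ = κ * 2 ^ q * ((n * p * n) * f0 ^ q) := by ring
      _ ≤ _ := by gcongr
  have k2' := mul_le_mul_of_nonneg_left k2 (mul_nonneg hκ0 hnp)
  simp only [sum_add_distrib, ← mul_sum, sum_const, nsmul_eq_mul, card_univ,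
    Fintype.card_fin] at k1 k2'
  have k7 := mul_le_mul_of_nonneg_left k3 (mul_nonneg hq0.le hx)
  have k8 : q * x * (C * (∑ e ∈ arcs G, f e.1 e.2 ^ q + κ * (n * p) * ∑ w, sav G p f w ^ q)) ≤
      q * x * (C * ((n : ℝ) ^ 2 * f0 ^ q + κ * 2 ^ q * ((n : ℝ) ^ 2 * f0 ^ q))) := by gcongr
  have k9 : x * ((arcs G).card * (C1 * f0 ^ q)) ≤ x * ((n : ℝ) ^ 2 * (C1 * f0 ^ q)) := by gcongr
  have k10 : κ * x * (C1 * f0 ^ q) * (n * p * n) ≤ κ * x * (C1 * f0 ^ q) * (n : ℝ) ^ 2 := by gcongr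
  unfold Phi at k7 ⊢
  linarith

end LinODEX

open LinODEX in
/-- deterministic Gronwall bound for the linearised recursion -/
theorem lin_ode (q : ℕ) (hq : Even q) (hq2 : 2 ≤ q) (γ : ℝ) (hγ : 0 < γ) :
    ∃ δ0 C : ℝ, 0 < δ0 ∧ δ0 ≤ 1 / 2 ∧ 0 < C ∧
      ∀ (n : ℕ) (G : Gr n) (p ρ δ : ℝ), 0 < p → p ≤ 1 → Reg G p ρ δ → ρ ≤ δ0 → δ ≤ δ0 →
      ∀ (x : ℕ → ℝ) (D : ℕ → Fin n → Fin n → ℝ) (f0 : ℝ) (k : ℕ), 0 ≤ f0 → f0 ≤ 1 →
        (∀ j < k, 0 ≤ x j ∧ x j ≤ f0 ^ 2) →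
        (∀ u v, s(u, v) ∈ G → D 0 u v = 0) →
        (∀ j < k, ∀ u v, s(u, v) ∈ G → |D j u v| ≤ 1) →
        (∀ j < k, ∀ u v, s(u, v) ∈ G →
          |D (j + 1) u v - D j u v + x j * Bop G p (D j) u v| ≤ x j * f0) →
        ∀ u v, s(u, v) ∈ G →
          D k u v ^ q ≤ C * (n : ℝ) ^ 2 * f0 ^ q * Real.exp (q * γ * ∑ j ∈ range k, x j) := by
  have hq0 : (0 : ℝ) < q := by exact_mod_cast (by omega : 0 < q)
  obtain ⟨κ, δ0, C, hκ, hδ0, hδ1, hC, hs⟩ := phi_step q hq hq2 γ hγ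
  have hqγ : 0 < q * γ := by positivity
  refine ⟨δ0, C / (q * γ), hδ0, hδ1, by positivity,
    fun n G p ρ δ hp hp1 hR hρ hδ x D f0 k h0 h1 hx hD0 hD hstep u v huv => ?_⟩
  have hκ0 : 0 ≤ κ := by linarith
  set A := C / (q * γ) * (n : ℝ) ^ 2 * f0 ^ q with hA
  have hA0 : 0 ≤ A := by positivity
  have hA1 : C * (n : ℝ) ^ 2 * f0 ^ q = q * γ * A := by rw [hA]; field_simp
  have key : ∀ j ≤ k, Phi q κ G p (D j) + A ≤ A * Real.exp (q * γ * ∑ i ∈ range j, x i) := by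
    intro j
    induction j with
    | zero =>
        intro _
        have e1 : ∑ e ∈ arcs G, D 0 e.1 e.2 ^ q = 0 := sum_eq_zero fun e he => by
          rw [hD0 _ _ (mem_arcs.1 he), zero_pow (by omega)]
        have e2 : ∑ w, sav G p (D 0) w ^ q = 0 := sum_eq_zero fun w _ => by
          rw [sav, sum_eq_zero fun u hu => hD0 _ _ (mem_nb.1 hu), mul_zero, zero_pow (by omega)]
        simp [Phi, e1, e2]
    | succ j ih =>
        intro hj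
        have h2 := ih (by omega)
        obtain ⟨hx0, hx1⟩ := hx j (by omega)
        have h3 := hs n G p ρ δ hp hp1 hR hρ hδ (x j) (D j) (D (j + 1)) f0 h0 h1 hx0 hx1
          (hD j (by omega)) (hstep j (by omega))
        have h4 := Phi_nonneg hq hκ0 G hp (D j)
        have h5 := Real.add_one_le_exp (q * γ * x j)
        rw [sum_range_succ, mul_add, Real.exp_add, ← mul_assoc]
        calc _ ≤ (Phi q κ G p (D j) + A) * (q * γ * x j + 1) := by rw [hA1] at h3; linarith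
          _ ≤ _ := by gcongr
  have h2 := key k le_rfl
  have h3 : D k u v ^ q ≤ ∑ e ∈ arcs G, D k e.1 e.2 ^ q :=
    single_le_sum (f := fun e : Fin n × Fin n => D k e.1 e.2 ^ q) (fun _ _ => hq.pow_nonneg _)
      ((mem_arcs (a := (u, v))).2 huv)
  have h4 : 0 ≤ κ * (n * p) * ∑ w, sav G p (D k) w ^ q :=
    mul_nonneg (by positivity) (sum_nonneg fun _ _ => hq.pow_nonneg _)
  unfold Phi at h2
  linarith

end Crest.Agent.R30
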