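import Crest.Agent.R30.Defs

set_option autoImplicit false

open Finset
open scoped BigOperators Classical
open Crest.CombinatoricsR.TriangleRemoval

namespace Crest.Agent.R30

namespace MomentX

theorem small (i j : ℕ) (θ : ℝ) (hθ : 0 < θ) :
    ∃ C : ℝ, 0 < C ∧ ∀ A B : ℝ, 0 ≤ A → 0 ≤ B →
      A ^ i * B ^ (j + 1) ≤ θ * A ^ (i + (j + 1)) + C * B ^ (i + (j + 1)) := by
  have h0 : 0 < min θ 1 := lt_min hθ one_pos
  refine ⟨(min θ 1)⁻¹ ^ i, by positivity, fun A B hA hB => ?_⟩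
  rcases le_total B (min θ 1 * A) with h | h
  · have h1 : B ^ (j + 1) ≤ θ * A ^ (j + 1) := by
      refine (pow_le_pow_left₀ hB h _).trans ?_
      rw [mul_pow]
      exact mul_le_mul_of_nonneg_right
        ((pow_le_of_le_one h0.le (min_le_right _ _) (by omega)).trans (min_le_left _ _))
        (by positivity)
    refine le_add_of_le_of_nonneg ?_ (by positivity)
    rw [pow_add A, mul_left_comm]
    exact mul_le_mul_of_nonneg_left h1 (by positivity)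
  · have h1 : A ^ i ≤ (min θ 1)⁻¹ ^ i * B ^ i := by
      rw [← mul_pow]
      exact pow_le_pow_left₀ hA ((le_inv_mul_iff₀ h0).2 h) _
    refine le_add_of_nonneg_of_le (by positivity) ?_
    rw [pow_add B i, ← mul_assoc]
    exact mul_le_mul_of_nonneg_right h1 (by positivity)

theorem sharp (m : ℕ) {A B : ℝ} (hA : 0 ≤ A) (hB : 0 ≤ B) :
    (m + 1) * (A ^ m * B) ≤ m * A ^ (m + 1) + B ^ (m + 1) := by
  induction m with
  | zero => simp
  | succ m ih =>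
    have h1 := mul_le_mul_of_nonneg_right ih hB
    have h2 : 0 ≤ (m + 1) * A ^ m * (A - B) ^ 2 := by positivity
    push_cast
    simp only [pow_succ] at h1 h2 ⊢
    linarith

theorem taylor (m : ℕ) {a h M : ℝ} (h1 : |a| ≤ M) (h2 : |a + h| ≤ M) :
    |(a + h) ^ (m + 2) - a ^ (m + 2) - (m + 2) * a ^ (m + 1) * h| ≤ (m + 1) ^ 2 * M ^ m * h ^ 2 := by
  have M0 : 0 ≤ M := (abs_nonneg _).trans h1
  induction m with
  | zero =>
    rw [show (a + h) ^ (0 + 2) - a ^ (0 + 2) - ((0 : ℕ) + 2) * a ^ (0 + 1) * h = h ^ 2 by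
      push_cast; ring, abs_of_nonneg (sq_nonneg h)]
    simp
  | succ m ih =>
    have e : (a + h) ^ (m + 1 + 2) - a ^ (m + 1 + 2) - ((m + 1 : ℕ) + 2) * a ^ (m + 1 + 1) * h =
        (a + h) * ((a + h) ^ (m + 2) - a ^ (m + 2) - (m + 2) * a ^ (m + 1) * h) +
          (m + 2) * (a ^ (m + 1) * h ^ 2) := by
      push_cast; ring
    have a1 : |a ^ (m + 1) * h ^ 2| ≤ M ^ (m + 1) * h ^ 2 := by
      rw [abs_mul, abs_of_nonneg (sq_nonneg h), abs_pow]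
      exact mul_le_mul_of_nonneg_right (pow_le_pow_left₀ (abs_nonneg _) h1 _) (sq_nonneg h)
    have a2 := mul_le_mul h2 ih (abs_nonneg _) M0
    have a3 := mul_le_mul_of_nonneg_left a1 (show (0 : ℝ) ≤ m + 2 by positivity)
    have a4 : 0 ≤ ((m : ℝ) + 1) * (M ^ (m + 1) * h ^ 2) := by positivity
    rw [e]
    refine (abs_add_le _ _).trans ?_
    rw [abs_mul, abs_mul ((m : ℝ) + 2), abs_of_nonneg (show (0 : ℝ) ≤ m + 2 by positivity)]
    push_cast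
    rw [pow_succ M] at a3 a4 ⊢
    linarith

end MomentX

/-- Young with a small coefficient. -/
theorem young_small (q : ℕ) (hq : Even q) (hq2 : 2 ≤ q) (θ : ℝ) (hθ : 0 < θ) :
    ∃ C : ℝ, 0 < C ∧ ∀ a b : ℝ, |a ^ (q - 1) * b| ≤ θ * a ^ q + C * b ^ q := by
  obtain ⟨C, hC, h⟩ := MomentX.small (q - 1) 0 θ hθ
  refine ⟨C, hC, fun a b => ?_⟩
  have := h |a| |b| (abs_nonneg _) (abs_nonneg _)
  rwa [show q - 1 + (0 + 1) = q by omega, hq.pow_abs, hq.pow_abs, zero_add, pow_one, ← abs_pow,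
    ← abs_mul] at this

/-- sharp Young -/
theorem young_sharp (q : ℕ) (hq : Even q) (hq2 : 2 ≤ q) (a b : ℝ) :
    |a ^ (q - 1) * b| ≤ (1 - 1 / (q : ℝ)) * a ^ q + 1 / (q : ℝ) * b ^ q := by
  obtain ⟨m, rfl⟩ : ∃ m, q = m + 1 := ⟨q - 1, by omega⟩
  have := MomentX.sharp m (abs_nonneg a) (abs_nonneg b)
  rw [hq.pow_abs, hq.pow_abs, ← abs_pow, ← abs_mul] at this
  have h0 : (0 : ℝ) < m + 1 := by positivity
  rw [Nat.add_sub_cancel]
  refine le_of_mul_le_mul_left (this.trans (le_of_eq ?_)) h0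
  push_cast
  field_simp
  ring

/-- Jensen/Hoelder for even powers of a sum -/
theorem pow_sum_le {ι : Type*} (q : ℕ) (hq : Even q) (hq2 : 2 ≤ q) (s : Finset ι) (f : ι → ℝ) :
    (∑ i ∈ s, f i) ^ q ≤ (s.card : ℝ) ^ (q - 1) * ∑ i ∈ s, f i ^ q := by
  obtain ⟨m, rfl⟩ : ∃ m, q = m + 1 := ⟨q - 1, by omega⟩
  have := pow_sum_le_card_mul_sum_pow (s := s) (f := fun i => |f i|) (fun _ _ => abs_nonneg _) m
  simp only [hq.pow_abs] at this
  rw [Nat.add_sub_cancel, ← hq.pow_abs]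
  exact (pow_le_pow_left₀ (abs_nonneg _) (abs_sum_le_sum_abs _ _) _).trans this

/-- One step of an even moment: Taylor `(a+h)^q ≤ a^q + q a^(q-1) h + C (|a|^(q-2) h² + |h|^q)`,
`|h|^q ≤ σ^(q-2) h²`, and Young `|a|^(q-2) σ² ≤ θ' a^q + C' σ^q`. -/
theorem moment_step (q : ℕ) (hq : Even q) (hq2 : 2 ≤ q) (θ : ℝ) (hθ : 0 < θ) :
    ∃ C : ℝ, 0 < C ∧ ∀ (ι : Type) (S : Finset ι) (c a x σ : ℝ) (h : ι → ℝ),
      0 ≤ c → c * S.card ≤ 1 → 0 ≤ x → 0 ≤ σ → (∀ i ∈ S, |h i| ≤ σ) →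
      c * ∑ i ∈ S, h i ^ 2 ≤ x * σ ^ 2 →
      c * ∑ i ∈ S, (a + h i) ^ q ≤
        a ^ q + q * a ^ (q - 1) * (c * ∑ i ∈ S, h i) + x * (θ * a ^ q + C * σ ^ q) := by
  obtain ⟨m, rfl⟩ : ∃ m, q = m + 2 := ⟨q - 2, by omega⟩
  have K0 : (0 : ℝ) < (m + 1) ^ 2 := by positivity
  obtain ⟨C, hC, hs⟩ := MomentX.small m 1 (θ / ((m + 1) ^ 2 * 2 ^ (m + 1))) (by positivity)
  refine ⟨θ + (m + 1) ^ 2 * C, by positivity, fun ι S c a x σ h hc hS hx hσ hh h2 => ?_⟩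
  have M0 : 0 ≤ |a| + σ := by positivity
  have a0 : 0 ≤ a ^ (m + 2) := hq.pow_nonneg a
  have a1 : ∑ i ∈ S, (a + h i) ^ (m + 2) ≤ ∑ i ∈ S, (a ^ (m + 2) + (m + 2) * a ^ (m + 1) * h i +
      (m + 1) ^ 2 * (|a| + σ) ^ m * h i ^ 2) := by
    refine sum_le_sum fun i hi => ?_
    have := (abs_le.1 (MomentX.taylor m (a := a) (h := h i) (M := |a| + σ) (by linarith)
      ((abs_add_le _ _).trans (by linarith [hh i hi])))).2
    linarith
  rw [sum_add_distrib, sum_add_distrib, sum_const, nsmul_eq_mul, ← mul_sum, ← mul_sum] at a1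
  have a2 := mul_le_mul_of_nonneg_left a1 hc
  have a3 := mul_le_mul_of_nonneg_right hS a0
  have a4 := mul_le_mul_of_nonneg_left h2 (show 0 ≤ (m + 1 : ℝ) ^ 2 * (|a| + σ) ^ m by positivity)
  have a5 : (m + 1 : ℝ) ^ 2 * ((|a| + σ) ^ m * σ ^ 2) ≤
      θ * a ^ (m + 2) + (θ + (m + 1) ^ 2 * C) * σ ^ (m + 2) := by
    have b1 := mul_le_mul_of_nonneg_left (hs _ _ M0 hσ) K0.le
    have b2 := add_pow_le (abs_nonneg a) hσ (m + 2)
    rw [hq.pow_abs a] at b2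
    have b3 := mul_le_mul_of_nonneg_left b2 (show 0 ≤ θ / 2 ^ (m + 1) by positivity)
    have e1 : (m + 1 : ℝ) ^ 2 * (θ / ((m + 1) ^ 2 * 2 ^ (m + 1))) = θ / 2 ^ (m + 1) := by
      field_simp
    have e2 : θ / 2 ^ (m + 1) * 2 ^ (m + 2 - 1) = θ := div_mul_cancel₀ _ (by positivity)
    rw [mul_add, ← mul_assoc _ (θ / _), e1] at b1
    rw [← mul_assoc, e2] at b3
    norm_num at b1
    linarith
  have a6 := mul_le_mul_of_nonneg_left a5 hx
  rw [show m + 2 - 1 = m + 1 from rfl]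
  push_cast
  linarith

end Crest.Agent.R30
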