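import Crest.Agent.R30.Basic
import Crest.Agent.R30.Moment
import Crest.Agent.R30.BL

set_option autoImplicit false

open Finset
open scoped BigOperators Classical
open Crest.CombinatoricsR.TriangleRemoval

namespace Crest.Agent.R30

namespace LyapX

variable {n : ℕ}

/-- the mixing error -/
noncomputable def EE (G : Gr n) (p : ℝ) (a : Fin n → Fin n → ℝ) (u v : Fin n) : ℝ :=
  ∑ w ∈ nb G u, (ind (s(v, w) ∈ G) - p) / mu n p * a u w

theorem sum_ind (G : Gr n) (u v : Fin n) (g : Fin n → ℝ) :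
    ∑ w ∈ nb G u ∩ nb G v, g w = ∑ w ∈ nb G u, ind (s(v, w) ∈ G) * g w := by
  rw [← Finset.filter_mem_eq_inter, Finset.sum_filter]
  refine sum_congr rfl fun w _ => ?_
  by_cases h : s(v, w) ∈ G
  · rw [if_pos (mem_nb.2 h), ind_pos h, one_mul]
  · rw [if_neg (fun h' => h (mem_nb.1 h')), ind_neg h, zero_mul]

theorem half (G : Gr n) {p : ℝ} (hp : 0 < p) (hn : 0 < n) (a : Fin n → Fin n → ℝ) (u v : Fin n) :
    (mu n p)⁻¹ * ∑ w ∈ nb G u ∩ nb G v, a u w = sav G p a u + EE G p a u v := by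
  have hn' : (0 : ℝ) < n := Nat.cast_pos.2 hn
  rw [sum_ind, sav, EE, mul_sum, mul_sum, ← sum_add_distrib]
  refine sum_congr rfl fun w _ => ?_
  unfold mu
  field_simp
  ring

theorem Bop_eq (G : Gr n) {p : ℝ} (hp : 0 < p) (hn : 0 < n) (a : Fin n → Fin n → ℝ)
    (u v : Fin n) :
    Bop G p a u v = sav G p a u + sav G p a v + EE G p a u v + EE G p a v u := by
  rw [Bop, sum_add_distrib, mul_add, half G hp hn a u v, inter_comm, half G hp hn a v u]
  ring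

theorem cnt_eq (G : Gr n) (P P' : Finset (Fin n)) :
    (cnt G (P ×ˢ P') : ℝ) = ∑ v ∈ P, ∑ w ∈ P', ind (s(v, w) ∈ G) := by
  rw [cnt, card_filter, ← Finset.sum_product' (f := fun v w => ind (s(v, w) ∈ G))]
  push_cast
  refine sum_congr rfl fun e _ => ?_
  unfold ind
  congr

theorem row {G : Gr n} {p ρ δ : ℝ} (hp : 0 < p) (hn : 0 < n) (h : Reg G p ρ δ) (hρ : ρ ≤ 1 / 2)
    (hδ : δ ≤ 1 / 2) (u v : Fin n) (hv : v ∈ nb G u) :
    ∑ w ∈ nb G u, |(ind (s(v, w) ∈ G) - p) / mu n p| ≤ 4 := by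
  have hn' : (0 : ℝ) < n := Nat.cast_pos.2 hn
  have hμ : 0 < mu n p := by unfold mu; positivity
  have h1 := (h.cod_le hp (mem_nb.1 hv)).2
  have h2 := (abs_le.1 (h.deg u)).2
  have h3 : (cod G u v : ℝ) = ∑ w ∈ nb G u, ind (s(v, w) ∈ G) := by
    have := sum_ind G u v (fun _ => 1)
    simpa [cod] using this
  calc _ ≤ ∑ w ∈ nb G u, (ind (s(v, w) ∈ G) + p) / mu n p := by
        refine sum_le_sum fun w _ => ?_
        rw [abs_div, abs_of_pos hμ]
        refine div_le_div_of_nonneg_right ?_ hμ.le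
        have := ind_nonneg (s(v, w) ∈ G)
        rw [abs_le]; constructor <;> linarith
    _ = ((cod G u v : ℝ) + (nb G u).card * p) / mu n p := by
        rw [← sum_div, sum_add_distrib, ← h3, sum_const, nsmul_eq_mul]
    _ ≤ 4 := by
        rw [div_le_iff₀ hμ]
        have h4 : ((nb G u).card : ℝ) * p ≤ (n * p + δ * (n * p)) * p :=
          mul_le_mul_of_nonneg_right (by linarith) hp.le
        have h5 : (n * p + δ * (n * p)) * p = (1 + δ) * mu n p := by unfold mu; ring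
        nlinarith

theorem EE_le {q : ℕ} (hq : Even q) {G : Gr n} {p ρ δ δ1 η : ℝ} (hp : 0 < p) (hn : 0 < n)
    (h : Reg G p ρ δ) (hρ2 : ρ ≤ 1 / 2) (hδ2 : δ ≤ 1 / 2) (hδ3 : δ ≤ δ1)
    (hB : ∀ (ι : Type) (N : Finset ι) (M : ι → ι → ℝ),
      (∀ v ∈ N, ∑ w ∈ N, |M v w| ≤ 4) → (∀ w ∈ N, ∑ v ∈ N, |M v w| ≤ 4) →
      (∀ P ⊆ N, ∀ P' ⊆ N, |∑ v ∈ P, ∑ w ∈ P', M v w| ≤ δ1 * (P.card + P'.card)) →
      ∀ x : ι → ℝ, ∑ v ∈ N, |∑ w ∈ N, M v w * x w| ^ q ≤ η * ∑ w ∈ N, |x w| ^ q)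
    (a : Fin n → Fin n → ℝ) :
    ∑ e ∈ arcs G, EE G p a e.1 e.2 ^ q ≤ η * ∑ e ∈ arcs G, a e.1 e.2 ^ q := by
  have hn' : (0 : ℝ) < n := Nat.cast_pos.2 hn
  have hμ : 0 < mu n p := by unfold mu; positivity
  rw [sum_arcs G (fun u v => EE G p a u v ^ q), sum_arcs G (fun u v => a u v ^ q), mul_sum]
  refine sum_le_sum fun u _ => ?_
  have := hB (Fin n) (nb G u) (fun v w => (ind (s(v, w) ∈ G) - p) / mu n p)
    (fun v hv => row hp hn h hρ2 hδ2 u v hv)
    (fun w hw => by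
      simp only [Sym2.eq_swap (b := w)]
      exact row hp hn h hρ2 hδ2 u w hw)
    (fun P hP P' hP' => by
      have h1 := h.em u P P' hP hP'
      have h2 : ∑ v ∈ P, ∑ w ∈ P', (ind (s(v, w) ∈ G) - p) / mu n p =
          ((cnt G (P ×ˢ P') : ℝ) - p * P.card * P'.card) / mu n p := by
        rw [cnt_eq]
        simp only [← sum_div, sum_sub_distrib, sum_const, nsmul_eq_mul]
        ring
      rw [h2, abs_div, abs_of_pos hμ, div_le_iff₀ hμ]
      refine h1.trans ?_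
      have : (0 : ℝ) ≤ mu n p * (P.card + P'.card) := by positivity
      nlinarith) (a u)
  simp only [hq.pow_abs] at this
  exact this

theorem fin {γ C κ η d S U A X F F' L V : ℝ} (hγ : 0 < γ) (hC : 0 < C) (hκ1 : 1 ≤ κ)
    (hκ2 : 5 * C ≤ γ * κ) (hη1 : 2 * C * (1 + κ) * η = γ / 2) (hd : 0 < d) (hU0 : 0 ≤ U)
    (hAU : A ≤ 3 / 2 * (d * U)) (hXS : X ≤ η * S)
    (hedge : L ≤ γ / 2 * S + C * (2 * A + 2 * X + F))
    (hv : d * V ≤ γ / 5 * A + 2 * C * X + d * (γ / 10 * U + C * F')) :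
    L + κ * (d * V) ≤ γ * (S + κ * d * U) + C * (F + κ * d * F') := by
  have hκ0 : 0 ≤ κ := by linarith
  have t1 := mul_le_mul_of_nonneg_left hv hκ0
  have hdU : 0 ≤ d * U := by positivity
  have t2 : (2 * C + κ * γ / 5) * A ≤ (2 * C + κ * γ / 5) * (3 / 2 * (d * U)) :=
    mul_le_mul_of_nonneg_left hAU (by positivity)
  have t3 : 2 * C * (1 + κ) * X ≤ 2 * C * (1 + κ) * (η * S) :=
    mul_le_mul_of_nonneg_left hXS (by positivity)
  rw [← mul_assoc _ η S, hη1] at t3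
  have t4 := mul_le_mul_of_nonneg_right hκ2 hdU
  linarith

end LyapX

open LyapX

/-- The Lyapunov inequality for the linearised triangle operator. -/
theorem lyap (q : ℕ) (hq : Even q) (hq2 : 2 ≤ q) (γ : ℝ) (hγ : 0 < γ) :
    ∃ κ δ0 C : ℝ, 1 ≤ κ ∧ 0 < δ0 ∧ δ0 ≤ 1 / 2 ∧ 0 < C ∧
      ∀ (n : ℕ) (G : Gr n) (p ρ δ : ℝ), 0 < p → Reg G p ρ δ → ρ ≤ δ0 → δ ≤ δ0 →
      ∀ (a f : Fin n → Fin n → ℝ) (f' : Fin n → ℝ),
        ∑ e ∈ arcs G, a e.1 e.2 ^ (q - 1) * (-Bop G p a e.1 e.2 + f e.1 e.2) +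
          κ * ((n : ℝ) * p) * ∑ w, sav G p a w ^ (q - 1) * (-sav G p (Bop G p a) w + f' w) ≤
        γ * Phi q κ G p a +
          C * (∑ e ∈ arcs G, f e.1 e.2 ^ q + κ * ((n : ℝ) * p) * ∑ w, f' w ^ q) := by
  obtain ⟨C, hC, hY⟩ := young_small q hq hq2 (γ / 10) (by positivity)
  set κ := max 1 (5 * C / γ) with hκ
  have hκ1 : 1 ≤ κ := le_max_left _ _
  have hκ2 : 5 * C ≤ γ * κ := by
    have := le_max_right 1 (5 * C / γ)
    rw [← hκ, div_le_iff₀ hγ] at this; linarith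
  set η := γ / (4 * C * (1 + κ)) with hη
  have hη0 : 0 < η := by positivity
  have hη1 : 2 * C * (1 + κ) * η = γ / 2 := by rw [hη]; field_simp; ring
  obtain ⟨δ1, hδ1, hB⟩ := bl q hq2 η hη0
  refine ⟨κ, min δ1 (1 / 2), C, hκ1, by positivity, min_le_right _ _, hC, ?_⟩
  intro n G p ρ δ hp h hρ hδ a f f'
  rcases Nat.eq_zero_or_pos n with rfl | hn
  · have : arcs G = ∅ := eq_empty_of_isEmpty _
    simp [Phi, this]
  have hρ2 : ρ ≤ 1 / 2 := hρ.trans (min_le_right _ _)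
  have hδ2 : δ ≤ 1 / 2 := hδ.trans (min_le_right _ _)
  have hδ3 : δ ≤ δ1 := hδ.trans (min_le_left _ _)
  have hn' : (0 : ℝ) < n := Nat.cast_pos.2 hn
  have hμ : 0 < mu n p := by unfold mu; positivity
  have hd : 0 < (n : ℝ) * p := by positivity
  set d := (n : ℝ) * p with hdd
  set s := sav G p a with hs
  set E := EE G p a with hE
  set S := ∑ e ∈ arcs G, a e.1 e.2 ^ q with hS
  set U := ∑ w, s w ^ q with hU
  set A := ∑ e ∈ arcs G, s e.1 ^ q with hA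
  set X := ∑ e ∈ arcs G, E e.1 e.2 ^ q with hX
  set F := ∑ e ∈ arcs G, f e.1 e.2 ^ q with hF
  set F' := ∑ w, f' w ^ q with hF'
  have hA' : ∑ e ∈ arcs G, s e.2 ^ q = A := (sum_arcs_swap G (fun u _ => s u ^ q)).symm
  have hX' : ∑ e ∈ arcs G, E e.2 e.1 ^ q = X := (sum_arcs_swap G (fun u v => E u v ^ q)).symm
  have hS0 : 0 ≤ S := sum_nonneg fun _ _ => hq.pow_nonneg _
  have hU0 : 0 ≤ U := sum_nonneg fun _ _ => hq.pow_nonneg _
  have hAU : A ≤ 3 / 2 * (d * U) := by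
    rw [hA, sum_arcs G (fun u _ => s u ^ q), hU, mul_sum, mul_sum]
    refine sum_le_sum fun u _ => ?_
    rw [sum_const, nsmul_eq_mul, ← mul_assoc]
    refine mul_le_mul_of_nonneg_right ?_ (hq.pow_nonneg _)
    have := (abs_le.1 (h.deg u)).2
    nlinarith
  have hXS : X ≤ η * S := EE_le hq hp hn h hρ2 hδ2 hδ3 hB a
  have hY1 : ∀ x y : ℝ, x ^ (q - 1) * y ≤ γ / 10 * x ^ q + C * y ^ q := fun x y =>
    (le_abs_self _).trans (hY x y)
  have hY2 : ∀ x y : ℝ, -(x ^ (q - 1) * y) ≤ γ / 10 * x ^ q + C * y ^ q := fun x y =>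
    (neg_le_abs _).trans (hY x y)
  have hedge : ∑ e ∈ arcs G, a e.1 e.2 ^ (q - 1) * (-Bop G p a e.1 e.2 + f e.1 e.2) ≤
      γ / 2 * S + C * (2 * A + 2 * X + F) := by
    calc _ ≤ ∑ e ∈ arcs G, (γ / 2 * a e.1 e.2 ^ q + C * (s e.1 ^ q + s e.2 ^ q + E e.1 e.2 ^ q
          + E e.2 e.1 ^ q + f e.1 e.2 ^ q)) := by
          refine sum_le_sum fun e _ => ?_
          rw [Bop_eq G hp hn]
          have := hY2 (a e.1 e.2) (s e.1)
          have := hY2 (a e.1 e.2) (s e.2)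
          have := hY2 (a e.1 e.2) (E e.1 e.2)
          have := hY2 (a e.1 e.2) (E e.2 e.1)
          have := hY1 (a e.1 e.2) (f e.1 e.2)
          rw [← hs, ← hE]
          linarith
      _ = _ := by
          simp only [sum_add_distrib, ← mul_sum]
          rw [hA', hX']
          ring
  have hv1 : d * ∑ w, s w ^ (q - 1) * (-sav G p (Bop G p a) w) ≤ γ / 5 * A + 2 * C * X := by
    have e1 : d * ∑ w, s w ^ (q - 1) * (-sav G p (Bop G p a) w) =
        ∑ e ∈ arcs G, -(s e.1 ^ (q - 1) * Bop G p a e.1 e.2) := by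
      rw [sum_arcs G (fun u v => -(s u ^ (q - 1) * Bop G p a u v)), mul_sum]
      refine sum_congr rfl fun w _ => ?_
      rw [sum_neg_distrib, ← mul_sum, sav, ← hdd]
      field_simp
    rw [e1]
    calc _ ≤ ∑ e ∈ arcs G, (1 / (q : ℝ) * (s e.2 ^ q - s e.1 ^ q) + γ / 5 * s e.1 ^ q
          + C * (E e.1 e.2 ^ q + E e.2 e.1 ^ q)) := by
          refine sum_le_sum fun e _ => ?_
          rw [Bop_eq G hp hn, ← hs, ← hE]
          have h1 := (neg_le_abs _).trans (young_sharp q hq hq2 (s e.1) (s e.2))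
          have := hY2 (s e.1) (E e.1 e.2)
          have := hY2 (s e.1) (E e.2 e.1)
          have h4 : s e.1 ^ (q - 1) * s e.1 = s e.1 ^ q := by
            rw [← pow_succ]; congr 1; omega
          linarith
      _ = _ := by
          simp only [sum_add_distrib, ← mul_sum, sum_sub_distrib]
          rw [hA', hX']
          ring
  have hv2 : ∑ w, s w ^ (q - 1) * f' w ≤ γ / 10 * U + C * F' := by
    rw [hU, hF', mul_sum, mul_sum, ← sum_add_distrib]
    exact sum_le_sum fun w _ => hY1 _ _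
  have hv : d * ∑ w, s w ^ (q - 1) * (-sav G p (Bop G p a) w + f' w) ≤
      γ / 5 * A + 2 * C * X + d * (γ / 10 * U + C * F') := by
    simp only [mul_add (s _ ^ (q - 1)), sum_add_distrib]
    rw [mul_add]
    exact add_le_add hv1 (mul_le_mul_of_nonneg_left hv2 hd.le)
  have hPhi : Phi q κ G p a = S + κ * d * U := rfl
  rw [hPhi, mul_assoc κ d]
  exact fin hγ hC hκ1 hκ2 hη1 hd hU0 hAU hXS hedge hv

end Crest.Agent.R30
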