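import Crest.Agent.R30.EMStep
import Crest.Agent.R30.Params

set_option autoImplicit false

open Finset
open scoped BigOperators Classical
open Crest.CombinatoricsR.TriangleRemoval

namespace Crest.Agent.R30

open Filter

namespace VEmX

theorem lam_pos (n : ℕ) : 0 < lam n := Real.exp_pos _

theorem Wup_nonneg {n : ℕ} (ρ : ℝ) (F : Finset (Fin n × Fin n)) (G : Gr n) (τ : ℝ) :
    0 ≤ Wup ρ F G τ := by unfold Wup; positivity

theorem Wlo_nonneg {n : ℕ} (ρ : ℝ) (F : Finset (Fin n × Fin n)) (G : Gr n) (τ : ℝ) :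
    0 ≤ Wlo ρ F G τ := by unfold Wlo; positivity

theorem term_nonneg {n : ℕ} (b : ℕ) (F : Finset (Fin n × Fin n)) (G : Gr n) (τ : ℝ) :
    0 ≤ lam n ^ b * (Wup (rho n) F G τ + Wlo (rho n) F G τ) :=
  mul_nonneg (pow_pos (lam_pos n) b).le (add_nonneg (Wup_nonneg _ _ _ _) (Wlo_nonneg _ _ _ _))

theorem term1_nonneg {n : ℕ} (F : Finset (Fin n × Fin n)) (G : Gr n) (τ : ℝ) :
    0 ≤ lam n * (Wup (rho n) F G τ + Wlo (rho n) F G τ) := by
  simpa using term_nonneg 1 F G τ

theorem lin_of_exp {z x : ℝ} (hz : 0 < z) (b : ℕ)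
    (h : Real.exp (-(z ^ 13 / 20)) ^ b * Real.exp ((z ^ 2)⁻¹ * x) < 1) : x ≤ b * (z ^ 15 / 20) := by
  rw [← Real.exp_nat_mul, ← Real.exp_add, Real.exp_lt_one_iff] at h
  have h2 : 0 < z ^ 2 := by positivity
  have h3 : x = z ^ 2 * ((z ^ 2)⁻¹ * x) := by field_simp
  have h4 : (z ^ 2)⁻¹ * x ≤ b * (z ^ 13 / 20) := by linarith
  calc x = z ^ 2 * ((z ^ 2)⁻¹ * x) := h3
    _ ≤ z ^ 2 * (b * (z ^ 13 / 20)) := mul_le_mul_of_nonneg_left h4 h2.le
    _ = _ := by ring

theorem dev {n : ℕ} (hn : 0 < n) {G : Gr n} {τ : ℝ} (h0 : 0 ≤ τ)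
    (h1 : 10 * rho n * τ ≤ del n / 20) (b : ℕ) (F : Finset (Fin n × Fin n))
    (h : lam n ^ b * (Wup (rho n) F G τ + Wlo (rho n) F G τ) < 1) :
    |(cnt G F : ℝ) - Real.exp (-τ) * cnt (allEdges n) F| ≤
      b * (zz n ^ 15 / 20) + del n / 10 * (Real.exp (-τ) * cnt (allEdges n) F) := by
  have hz := zz_pos hn
  have hl := pow_pos (lam_pos n) b
  have hd := del_le_one hn
  have hρ : 0 < rho n := by unfold rho; positivity
  have hx0 : 0 ≤ 10 * rho n * τ := by positivity
  have hc : (0 : ℝ) ≤ G.card := Nat.cast_nonneg _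
  have hu : lam n ^ b * Real.exp (rho n * (cnt G F - Real.exp (-((1 - 10 * rho n) * τ)) *
      cnt (allEdges n) F)) < 1 := by
    refine lt_of_le_of_lt (mul_le_mul_of_nonneg_left ?_ hl.le) h
    have := Wlo_nonneg (rho n) F G τ
    unfold Wup; linarith
  have hlo : lam n ^ b * Real.exp (rho n * (Real.exp (-((1 + 10 * rho n) * τ)) *
      cnt (allEdges n) F - cnt G F)) < 1 := by
    refine lt_of_le_of_lt (mul_le_mul_of_nonneg_left ?_ hl.le) h
    have := Wup_nonneg (rho n) F G τ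
    unfold Wlo; linarith
  have a1 := lin_of_exp hz b hu
  have a2 := lin_of_exp hz b hlo
  have e1 : Real.exp (-((1 - 10 * rho n) * τ)) = Real.exp (10 * rho n * τ) * Real.exp (-τ) := by
    rw [← Real.exp_add]; congr 1; ring
  have e2 : Real.exp (-((1 + 10 * rho n) * τ)) = Real.exp (-(10 * rho n * τ)) * Real.exp (-τ) := by
    rw [← Real.exp_add]; congr 1; ring
  rw [e1, mul_assoc] at a1
  rw [e2, mul_assoc] at a2
  have hN : 0 ≤ Real.exp (-τ) * (cnt (allEdges n) F : ℝ) := by positivity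
  have b1 : Real.exp (10 * rho n * τ) ≤ 1 + del n / 10 := by
    have := Real.abs_exp_sub_one_le (x := 10 * rho n * τ)
      (by rw [abs_of_nonneg hx0]; linarith)
    rw [abs_of_nonneg hx0] at this
    linarith [le_abs_self (Real.exp (10 * rho n * τ) - 1)]
  have b2 : 1 - del n / 10 ≤ Real.exp (-(10 * rho n * τ)) := by
    have := Real.add_one_le_exp (-(10 * rho n * τ))
    linarith
  have c1 := mul_le_mul_of_nonneg_right b1 hN
  have c2 := mul_le_mul_of_nonneg_right b2 hN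
  rw [abs_le]
  constructor <;> linarith

theorem sum_lam (n : ℕ) (x : ℝ) :
    ∑ PP : Finset (Fin n) × Finset (Fin n), x ^ (PP.1.card + PP.2.card) = (x + 1) ^ (2 * n) := by
  have h : ∑ P : Finset (Fin n), x ^ P.card = (x + 1) ^ n := by
    have := Fintype.sum_pow_mul_eq_add_pow (Fin n) x 1
    simpa using this
  rw [two_mul, pow_add, ← h, Finset.sum_mul_sum, Fintype.sum_prod_type]
  simp only [pow_add]

end VEmX

open VEmX

theorem Vem_nonneg {n : ℕ} (G : Gr n) (τ : ℝ) : 0 ≤ Vem G τ :=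
  add_nonneg (Finset.sum_nonneg fun _ _ => term1_nonneg _ G τ)
    (Finset.sum_nonneg fun _ _ => term_nonneg _ _ G τ)

theorem Vem_sup : ∀ᶠ n : ℕ in atTop, ∀ (G : Gr n) (τ : ℝ), Inv G τ → good G τ → Sup Vem G τ := by
  filter_upwards [eventually_ge_atTop 24, ev_zz (eventually_ge_atTop (20 : ℝ))]
    with n hn hz G τ hI hg
  have hn0 : 0 < n := by omega
  have hz0 := zz_pos hn0
  have hρ : 0 < rho n := by unfold rho; positivity
  have hρ1 : rho n ≤ 1 / 20 := by
    unfold rho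
    rw [one_div]
    exact inv_anti₀ (by norm_num) (by nlinarith)
  have hδ : del n ≤ 1 / 2 := by
    unfold del
    rw [one_div]
    exact inv_anti₀ (by norm_num) (by linarith)
  have hμ : (rho n)⁻¹ ≤ mu n (Real.exp (-τ)) := by
    refine le_trans ?_ (mu_ge_of_le hn0 hI.2.2)
    unfold rho mu0
    rw [inv_inv]
    have h1 : zz n ≤ zz n ^ 14 := le_self_pow₀ (by linarith) (by norm_num)
    have h2 : zz n ^ 16 = zz n ^ 2 * zz n ^ 14 := by ring
    have h3 : 0 < zz n ^ 2 := by positivity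
    rw [h2]
    nlinarith
  have hW : ∀ F : Finset (Fin n × Fin n),
      Sup (fun G τ => Wup (rho n) F G τ + Wlo (rho n) F G τ) G τ := fun F =>
    (up_step hI.2.1 hn hg.1 hρ hρ1 hδ hμ F).add (lo_step hI.2.1 hn hg.1 hρ hρ1 hδ hμ F)
  exact Sup.add
    (W := fun G τ => ∑ w : Fin n,
      lam n * (Wup (rho n) ({w} ×ˢ univ) G τ + Wlo (rho n) ({w} ×ˢ univ) G τ))
    (W' := fun G τ => ∑ PP ∈ (univ : Finset (Finset (Fin n) × Finset (Fin n))).erase (∅, ∅),
      lam n ^ (PP.1.card + PP.2.card) *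
        (Wup (rho n) (PP.1 ×ˢ PP.2) G τ + Wlo (rho n) (PP.1 ×ˢ PP.2) G τ))
    (Sup.sum _ fun w _ => Sup.mul (lam_pos n).le (hW _))
    (Sup.sum _ fun PP _ => Sup.mul (pow_pos (lam_pos n) _).le (hW _))

theorem Vem_fail : ∀ᶠ n : ℕ in atTop, ∀ (G : Gr n) (τ : ℝ), Inv G τ → Vem G τ < 1 →
    (∀ w, |((nb G w).card : ℝ) - n * Real.exp (-τ)| ≤ del n * (n * Real.exp (-τ))) ∧
    (∀ w (P P' : Finset (Fin n)), P ⊆ nb G w → P' ⊆ nb G w →
      |(cnt G (P ×ˢ P') : ℝ) - Real.exp (-τ) * P.card * P'.card| ≤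
        del n * mu n (Real.exp (-τ)) * (P.card + P'.card)) := by
  filter_upwards [eventually_ge_atTop 1, ev_zz (eventually_ge_atTop (400 : ℝ)),
    ev_zz (ev_log (1 / (3192 * 400)) (by norm_num))] with n hn hz hlog G τ hI hV
  have hn0 : 0 < n := hn
  have hz0 := zz_pos hn0
  have hn' : (1 : ℝ) ≤ n := by exact_mod_cast hn
  obtain ⟨-, hτ0, hτ1⟩ := hI
  have hμ := mu_ge_of_le hn0 hτ1
  have hd1 := del_le_one hn0
  have hd0 : 0 < del n := inv_pos.2 hz0
  have h1 : 10 * rho n * τ ≤ del n / 20 := by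
    rw [tau0_eq hn0] at hτ1
    have a : τ ≤ zz n / 200 := by linarith
    have b : rho n * zz n = del n := by unfold rho del; field_simp
    have c : 0 < rho n := by unfold rho; positivity
    have := mul_le_mul_of_nonneg_left a c.le
    linarith
  have hp0 : 0 < Real.exp (-τ) := Real.exp_pos _
  have hp1 : Real.exp (-τ) ≤ 1 := Real.exp_le_one_iff.2 (by linarith)
  set p := Real.exp (-τ) with hp
  have hμe : mu n p = n * p * p := by unfold mu; ring
  have hnp : 0 < (n : ℝ) * p := by positivity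
  have hμnp : mu n p ≤ n * p := by rw [hμe]; nlinarith
  have hδμ : zz n ^ 15 / 8 ≤ del n * mu n p := by
    have a : del n * (mu0 n / 8) = zz n ^ 15 / 8 := by unfold del mu0; field_simp
    rw [← a]
    exact mul_le_mul_of_nonneg_left hμ hd0.le
  have hz15 : zz n ≤ zz n ^ 15 := le_self_pow₀ (by linarith) (by norm_num)
  have hδnp : del n * mu n p ≤ del n * (n * p) := mul_le_mul_of_nonneg_left hμnp hd0.le
  have s1 := Finset.sum_nonneg (s := (univ : Finset (Fin n))) fun w _ =>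
    term1_nonneg ({w} ×ˢ univ) G τ
  have s2 := Finset.sum_nonneg
    (s := (univ : Finset (Finset (Fin n) × Finset (Fin n))).erase (∅, ∅)) fun PP _ =>
    term_nonneg (PP.1.card + PP.2.card) (PP.1 ×ˢ PP.2) G τ
  unfold Vem at hV
  have hdeg : ∀ w, |((nb G w).card : ℝ) - n * p| ≤ del n * (n * p) := by
    intro w
    have a := Finset.single_le_sum (s := (univ : Finset (Fin n)))
      (fun w _ => term1_nonneg ({w} ×ˢ univ) G τ) (Finset.mem_univ w)
    have b := dev hn0 hτ0 h1 1 ({w} ×ˢ univ) (by rw [pow_one]; linarith)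
    rw [cnt_star, cnt_star, card_nb_allEdges, Nat.cast_sub hn, ← hp, abs_le] at b
    push_cast at b
    have c : del n / 10 * (p * (n - 1)) ≤ del n / 10 * (n * p) :=
      mul_le_mul_of_nonneg_left (by nlinarith) (by linarith)
    rw [abs_le]
    constructor <;> nlinarith [b.1, b.2]
  refine ⟨hdeg, fun w P P' hP hP' => ?_⟩
  by_cases hE : (P, P') = (∅, ∅)
  · obtain ⟨rfl, rfl⟩ := Prod.mk.inj hE
    simp [cnt]
  have a := Finset.single_le_sum
    (s := (univ : Finset (Finset (Fin n) × Finset (Fin n))).erase (∅, ∅))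
    (fun PP _ => term_nonneg (PP.1.card + PP.2.card) (PP.1 ×ˢ PP.2) G τ)
    (Finset.mem_erase.2 ⟨hE, Finset.mem_univ (P, P')⟩)
  have b := dev hn0 hτ0 h1 (P.card + P'.card) (P ×ˢ P') (by linarith)
  have e : (cnt (allEdges n) (P ×ˢ P') : ℝ) + (P ∩ P').card = P.card * P'.card := by
    exact_mod_cast cnt_allEdges P P'
  have i0 : (0 : ℝ) ≤ (P ∩ P').card := Nat.cast_nonneg _
  have i1 : ((P ∩ P').card : ℝ) ≤ P.card := by
    exact_mod_cast Finset.card_le_card Finset.inter_subset_left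
  have c0 : (0 : ℝ) ≤ P.card := Nat.cast_nonneg _
  have c0' : (0 : ℝ) ≤ P'.card := Nat.cast_nonneg _
  have c1 : (P'.card : ℝ) ≤ 2 * (n * p) := by
    have x : (P'.card : ℝ) ≤ (nb G w).card := by exact_mod_cast Finset.card_le_card hP'
    have y := (abs_le.1 (hdeg w)).2
    nlinarith
  rw [← hp, abs_le] at b
  push_cast at b
  generalize (cnt (allEdges n) (P ×ˢ P') : ℝ) = N at *
  generalize ((P ∩ P').card : ℝ) = I at *
  generalize (P.card : ℝ) = A at *
  generalize (P'.card : ℝ) = B at *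
  set M : ℝ := del n * mu n p with hM
  have d1 : p * N ≤ 2 * mu n p * (A + B) := by
    have x : p * N ≤ p * (A * B) := mul_le_mul_of_nonneg_left (by linarith) hp0.le
    have y : p * (A * B) ≤ p * (A * (2 * (n * p))) :=
      mul_le_mul_of_nonneg_left (mul_le_mul_of_nonneg_left c1 c0) hp0.le
    have w' : 0 ≤ n * p * p * B := by positivity
    rw [hμe]; nlinarith
  have d2 : del n / 10 * (p * N) ≤ M / 5 * (A + B) := by
    calc _ ≤ del n / 10 * (2 * mu n p * (A + B)) := mul_le_mul_of_nonneg_left d1 (by linarith)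
      _ = _ := by rw [hM]; ring
  have d3 : (A + B) * (zz n ^ 15 / 20) ≤ (A + B) * (2 / 5 * M) :=
    mul_le_mul_of_nonneg_left (by linarith) (by linarith)
  have d4 : p * I ≤ (A + B) * (M / 5) := by
    have x : p * I ≤ A + B := by nlinarith
    have y : (A + B) * 1 ≤ (A + B) * (M / 5) := mul_le_mul_of_nonneg_left (by linarith) (by linarith)
    linarith
  have d5 : 0 ≤ p * I := by positivity
  have d6 : 0 ≤ (A + B) * M := mul_nonneg (by linarith) (by linarith)
  have e' : p * A * B = p * N + p * I := by rw [mul_assoc, ← e]; ring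
  rw [e', abs_le]
  constructor <;> nlinarith [b.1, b.2]

theorem Vem_init (η : ℝ) (hη : 0 < η) :
    ∀ᶠ n : ℕ in atTop, ((n : ℝ) + 1) * Vem (allEdges n) 0 ≤ η := by
  filter_upwards [eventually_ge_atTop 1,
    ev_zz (ev_pow_le_exp (6400 * 4) (40 / η) (1 / 20) (by norm_num)),
    ev_zz (ev_pow_le_exp 6400 2 (1 / 20) (by norm_num))] with n hn h4 h1
  have hn0 : 0 < n := hn
  have hz1 := one_le_zz hn0
  have hn' : (1 : ℝ) ≤ n := by exact_mod_cast hn
  rw [pow_mul, zz_pow] at h4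
  rw [zz_pow] at h1
  have hl0 := lam_pos n
  have hl : lam n * Real.exp (1 / 20 * zz n) ≤ 1 := by
    unfold lam
    rw [← Real.exp_add, Real.exp_le_one_iff]
    have : zz n ≤ zz n ^ 13 := le_self_pow₀ hz1 (by norm_num)
    linarith
  have g1 : 2 * n * lam n ≤ 1 := by nlinarith
  have g4 : 40 * (n : ℝ) ^ 4 * lam n ≤ η := by
    have a : lam n * (40 / η * (n : ℝ) ^ 4) ≤ 1 := (mul_le_mul_of_nonneg_left h4 hl0.le).trans hl
    have b : 40 * (n : ℝ) ^ 4 * lam n = η * (lam n * (40 / η * (n : ℝ) ^ 4)) := by field_simp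
    rw [b]; nlinarith
  have hW : ∀ F : Finset (Fin n × Fin n), Wup (rho n) F (allEdges n) 0 +
      Wlo (rho n) F (allEdges n) 0 = 2 * (1 + (allEdges n).card) := by
    intro F
    simp only [Wup, Wlo, mul_zero, neg_zero, Real.exp_zero, one_mul, sub_self]
    ring
  have hE : ((allEdges n).card : ℝ) ≤ (n : ℝ) ^ 2 := by exact_mod_cast card_le_sq (allEdges n)
  have hS : ∑ PP ∈ (univ : Finset (Finset (Fin n) × Finset (Fin n))).erase (∅, ∅),
      lam n ^ (PP.1.card + PP.2.card) = (lam n + 1) ^ (2 * n) - 1 := by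
    rw [← sum_lam, ← Finset.sum_erase_add _ _ (Finset.mem_univ (∅, ∅))]
    simp
  have hP : (lam n + 1) ^ (2 * n) - 1 ≤ 4 * n * lam n := by
    have a : (lam n + 1) ^ (2 * n) ≤ Real.exp (2 * n * lam n) := by
      have := pow_le_pow_left₀ (by linarith) (Real.add_one_le_exp (lam n)) (2 * n)
      rw [← Real.exp_nat_mul] at this
      exact_mod_cast this
    have x0 : 0 ≤ 2 * n * lam n := by positivity
    have b := Real.abs_exp_sub_one_le (x := 2 * n * lam n) (by rwa [abs_of_nonneg x0])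
    rw [abs_of_nonneg x0] at b
    linarith [le_abs_self (Real.exp (2 * n * lam n) - 1)]
  have hV : Vem (allEdges n) 0 ≤ 5 * n * lam n * (2 * (1 + (n : ℝ) ^ 2)) := by
    unfold Vem
    simp only [hW]
    rw [← Finset.sum_mul, ← Finset.sum_mul, hS, Finset.sum_const, Finset.card_univ,
      Fintype.card_fin, nsmul_eq_mul, ← add_mul]
    exact mul_le_mul (by linarith) (by linarith) (by positivity) (by positivity)
  have hn2 : (1 : ℝ) ≤ (n : ℝ) ^ 2 := one_le_pow₀ hn'
  calc ((n : ℝ) + 1) * Vem (allEdges n) 0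
      ≤ (2 * n) * (5 * n * lam n * (2 * (2 * (n : ℝ) ^ 2))) := by
        refine mul_le_mul (by linarith) (hV.trans ?_) (Vem_nonneg _ _) (by positivity)
        exact mul_le_mul_of_nonneg_left (by linarith) (by positivity)
    _ = 40 * (n : ℝ) ^ 4 * lam n := by ring
    _ ≤ η := g4

end Crest.Agent.R30
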