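import Crest.Agent.R30.PhiStep
import Crest.Agent.R30.Params

set_option autoImplicit false

open Finset
open scoped BigOperators Classical
open Crest.CombinatoricsR.TriangleRemoval

namespace Crest.Agent.R30

open Filter

namespace VPhiX

theorem Phi_ge {n q : ℕ} (hq : Even q) {κ p : ℝ} (hκ : 0 ≤ κ) (hp : 0 ≤ p) (G : Gr n)
    (a : Fin n → Fin n → ℝ) : ∑ e ∈ arcs G, a e.1 e.2 ^ q ≤ Phi q κ G p a :=
  le_add_of_nonneg_right (mul_nonneg (by positivity) (sum_nonneg fun _ _ => hq.pow_nonneg _))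

theorem rho_nonneg (n : ℕ) : 0 ≤ rho n := inv_nonneg.2 (sq_nonneg _)

theorem rho_pos {n : ℕ} (hn : 0 < n) : 0 < rho n := inv_pos.2 (pow_pos (zz_pos hn) 2)

theorem Wphi_ge {n q : ℕ} (hq : Even q) {κ C : ℝ} (hκ : 0 ≤ κ) (hC : 0 ≤ C) (G : Gr n) (τ : ℝ) :
    Real.exp (-(q * τ)) * ∑ e ∈ arcs G, rr G (Real.exp (-τ)) e.1 e.2 ^ q ≤ Wphi q κ C G τ := by
  unfold Wphi
  refine le_trans (mul_le_mul_of_nonneg_left (Phi_ge hq hκ (Real.exp_pos (-τ)).le G _)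
    (Real.exp_pos _).le) (le_add_of_nonneg_right (by positivity))

theorem Phi_init {n q : ℕ} (hn : 2 ≤ n) (hq : Even q) {κ : ℝ} (hκ : 0 ≤ κ) :
    Phi q κ (allEdges n) 1 (rr (allEdges n) 1) ≤ (1 + κ) * (n : ℝ) ^ 2 * (2 / n) ^ q := by
  have hn0 : (0 : ℝ) < n := by exact_mod_cast (by omega : 0 < n)
  have hr : ∀ u v, s(u, v) ∈ allEdges n → |rr (allEdges n) 1 u v| ≤ 2 / n := by
    intro u v h
    have huv : u ≠ v := by simpa using mem_allEdges.1 h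
    have e : rr (allEdges n) 1 u v = -(2 / n) := by
      unfold rr mu
      rw [cod_allEdges huv, Nat.cast_sub hn]
      push_cast
      field_simp
      ring
    rw [e, abs_neg, abs_of_nonneg (by positivity)]
  have hs : ∀ w, |sav (allEdges n) 1 (rr (allEdges n) 1) w| ≤ 2 / n := by
    intro w
    unfold sav
    rw [mul_one, abs_mul, abs_of_pos (inv_pos.2 hn0), inv_mul_le_iff₀ hn0]
    refine (abs_sum_le_sum_abs _ _).trans ((sum_le_card_nsmul _ _ (2 / (n : ℝ))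
      fun u hu => hr w u (mem_nb.1 hu)).trans ?_)
    rw [nsmul_eq_mul]
    refine mul_le_mul_of_nonneg_right ?_ (by positivity)
    exact_mod_cast (card_le_univ _).trans (Fintype.card_fin n).le
  have h0 : (0 : ℝ) ≤ (2 / n) ^ q := by positivity
  have h1 : ∑ e ∈ arcs (allEdges n), rr (allEdges n) 1 e.1 e.2 ^ q ≤ (n : ℝ) ^ 2 * (2 / n) ^ q := by
    refine (sum_le_card_nsmul _ _ ((2 / (n : ℝ)) ^ q)
      fun e he => PhiStepX.pow_le_of_abs hq (hr _ _ (mem_arcs.1 he))).trans ?_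
    rw [nsmul_eq_mul]
    exact mul_le_mul_of_nonneg_right (by exact_mod_cast card_arcs_le _) h0
  have h2 : ∑ w, sav (allEdges n) 1 (rr (allEdges n) 1) w ^ q ≤ (n : ℝ) * (2 / n) ^ q := by
    refine (sum_le_card_nsmul _ _ ((2 / (n : ℝ)) ^ q)
      fun w _ => PhiStepX.pow_le_of_abs hq (hs w)).trans ?_
    rw [nsmul_eq_mul, card_univ, Fintype.card_fin]
  have h3 := mul_le_mul_of_nonneg_left h2 (by positivity : 0 ≤ κ * ((n : ℝ) * 1))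
  unfold Phi
  nlinarith

theorem fin (z A η : ℝ) (a b c m : ℕ) (hz : 1 ≤ z) (hm : a * 5 + 1 + (b + c) * (2 * m) ≤ a * m)
    (hA : 0 ≤ A) (h : A ≤ η * z) :
    (z ^ a) ^ 5 * ((z ^ a) ^ m)⁻¹ * A / ((z ^ b)⁻¹ ^ (2 * m) * (z ^ c)⁻¹ ^ (2 * m)) ≤ η := by
  have hz0 : 0 < z := by linarith
  have e : (z ^ a) ^ 5 * ((z ^ a) ^ m)⁻¹ * A / ((z ^ b)⁻¹ ^ (2 * m) * (z ^ c)⁻¹ ^ (2 * m)) =
      (z ^ (a * 5 + 1 + (b + c) * (2 * m)) / z ^ (a * m)) * (A / z) := by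
    rw [← mul_pow, ← mul_inv, ← pow_add, inv_pow, ← pow_mul, ← pow_mul, ← pow_mul, pow_add, pow_add]
    field_simp
  rw [e]
  have h1 : z ^ (a * 5 + 1 + (b + c) * (2 * m)) / z ^ (a * m) ≤ 1 :=
    (div_le_one (by positivity)).2 (pow_le_pow_right₀ hz hm)
  have h2 : A / z ≤ η := (div_le_iff₀ hz0).2 h
  exact (mul_le_of_le_one_left (by positivity) h1).trans h2

theorem init (m : ℕ) (hm : 40000 ≤ m) {κ C : ℝ} (hκ : 1 ≤ κ) (hC : 0 < C) (η : ℝ) (hη : 0 < η) :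
    ∀ᶠ n : ℕ in atTop, ((n : ℝ) + 1) * (Wphi (2 * m) κ C (allEdges n) 0 /
      (Real.exp (-((2 * m : ℕ) * (tau0 n + 1))) * rho n ^ (2 * m))) ≤ η := by
  set A : ℝ := 2 * ((1 + κ) * 2 ^ (2 * m) + C) * Real.exp (2 * m : ℕ) with hA
  have hA0 : 0 ≤ A := by positivity
  filter_upwards [eventually_ge_atTop 2, ev_zz (eventually_ge_atTop (A / η))] with n hn hz
  have hn0 : 0 < n := by omega
  have hn1 : (1 : ℝ) ≤ n := by exact_mod_cast hn0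
  have hq : Even (2 * m) := even_two_mul m
  have hz1 := one_le_zz hn0
  have hf := fin (zz n) A η 6400 3192 2 m hz1 (by omega) hA0
    (by rw [div_le_iff₀ hη] at hz; linarith)
  rw [zz_pow, ← p0_eq hn0] at hf
  refine le_trans ?_ hf
  have e1 : Real.exp (-((2 * m : ℕ) * (tau0 n + 1))) =
      p0 n ^ (2 * m) * (Real.exp (2 * m : ℕ))⁻¹ := by
    unfold p0
    rw [← Real.exp_nat_mul, ← Real.exp_neg, ← Real.exp_add]
    congr 1
    ring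
  have hW : Wphi (2 * m) κ C (allEdges n) 0 ≤
      ((1 + κ) * 2 ^ (2 * m) + C) * ((n : ℝ) ^ 4 * ((n : ℝ) ^ m)⁻¹) := by
    unfold Wphi
    rw [mul_zero, neg_zero, Real.exp_zero, one_mul, Nat.mul_div_cancel_left m (by norm_num : 0 < 2)]
    have h1 := Phi_init hn hq (by linarith : 0 ≤ κ)
    have h2 : ((allEdges n).card : ℝ) ≤ (n : ℝ) ^ 2 := by exact_mod_cast card_le_sq _
    have h3 : ((n : ℝ) ^ (2 * m))⁻¹ ≤ ((n : ℝ) ^ m)⁻¹ :=
      inv_anti₀ (by positivity) (pow_le_pow_right₀ hn1 (by omega))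
    have h4 : (n : ℝ) ^ 2 ≤ (n : ℝ) ^ 4 := pow_le_pow_right₀ hn1 (by norm_num)
    have h5 : (n : ℝ) ^ 2 * ((n : ℝ) ^ (2 * m))⁻¹ ≤ (n : ℝ) ^ 4 * ((n : ℝ) ^ m)⁻¹ :=
      mul_le_mul h4 h3 (by positivity) (by positivity)
    have h6 := mul_le_mul_of_nonneg_left h5 (by positivity : 0 ≤ (1 + κ) * 2 ^ (2 * m))
    have h7 := mul_le_mul_of_nonneg_left h2 (by positivity : 0 ≤ C * (n : ℝ) ^ 2 * ((n : ℝ) ^ m)⁻¹)
    rw [div_pow, div_eq_mul_inv] at h1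
    have e2 : (1 + κ) * (n : ℝ) ^ 2 * (2 ^ (2 * m) * ((n : ℝ) ^ (2 * m))⁻¹) =
        (1 + κ) * 2 ^ (2 * m) * ((n : ℝ) ^ 2 * ((n : ℝ) ^ (2 * m))⁻¹) := by ring
    have e3 : C * (n : ℝ) ^ 2 * ((n : ℝ) ^ m)⁻¹ * (n : ℝ) ^ 2 =
        C * ((n : ℝ) ^ 4 * ((n : ℝ) ^ m)⁻¹) := by ring
    rw [add_mul]
    linarith
  have hp : 0 < p0 n := Real.exp_pos _
  have hρ := rho_pos hn0
  have hE := Real.exp_pos (2 * m : ℕ)
  rw [e1]
  change _ ≤ _ / (p0 n ^ (2 * m) * rho n ^ (2 * m))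
  rw [hA]
  generalize ((1 + κ) * 2 ^ (2 * m) + C) = K at hW ⊢
  have hD : 0 < p0 n ^ (2 * m) * rho n ^ (2 * m) := by positivity
  have hW0 : 0 ≤ Wphi (2 * m) κ C (allEdges n) 0 :=
    le_trans (mul_nonneg (Real.exp_pos _).le (sum_nonneg fun _ _ => hq.pow_nonneg _))
      (Wphi_ge hq (by linarith) hC.le _ _)
  generalize Wphi (2 * m) κ C (allEdges n) 0 = W at hW hW0 ⊢
  have e4 : ((n : ℝ) + 1) * (W / (p0 n ^ (2 * m) * (Real.exp (2 * m : ℕ))⁻¹ * rho n ^ (2 * m))) =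
      ((n : ℝ) + 1) * W * Real.exp (2 * m : ℕ) / (p0 n ^ (2 * m) * rho n ^ (2 * m)) := by
    field_simp
  rw [e4]
  refine div_le_div_of_nonneg_right ?_ hD.le
  have h8 : ((n : ℝ) + 1) * W ≤ (2 * n) * (K * ((n : ℝ) ^ 4 * ((n : ℝ) ^ m)⁻¹)) :=
    mul_le_mul (by linarith) hW hW0 (by positivity)
  refine (mul_le_mul_of_nonneg_right h8 hE.le).trans (le_of_eq ?_)
  ring

set_option maxHeartbeats 200000 in
theorem fail {n q : ℕ} (hn : 0 < n) (hq : Even q) {κ C : ℝ} (hκ : 0 ≤ κ) (hC : 0 ≤ C) {G : Gr n}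
    {τ : ℝ} (hI : τ ≤ tau0 n + 1)
    (h : Wphi q κ C G τ / (Real.exp (-(q * (tau0 n + 1))) * rho n ^ q) < 1) :
    ∀ u v, s(u, v) ∈ G → |rr G (Real.exp (-τ)) u v| ≤ rho n := by
  intro u v huv
  have hρ := rho_pos hn
  rw [div_lt_one (mul_pos (Real.exp_pos _) (pow_pos hρ _))] at h
  have h1 := Wphi_ge hq hκ hC G τ
  have hm : (u, v) ∈ arcs G := mem_arcs.2 huv
  have h2 := single_le_sum (f := fun e : Fin n × Fin n => rr G (Real.exp (-τ)) e.1 e.2 ^ q)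
      (fun _ _ => hq.pow_nonneg _) hm
  simp only at h2
  have h3 : Real.exp (-(q * (tau0 n + 1))) ≤ Real.exp (-(q * τ)) :=
    Real.exp_le_exp.2 (neg_le_neg (mul_le_mul_of_nonneg_left hI (Nat.cast_nonneg _)))
  have h4 := mul_le_mul h3 h2 (hq.pow_nonneg _) (Real.exp_pos _).le
  have h6 := h4.trans_lt (h1.trans_lt h)
  have hE := Real.exp_pos (-(q * (tau0 n + 1)))
  generalize Real.exp (-(q * (tau0 n + 1))) = E at h6 hE
  generalize rr G (Real.exp (-τ)) u v = r at h6 ⊢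
  generalize rho n = ρ at h6 hρ ⊢
  have h5 : r ^ q < ρ ^ q := lt_of_mul_lt_mul_left h6 hE.le
  rw [← hq.pow_abs] at h5
  exact (lt_of_pow_lt_pow_left₀ q hρ.le h5).le

end VPhiX

open VPhiX

theorem Vphi_nonneg {n : ℕ} {κ C : ℝ} (hκ : 1 ≤ κ) (hC : 0 < C) (G : Gr n) (τ : ℝ) :
    0 ≤ Vphi κ C G τ := by
  unfold Vphi
  refine div_nonneg ?_ (mul_nonneg (Real.exp_pos _).le (pow_nonneg (rho_nonneg n) _))
  exact le_trans (mul_nonneg (Real.exp_pos _).le (sum_nonneg fun _ _ => qq_even.pow_nonneg _))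
    (Wphi_ge qq_even (by linarith) hC.le G τ)

theorem Vphi_sup : ∃ κ C : ℝ, 1 ≤ κ ∧ 0 < C ∧ ∀ᶠ n : ℕ in atTop, ∀ (G : Gr n) (τ : ℝ),
    Inv G τ → good G τ → Sup (Vphi κ C) G τ := by
  obtain ⟨κ, δ0, C, hκ, hδ0, hC, h⟩ := phi_step qq qq_even two_le_qq
  refine ⟨κ, C, hκ, hC, ?_⟩
  filter_upwards [eventually_ge_atTop 24, ev_zz (eventually_ge_atTop (8 * δ0⁻¹))]
    with n hn hz G τ hI hg
  have hn0 : 0 < n := by omega
  have hz1 := one_le_zz hn0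
  have hδ1 : 0 < δ0⁻¹ := inv_pos.2 hδ0
  have h1 : del n ≤ δ0 := by
    unfold del
    rw [inv_le_comm₀ (by linarith) hδ0]
    linarith
  have h2 : rho n ≤ del n := inv_anti₀ (by linarith) (le_self_pow₀ hz1 (by norm_num))
  have h3 : δ0⁻¹ ≤ mu n (Real.exp (-τ)) := by
    refine le_trans ?_ (mu_ge_of_le hn0 hI.2.2)
    have : zz n ≤ mu0 n := le_self_pow₀ hz1 (by norm_num)
    linarith
  have h4 := h n G τ (rho n) (del n) hI.2.1 hn hg.1 (rho_nonneg n) (h2.trans h1) h1 h3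
  have h5 := Sup.mul (c := (Real.exp (-(qq * (tau0 n + 1))) * rho n ^ qq)⁻¹)
    (inv_nonneg.2 (mul_nonneg (Real.exp_pos _).le (pow_nonneg (rho_nonneg n) _))) h4
  have e : (Vphi κ C : Gr n → ℝ → ℝ) = fun G τ =>
      (Real.exp (-(qq * (tau0 n + 1))) * rho n ^ qq)⁻¹ * Wphi qq κ C G τ := by
    funext G τ
    unfold Vphi
    rw [div_eq_inv_mul]
  rw [e]
  exact h5

set_option maxHeartbeats 200000 in
theorem Vphi_fail {n : ℕ} (hn : 0 < n) {κ C : ℝ} (hκ : 1 ≤ κ) (hC : 0 < C) {G : Gr n} {τ : ℝ}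
    (hI : Inv G τ) (h : Vphi κ C G τ < 1) :
    ∀ u v, s(u, v) ∈ G → |rr G (Real.exp (-τ)) u v| ≤ rho n := by
  exact fail hn qq_even (by linarith) hC.le hI.2.2 h

theorem Vphi_init {κ C : ℝ} (hκ : 1 ≤ κ) (hC : 0 < C) (η : ℝ) (hη : 0 < η) :
    ∀ᶠ n : ℕ in atTop, ((n : ℝ) + 1) * Vphi κ C (allEdges n) 0 ≤ η := by
  obtain ⟨m, hm, e⟩ : ∃ m, 40000 ≤ m ∧ qq = 2 * m := ⟨40000, le_rfl, qq_eq⟩
  unfold Vphi
  rw [e]
  exact init m hm hκ hC η hη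

end Crest.Agent.R30
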