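import Crest.Agent.R30.SubStep
import Crest.Agent.R30.BadCount
import Crest.Agent.R30.FreshCard
import Crest.Agent.R30.Params

set_option autoImplicit false

open Finset
open scoped BigOperators Classical
open Crest.CombinatoricsR.TriangleRemoval

namespace Crest.Agent.R30

open Filter

theorem vx_Wsub_nonneg {n : ℕ} (ρ : ℝ) (F G : Gr n) (τ : ℝ) : 0 ≤ Wsub ρ F G τ :=
  mul_nonneg (ind_nonneg _) (Real.exp_pos _).le

theorem vx_p0_pos (n : ℕ) : 0 < p0 n := Real.exp_pos _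

theorem vx_mu0_nonneg (n : ℕ) : 0 ≤ mu0 n := pow_nonneg (zz_nonneg n) 16

theorem vx_term_nonneg {n : ℕ} (F G : Gr n) (τ : ℝ) (j N : ℕ) :
    0 ≤ Wsub (rho n) F G τ * (2 * p0 n ^ (j + 2 * N + 1)) /
      (((n : ℝ) ^ 2 * p0 n) ^ j * (3 * mu0 n) ^ N) := by
  have h1 := vx_Wsub_nonneg (rho n) F G τ
  have h2 := vx_p0_pos n
  have h3 := vx_mu0_nonneg n
  positivity

theorem vx_LL_le (n : ℕ) : (LL n : ℝ) ≤ zz n := Nat.floor_le (zz_nonneg n)

theorem vx_np0 {n : ℕ} (hn : 0 < n) : (n : ℝ) * p0 n ^ 2 = mu0 n := mu_tau0 hn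

theorem vx_term_ge {n : ℕ} (hn : 0 < n) (hz : 20 ≤ zz n)
    (hl : Real.log (zz n) ≤ 1 / 319200 * zz n) {F G : Gr n} {τ : ℝ} (hFG : F ⊆ G)
    (hτ : tau0 n ≤ τ) {m : ℕ} (hm : m ≤ F.card) (hm2 : (m : ℝ) ≤ 2 * zz n + 3) :
    1 ≤ Wsub (rho n) F G τ * (2 * p0 n ^ m) := by
  have hz0 : 0 < zz n := by linarith
  have ht0 := tau0_nonneg hn
  have hρ0 : 0 < rho n := by unfold rho; positivity
  have hρz : rho n * zz n ^ 2 = 1 := by unfold rho; field_simp
  have hρ1 : 10 * rho n ≤ 1 := by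
    have : (10 : ℝ) ≤ zz n ^ 2 := by nlinarith
    nlinarith
  have hmF : (m : ℝ) ≤ F.card := by exact_mod_cast hm
  have hm0 : (0 : ℝ) ≤ m := Nat.cast_nonneg m
  have h1 : (m : ℝ) * tau0 n ≤ F.card * τ :=
    mul_le_mul hmF hτ ht0 (Nat.cast_nonneg _)
  have h2 : (1 - 10 * rho n) * (m * tau0 n) ≤ (1 - 10 * rho n) * F.card * τ := by
    rw [mul_assoc]
    exact mul_le_mul_of_nonneg_left h1 (by linarith)
  have h3 : 10 * rho n * (m * tau0 n) ≤ 1 / 2 := by
    have h4 : tau0 n ≤ 1 / 100 * zz n := by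
      rw [tau0_eq hn]; linarith
    have h5 : (m : ℝ) ≤ 5 * zz n := by linarith
    have h6 : (m : ℝ) * tau0 n ≤ (5 * zz n) * (1 / 100 * zz n) :=
      mul_le_mul h5 h4 ht0 (by positivity)
    have h7 : 10 * rho n * (m * tau0 n) ≤ 10 * rho n * ((5 * zz n) * (1 / 100 * zz n)) :=
      mul_le_mul_of_nonneg_left h6 (by positivity)
    have h8 : 10 * rho n * ((5 * zz n) * (1 / 100 * zz n)) = 1 / 2 * (rho n * zz n ^ 2) := by
      ring
    rw [h8, hρz] at h7
    linarith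
  unfold Wsub
  rw [ind_pos hFG, one_mul]
  have hp : p0 n ^ m = Real.exp (-(m * tau0 n)) := by
    unfold p0
    rw [← Real.exp_nat_mul]
    congr 1
    ring
  rw [hp]
  have h9 : Real.exp ((1 - 10 * rho n) * F.card * τ) * (2 * Real.exp (-(m * tau0 n))) =
      2 * Real.exp ((1 - 10 * rho n) * F.card * τ + -(m * tau0 n)) := by
    rw [Real.exp_add]; ring
  rw [h9]
  have h10 := Real.add_one_le_exp ((1 - 10 * rho n) * F.card * τ + -(m * tau0 n))
  nlinarith

theorem vx_block {n : ℕ} (hn : 0 < n) {j : ℕ} (hj : j ≤ 2) (a b i : ℕ) :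
    ∑ R ∈ (allEdges n).powersetCard j, ∑ t ∈ Bad (allEdges n) R a b i,
      Wsub (rho n) (Fplus R t) (allEdges n) 0 * (2 * p0 n ^ (j + 2 * (a + b + i) + 1)) /
        (((n : ℝ) ^ 2 * p0 n) ^ j * (3 * mu0 n) ^ (a + b + i)) ≤
      4 * (4 + 3 * ((a : ℝ) + b + i)) * p0 n := by
  have hn' : (0 : ℝ) < n := by exact_mod_cast hn
  have hp := vx_p0_pos n
  have hm := mu0_pos hn
  set c : ℝ := (2 * p0 n ^ (j + 2 * (a + b + i) + 1)) /
        (((n : ℝ) ^ 2 * p0 n) ^ j * (3 * mu0 n) ^ (a + b + i)) with hc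
  have hc0 : 0 ≤ c := by rw [hc]; positivity
  set B : ℝ := (2 * n) ^ (a + b + i) * (2 * (4 + 3 * ((a : ℝ) + b + i))) with hB
  have hB0 : 0 ≤ B := by rw [hB]; positivity
  have h1 : ∀ R ∈ (allEdges n).powersetCard j, ∑ t ∈ Bad (allEdges n) R a b i,
      Wsub (rho n) (Fplus R t) (allEdges n) 0 * (2 * p0 n ^ (j + 2 * (a + b + i) + 1)) /
        (((n : ℝ) ^ 2 * p0 n) ^ j * (3 * mu0 n) ^ (a + b + i)) ≤ B * c := by
    intro R hR
    obtain ⟨hR1, hR2⟩ := mem_powersetCard.1 hR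
    have hb := bad_card_le' noLoop_allEdges hR1 (by omega) a b i
    calc _ ≤ ∑ t ∈ Bad (allEdges n) R a b i, c := by
          refine sum_le_sum fun t _ => ?_
          have hw : Wsub (rho n) (Fplus R t) (allEdges n) 0 ≤ 1 := by
            unfold Wsub
            rw [mul_zero, Real.exp_zero, mul_one]
            exact ind_le_one _
          rw [mul_div_assoc, ← hc]
          nlinarith
      _ = (Bad (allEdges n) R a b i).card * c := by rw [sum_const, nsmul_eq_mul]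
      _ ≤ B * c := mul_le_mul_of_nonneg_right hb hc0
  have h2 : (((allEdges n).powersetCard j).card : ℝ) ≤ ((n : ℝ) ^ 2) ^ j := by
    rw [card_powersetCard]
    have h3 : ((allEdges n).card).choose j ≤ (n ^ 2) ^ j :=
      (Nat.choose_le_pow _ _).trans (Nat.pow_le_pow_left (card_le_sq _) j)
    exact_mod_cast h3
  calc _ ≤ ∑ R ∈ (allEdges n).powersetCard j, B * c := sum_le_sum h1
    _ = ((allEdges n).powersetCard j).card * (B * c) := by rw [sum_const, nsmul_eq_mul]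
    _ ≤ ((n : ℝ) ^ 2) ^ j * (B * c) := mul_le_mul_of_nonneg_right h2 (mul_nonneg hB0 hc0)
    _ = 4 * (4 + 3 * ((a : ℝ) + b + i)) * p0 n *
          ((2 * (n * p0 n ^ 2)) ^ (a + b + i) / (3 * mu0 n) ^ (a + b + i)) := by
        rw [hB, hc]
        generalize a + b + i = N
        simp only [mul_pow, pow_add, pow_mul, pow_one]
        field_simp
        ring
    _ ≤ 4 * (4 + 3 * ((a : ℝ) + b + i)) * p0 n * 1 := by
        refine mul_le_mul_of_nonneg_left ?_ (by positivity)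
        rw [vx_np0 hn, div_le_one (by positivity)]
        exact pow_le_pow_left₀ (by positivity) (by linarith) _
    _ = _ := mul_one _

theorem Xi_nonneg {n : ℕ} (G : Gr n) (τ : ℝ) : 0 ≤ Xi G τ := by
  unfold Xi
  exact sum_nonneg fun j _ => sum_nonneg fun a _ => sum_nonneg fun b _ => sum_nonneg fun i _ =>
    sum_nonneg fun R _ => sum_nonneg fun t _ => vx_term_nonneg _ _ _ _ _

theorem Xi_sup : ∀ᶠ n : ℕ in atTop, ∀ (G : Gr n) (τ : ℝ), Inv G τ → good G τ → Sup Xi G τ := by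
  filter_upwards [ev_zz (eventually_ge_atTop (20 : ℝ)), eventually_ge_atTop 24]
    with n hz hn G τ hI hg
  have hn0 : 0 < n := by omega
  have hz0 : 0 < zz n := by linarith
  have hρ0 : 0 < rho n := by unfold rho; positivity
  have hρz : rho n * zz n ^ 2 = 1 := by unfold rho; field_simp
  have hρ1 : rho n ≤ 1 / 20 := by
    have : (20 : ℝ) ≤ zz n ^ 2 := by nlinarith
    nlinarith
  have hδ : del n ≤ 1 / 2 := by
    unfold del
    rw [inv_le_comm₀ hz0 (by norm_num)]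
    linarith
  have hμ := mu_ge_of_le hn0 hI.2.2
  have hL := vx_LL_le n
  have hbig : 6 * zz n + 5 ≤ rho n * mu n (Real.exp (-τ)) := by
    have h1 : rho n * (mu0 n / 8) ≤ rho n * mu n (Real.exp (-τ)) :=
      mul_le_mul_of_nonneg_left hμ hρ0.le
    have h2 : rho n * (mu0 n / 8) = (rho n * zz n ^ 2) * zz n ^ 14 / 8 := by
      unfold mu0; ring
    rw [h2, hρz, one_mul] at h1
    have h3 : zz n ^ 3 ≤ zz n ^ 14 := pow_le_pow_right₀ (by linarith) (by norm_num)
    have h4 : (400 : ℝ) ≤ zz n ^ 2 := by nlinarith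
    have h5 : 400 * zz n ≤ zz n ^ 3 := by nlinarith
    linarith
  show Sup (fun G τ => Xi G τ) G τ
  unfold Xi
  refine Sup.sum _ fun j hj => Sup.sum _ fun a ha => Sup.sum _ fun b hb => Sup.sum _ fun i hi =>
    Sup.sum _ fun R hR => Sup.sum _ fun t ht => ?_
  have hj2 : j ≤ 2 := by
    simp only [mem_insert, mem_singleton] at hj
    omega
  obtain ⟨hR1, hR2⟩ := mem_powersetCard.1 hR
  have hF := (fplus_card noLoop_allEdges hR1 (by omega) ht).2.2
  have ha' := mem_range.1 ha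
  have hb' := mem_range.1 hb
  have hi' := mem_range.1 hi
  have hF2 : (Fplus R t).card ≤ 6 * LL n + 5 := by omega
  have hF3 : ((Fplus R t).card : ℝ) ≤ 6 * (LL n : ℝ) + 5 := by exact_mod_cast hF2
  have hs := sub_step hI.2.1 hn hg.1 hρ0 hρ1 hδ (Fplus R t) (by linarith)
  have hc : 0 ≤ (2 * p0 n ^ (j + 2 * (a + b + i) + 1)) /
      (((n : ℝ) ^ 2 * p0 n) ^ j * (3 * mu0 n) ^ (a + b + i)) := by
    have h2 := vx_p0_pos n
    have h3 := vx_mu0_nonneg n
    positivity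
  have hm := Sup.mul hc hs
  have he : (fun (G : Gr n) (τ : ℝ) => Wsub (rho n) (Fplus R t) G τ *
      (2 * p0 n ^ (j + 2 * (a + b + i) + 1)) /
        (((n : ℝ) ^ 2 * p0 n) ^ j * (3 * mu0 n) ^ (a + b + i))) =
      fun (G : Gr n) (τ : ℝ) => (2 * p0 n ^ (j + 2 * (a + b + i) + 1)) /
        (((n : ℝ) ^ 2 * p0 n) ^ j * (3 * mu0 n) ^ (a + b + i)) * Wsub (rho n) (Fplus R t) G τ := by
    funext G τ
    ring
  rw [he]
  exact hm

theorem Xi_sparse : ∀ᶠ n : ℕ in atTop, ∀ (G : Gr n) (τ : ℝ), NoLoop G → tau0 n ≤ τ →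
    Xi G τ ≤ Xi0 n → Sparse G := by
  filter_upwards [ev_zz (eventually_ge_atTop (20 : ℝ)), ev_zz (ev_log (1 / 319200) (by norm_num)),
    eventually_ge_atTop 1] with n hz hl hn G τ hG hτ hX
  have hn0 : 0 < n := by omega
  have hn' : (0 : ℝ) < n := by exact_mod_cast hn0
  have hp := vx_p0_pos n
  have hm := mu0_pos hn0
  have hL := vx_LL_le n
  intro j hj a b i hN
  have hj2 : j ≤ 2 := by
    simp only [mem_insert, mem_singleton] at hj
    omega
  set D : ℝ := ((n : ℝ) ^ 2 * p0 n) ^ j * (3 * mu0 n) ^ (a + b + i) with hD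
  have hD0 : 0 < D := by rw [hD]; positivity
  have hGE := hG.subset_allEdges
  have h1 : ∑ R ∈ (allEdges n).powersetCard j, ∑ t ∈ Bad (allEdges n) R a b i,
      Wsub (rho n) (Fplus R t) G τ * (2 * p0 n ^ (j + 2 * (a + b + i) + 1)) /
        (((n : ℝ) ^ 2 * p0 n) ^ j * (3 * mu0 n) ^ (a + b + i)) ≤ Xi G τ := by
    unfold Xi
    refine le_trans ?_ (single_le_sum (fun j _ => sum_nonneg fun a _ => sum_nonneg fun b _ =>
      sum_nonneg fun i _ => sum_nonneg fun R _ => sum_nonneg fun t _ =>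
        vx_term_nonneg _ _ _ _ _) hj)
    refine le_trans ?_ (single_le_sum (fun a _ => sum_nonneg fun b _ =>
      sum_nonneg fun i _ => sum_nonneg fun R _ => sum_nonneg fun t _ =>
        vx_term_nonneg _ _ _ _ _) (mem_range.2 (show a < LL n + 1 by omega)))
    refine le_trans ?_ (single_le_sum (fun b _ =>
      sum_nonneg fun i _ => sum_nonneg fun R _ => sum_nonneg fun t _ =>
        vx_term_nonneg _ _ _ _ _) (mem_range.2 (show b < LL n + 1 by omega)))
    exact single_le_sum (f := fun i => ∑ R ∈ (allEdges n).powersetCard j,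
      ∑ t ∈ Bad (allEdges n) R a b i,
      Wsub (rho n) (Fplus R t) G τ * (2 * p0 n ^ (j + 2 * (a + b + i) + 1)) /
        (((n : ℝ) ^ 2 * p0 n) ^ j * (3 * mu0 n) ^ (a + b + i)))
      (fun i _ => sum_nonneg fun R _ => sum_nonneg fun t _ =>
        vx_term_nonneg _ _ _ _ _) (mem_range.2 (show i < LL n + 1 by omega))
  have h2 : NB G j a b i / D ≤ ∑ R ∈ (allEdges n).powersetCard j,
      ∑ t ∈ Bad (allEdges n) R a b i,
      Wsub (rho n) (Fplus R t) G τ * (2 * p0 n ^ (j + 2 * (a + b + i) + 1)) /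
        (((n : ℝ) ^ 2 * p0 n) ^ j * (3 * mu0 n) ^ (a + b + i)) := by
    refine le_trans ?_ (sum_le_sum_of_subset_of_nonneg (powersetCard_mono hGE)
      fun R _ _ => sum_nonneg fun t _ => vx_term_nonneg _ _ _ _ _)
    unfold NB
    rw [sum_div]
    refine sum_le_sum fun R hR => ?_
    obtain ⟨hR1, hR2⟩ := mem_powersetCard.1 hR
    refine le_trans ?_ (sum_le_sum_of_subset_of_nonneg (bad_mono hGE R a b i)
      fun t _ _ => vx_term_nonneg _ _ _ _ _)
    have h3 : ((Bad G R a b i).card : ℝ) / D = ∑ t ∈ Bad G R a b i, 1 / D := by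
      rw [sum_const, nsmul_eq_mul]; ring
    rw [h3]
    refine sum_le_sum fun t ht => ?_
    obtain ⟨hF1, hF2, -⟩ := fplus_card hG hR1 (by omega) ht
    rw [← hD]
    refine div_le_div_of_nonneg_right ?_ hD0.le
    refine vx_term_ge hn0 hz hl hF1 hτ (by omega) ?_
    have h4 : j + 2 * (a + b + i) + 1 ≤ 2 * LL n + 3 := by omega
    have h5 : ((j + 2 * (a + b + i) + 1 : ℕ) : ℝ) ≤ 2 * (LL n : ℝ) + 3 := by exact_mod_cast h4
    linarith
  have h6 : NB G j a b i / D ≤ Xi0 n := h2.trans (h1.trans hX)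
  rw [div_le_iff₀ hD0] at h6
  rw [mul_assoc]
  exact h6

theorem Xi_init (η : ℝ) (hη : 0 < η) :
    ∀ᶠ n : ℕ in atTop, (mu0 n + 1) / Xi0 n * Xi (allEdges n) 0 ≤ η := by
  filter_upwards [ev_zz (eventually_ge_atTop (1664 / η)), eventually_ge_atTop 1] with n hz hn
  have hn0 : 0 < n := by omega
  have hz1 := one_le_zz hn0
  have hz0 : 0 < zz n := by linarith
  have hp := vx_p0_pos n
  have hL := vx_LL_le n
  have hL0 : (0 : ℝ) ≤ LL n := Nat.cast_nonneg _
  have h1 : Xi (allEdges n) 0 ≤ 832 * zz n ^ 4 * p0 n := by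
    unfold Xi
    calc _ ≤ ∑ j ∈ ({1, 2} : Finset ℕ), ∑ a ∈ range (LL n + 1), ∑ b ∈ range (LL n + 1),
          ∑ i ∈ range (LL n + 1), 52 * zz n * p0 n := by
          refine sum_le_sum fun j hj => sum_le_sum fun a ha => sum_le_sum fun b hb =>
            sum_le_sum fun i hi => ?_
          have hj2 : j ≤ 2 := by
            simp only [mem_insert, mem_singleton] at hj
            omega
          refine (vx_block hn0 hj2 a b i).trans (mul_le_mul_of_nonneg_right ?_ hp.le)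
          have ha' : (a : ℝ) ≤ LL n := by exact_mod_cast Nat.lt_succ_iff.1 (mem_range.1 ha)
          have hb' : (b : ℝ) ≤ LL n := by exact_mod_cast Nat.lt_succ_iff.1 (mem_range.1 hb)
          have hi' : (i : ℝ) ≤ LL n := by exact_mod_cast Nat.lt_succ_iff.1 (mem_range.1 hi)
          linarith
      _ = 2 * ((LL n : ℝ) + 1) ^ 3 * (52 * zz n * p0 n) := by
          simp only [sum_const, card_range, nsmul_eq_mul]
          rw [card_pair (by norm_num)]
          push_cast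
          ring
      _ ≤ 2 * (2 * zz n) ^ 3 * (52 * zz n * p0 n) := by
          gcongr
          linarith
      _ = _ := by ring
  have h2 : (mu0 n + 1) / Xi0 n ≤ 2 * zz n ^ 16 * zz n ^ 3000 := by
    unfold Xi0 mu0
    rw [div_inv_eq_mul]
    have h3 : 1 ≤ zz n ^ 16 := one_le_pow₀ hz1
    exact mul_le_mul_of_nonneg_right (by linarith) (pow_nonneg hz0.le _)
  have h3 : zz n ^ 3021 ≤ zz n ^ 3192 := pow_le_pow_right₀ hz1 (by norm_num)
  have h4 : zz n ^ 3021 = zz n ^ 16 * zz n ^ 3000 * zz n ^ 4 * zz n := by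
    rw [← pow_add, ← pow_add, ← pow_succ]
  have h5 : 0 < zz n ^ 3192 := pow_pos hz0 _
  have h6 : 0 < zz n ^ 16 * zz n ^ 3000 * zz n ^ 4 :=
    mul_pos (mul_pos (pow_pos hz0 _) (pow_pos hz0 _)) (pow_pos hz0 _)
  have h7 : (mu0 n + 1) / Xi0 n * Xi (allEdges n) 0 ≤
      2 * zz n ^ 16 * zz n ^ 3000 * (832 * zz n ^ 4 * p0 n) :=
    mul_le_mul h2 h1 (Xi_nonneg _ _)
      (mul_nonneg (mul_nonneg (by norm_num) (pow_nonneg hz0.le _)) (pow_nonneg hz0.le _))
  refine h7.trans ?_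
  rw [p0_eq hn0]
  rw [h4] at h3
  rw [div_le_iff₀ hη] at hz
  generalize zz n ^ 3192 = A at h3 h5 ⊢
  generalize zz n ^ 3000 = B at h3 h6 ⊢
  generalize zz n ^ 16 = C at h3 h6 ⊢
  generalize zz n ^ 4 = D at h3 h6 ⊢
  have h8 : 2 * C * B * (832 * D * A⁻¹) = 1664 * (C * B * D) / A := by ring
  rw [h8, div_le_iff₀ h5]
  calc 1664 * (C * B * D) ≤ (zz n * η) * (C * B * D) := mul_le_mul_of_nonneg_right hz h6.le
    _ = η * (C * B * D * zz n) := by ring
    _ ≤ η * A := mul_le_mul_of_nonneg_left h3 hη.le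

end Crest.Agent.R30
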