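import Crest.Agent.R30.FinalAsym
import Crest.Agent.R30.VEm
import Crest.Agent.R30.VPhi
import Crest.Agent.R30.VXi

set_option autoImplicit false

open Finset
open scoped BigOperators Classical
open Crest.CombinatoricsR.TriangleRemoval

namespace Crest.Agent.R30

open Filter

theorem Xi0_pos {n : ℕ} (hn : 0 < n) : 0 < Xi0 n := inv_pos.2 (pow_pos (zz_pos hn) _)

theorem main_bound (η : ℝ) (hη : 0 < η) :
    ∀ᶠ n : ℕ in atTop, val (phi n) (allEdges n) ≤ 4 * η := by
  obtain ⟨κ, C, hκ, hC, hphi⟩ := Vphi_sup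
  filter_upwards [final_asym η hη, Vem_sup, Vem_fail, Vem_init η hη, hphi, Vphi_init hκ hC η hη,
    Xi_sup, Xi_sparse, Xi_init η hη, eventually_ge_atTop 24,
    ev_zz (eventually_ge_atTop (8 : ℝ))] with n hfin hes hef hei hps hpi hxs hxsp hxi hn hz
  have hn0 : 0 < n := by omega
  have hn1 : (0 : ℝ) < (n : ℝ) + 1 := by positivity
  have hm0 := mu0_pos hn0
  have hX0 := Xi0_pos hn0
  have hA2 : 0 ≤ (mu0 n + 1) / Xi0 n := by positivity
  have hz1 : 1 ≤ zz n := by linarith
  have hρ : rho n ≤ 1 / 2 := by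
    unfold rho
    rw [one_div]
    exact inv_anti₀ (by norm_num) (by nlinarith)
  have hδ : del n ≤ 1 / 2 := by
    unfold del
    rw [one_div]
    exact inv_anti₀ (by norm_num) (by linarith)
  have hm8 : 8 ≤ mu0 n := by
    unfold mu0
    exact hz.trans (le_self_pow₀ hz1 (by norm_num))
  have hxsle : ∀ (G : Gr n) (τ : ℝ), Inv G τ → good G τ →
      0 < Q G ∧ 0 ≤ xs G τ ∧ xs G τ ≤ 1 := by
    intro G τ hI hg
    have hp1 : Real.exp (-τ) ≤ 1 := Real.exp_le_one_iff.2 (by linarith [hI.2.1])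
    obtain ⟨h1, h2⟩ := Reg.xs_le hg.1 (Real.exp_pos _) hp1 hρ hδ hn
    have h3 := mu_ge_of_le hn0 hI.2.2
    have h4 : 1 ≤ mu n (Real.exp (-τ)) := by linarith
    refine ⟨h1, div_nonneg (by linarith) (Nat.cast_nonneg _), h2.trans (inv_le_one_of_one_le₀ h4)⟩
  have key := stop (phi n) good Inv
    (fun G τ => η + (((n : ℝ) + 1) * Vem G τ + ((n : ℝ) + 1) * Vphi κ C G τ +
      (mu0 n + 1) / Xi0 n * Xi G τ))
    (fun G τ hI => hI.1) (fun G τ hI hg => (hxsle G τ hI hg).1)
    (fun G τ hI hg T _ => by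
      obtain ⟨_, h2, h3⟩ := hxsle G τ hI hg
      exact ⟨hI.1.rem T, by linarith [hI.2.1], by linarith [hg.2]⟩)
    (fun G τ hI hg =>
      (Sup.const (hxsle G τ hI hg).1 τ η).add
        (((Sup.mul hn1.le (hes G τ hI hg)).add (Sup.mul hn1.le (hps G τ hI hg))).add
          (Sup.mul hA2 (hxs G τ hI hg))))
    (fun G τ hI hg => by
      have e0 := Vem_nonneg G τ
      have p0' := Vphi_nonneg hκ hC G τ
      have x0 := Xi_nonneg G τ
      have t1 := mul_nonneg hn1.le e0
      have t2 := mul_nonneg hn1.le p0'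
      have t3 := mul_nonneg hA2 x0
      have hcrude : val (phi n) G ≤ n + 1 :=
        val_le _ fun k hk => phi_le hn0 (hk.trans (card_le_sq G))
      by_cases h1 : Vem G τ < 1
      · by_cases h2 : Vphi κ C G τ < 1
        · have hreg : RegN G τ :=
            ⟨hI.1, (hef G τ hI h1).1, Vphi_fail hn0 hκ hC hI h2, (hef G τ hI h1).2⟩
          have hτ : tau0 n ≤ τ := by
            by_contra hlt
            exact hg ⟨hreg, not_le.1 hlt⟩
          by_cases h3 : Xi G τ ≤ Xi0 n
          · have := hfin G τ hτ hI.2.2 hreg (hxsp G τ hI.1 hτ h3)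
            linarith
          · have h4 : val (phi n) G ≤ mu0 n + 1 :=
              val_le _ fun k hk => phi_le_reg hn0 hreg hτ hk
            have h5 : (mu0 n + 1) / Xi0 n * Xi0 n ≤ (mu0 n + 1) / Xi0 n * Xi G τ :=
              mul_le_mul_of_nonneg_left (not_le.1 h3).le hA2
            rw [div_mul_cancel₀ _ hX0.ne'] at h5
            linarith
        · have h5 : ((n : ℝ) + 1) * 1 ≤ ((n : ℝ) + 1) * Vphi κ C G τ :=
            mul_le_mul_of_nonneg_left (not_lt.1 h2) hn1.le
          linarith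
      · have h5 : ((n : ℝ) + 1) * 1 ≤ ((n : ℝ) + 1) * Vem G τ :=
          mul_le_mul_of_nonneg_left (not_lt.1 h1) hn1.le
        linarith)
    (allEdges n) 0 ⟨noLoop_allEdges, le_rfl, by linarith [tau0_nonneg hn0]⟩
  linarith

theorem main_tendsto : Tendsto (fun n : ℕ => val (phi n) (allEdges n)) atTop (nhds 0) := by
  rw [Metric.tendsto_atTop]
  intro ε hε
  obtain ⟨N, hN⟩ := eventually_atTop.1 (main_bound (ε / 8) (by positivity))
  refine ⟨N, fun n hn => ?_⟩
  have h0 := val_nonneg (phi n) (allEdges n) (phi_nonneg n)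
  have h1 := hN n hn
  rw [Real.dist_eq, sub_zero, abs_of_nonneg h0]
  linarith

end Crest.Agent.R30
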