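import Crest.Agent.R30.DriftS
import Crest.Agent.R30.Lyap

set_option autoImplicit false

open Finset
open scoped BigOperators Classical
open Crest.CombinatoricsR.TriangleRemoval

namespace Crest.Agent.R30

namespace PhiStepX

variable {n : ℕ}

theorem avg_phi {q : ℕ} (hq : Even q) {κ p p' : ℝ} (hκ : 0 ≤ κ) (hp : p' ≤ p) (G : Gr n) :
    avgT G (fun T => Phi q κ (rem G T) p' (rr (rem G T) p')) ≤
      ∑ e ∈ arcs G, (Q G : ℝ)⁻¹ * ∑ T ∈ (triangles G).filter (fun T => s(e.1, e.2) ∉ T.sym2),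
          rr (rem G T) p' e.1 e.2 ^ q +
        κ * ((n : ℝ) * p) * ∑ w, (Q G : ℝ)⁻¹ * ∑ T ∈ triangles G,
          sav (rem G T) p' (rr (rem G T) p') w ^ q := by
  unfold Phi
  rw [avgT_add, avgT_mul, avgT_sum]
  refine add_le_add (le_of_eq ?_) ?_
  · have e : ∀ T, arcs (rem G T) = (arcs G).filter fun e => s(e.1, e.2) ∉ T.sym2 := fun T => by
      ext e
      simp only [mem_arcs, mem_rem, mem_filter]
    unfold avgT
    simp only [e, sum_filter]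
    rw [sum_comm, mul_sum]
  · refine mul_le_mul_of_nonneg_right
      (mul_le_mul_of_nonneg_left (mul_le_mul_of_nonneg_left hp (Nat.cast_nonneg _)) hκ) ?_
    exact sum_nonneg fun w _ => mul_nonneg (by positivity)
      (sum_nonneg fun T _ => hq.pow_nonneg _)

theorem sav_abs {q : ℕ} (hq : Even q) (hq2 : 2 ≤ q) {G : Gr n} {p ρ δ : ℝ} (h : Reg G p ρ δ)
    (hd : 0 < (n : ℝ) * p) (hδ : δ ≤ 1 / 2) (a : Fin n → Fin n → ℝ) :
    (n : ℝ) * p * ∑ w, sav G p (fun u v => |a u v|) w ^ q ≤ 2 ^ q * ∑ e ∈ arcs G, a e.1 e.2 ^ q := by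
  rw [sum_arcs G fun u v => a u v ^ q, mul_sum, mul_sum]
  refine sum_le_sum fun w _ => ?_
  set d := (n : ℝ) * p with hdd
  have h1 := pow_sum_le q hq hq2 (nb G w) fun u => |a w u|
  simp only [hq.pow_abs] at h1
  have h2 : ((nb G w).card : ℝ) ≤ 2 * d := by
    have := (abs_le.1 (h.deg w)).2
    nlinarith
  have h3 : ((nb G w).card : ℝ) ^ (q - 1) ≤ (2 * d) ^ (q - 1) :=
    pow_le_pow_left₀ (Nat.cast_nonneg _) h2 _
  have h4 : 0 ≤ ∑ u ∈ nb G w, a w u ^ q := sum_nonneg fun u _ => hq.pow_nonneg _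
  obtain ⟨k, rfl⟩ : ∃ k, q = k + 1 := ⟨q - 1, by omega⟩
  simp only [Nat.add_sub_cancel] at h1 h3
  unfold sav
  rw [← hdd, mul_pow]
  have h5 := h1.trans (mul_le_mul_of_nonneg_right h3 h4)
  calc d * (d⁻¹ ^ (k + 1) * (∑ u ∈ nb G w, |a w u|) ^ (k + 1))
      ≤ d * (d⁻¹ ^ (k + 1) * ((2 * d) ^ k * ∑ u ∈ nb G w, a w u ^ (k + 1))) := by gcongr
    _ = 2 ^ k * ∑ u ∈ nb G w, a w u ^ (k + 1) := by
        rw [mul_pow, inv_pow]
        field_simp
        ring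
    _ ≤ _ := mul_le_mul_of_nonneg_right (pow_le_pow_right₀ (by norm_num) (by omega)) h4

theorem pow_le_of_abs {q : ℕ} (hq : Even q) {f b : ℝ} (h : |f| ≤ b) : f ^ q ≤ b ^ q := by
  rw [← hq.pow_abs]
  exact pow_le_pow_left₀ (abs_nonneg _) h _

theorem add_pow_le {q : ℕ} {a b : ℝ} (ha : 0 ≤ a) (hb : 0 ≤ b) :
    (a + b) ^ q ≤ 2 ^ q * (a ^ q + b ^ q) := by
  have h1 : (a + b) ^ q ≤ (2 * max a b) ^ q :=
    pow_le_pow_left₀ (by positivity) (by linarith [le_max_left a b, le_max_right a b]) _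
  rw [mul_pow] at h1
  refine h1.trans (mul_le_mul_of_nonneg_left ?_ (by positivity))
  have := pow_nonneg ha q
  have := pow_nonneg hb q
  rcases le_total a b with h | h
  · rw [max_eq_right h]; linarith
  · rw [max_eq_left h]; linarith

theorem div_bound {m x B c : ℝ} (hx : 0 < x) (h : |m + x * B| ≤ x * c) : |m / x + B| ≤ c := by
  have e : m / x + B = (m + x * B) / x := by field_simp
  rw [e, abs_div, abs_of_pos hx, div_le_iff₀ hx]
  linarith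

/-- the one-step bound for `Phi` -/
theorem core (q : ℕ) (hq : Even q) (hq2 : 2 ≤ q) :
    ∃ κ δ0 C : ℝ, 1 ≤ κ ∧ 0 < δ0 ∧ δ0 ≤ 1 / 2 ∧ 0 < C ∧ ∀ (n : ℕ) (G : Gr n) (τ ρ δ : ℝ),
      0 ≤ τ → 24 ≤ n → Reg G (Real.exp (-τ)) ρ δ → 0 ≤ ρ → ρ ≤ δ0 → δ ≤ δ0 →
      δ0⁻¹ ≤ mu n (Real.exp (-τ)) →
      avgT G (fun T => Phi q κ (rem G T) (Real.exp (-(τ + xs G τ)))
          (rr (rem G T) (Real.exp (-(τ + xs G τ))))) ≤
        (1 + q * xs G τ) * Phi q κ G (Real.exp (-τ)) (rr G (Real.exp (-τ))) +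
          xs G τ * (C * (n : ℝ) ^ 2 * (mu n (Real.exp (-τ)))⁻¹ ^ (q / 2)) := by
  obtain ⟨κ, δL, CL, hκ, hδL, hδL2, hCL, hL⟩ := lyap q hq hq2 (1 / 4) (by norm_num)
  obtain ⟨CE, hCE, hE⟩ := drift_e
  obtain ⟨CS, hCS, hS⟩ := drift_s
  obtain ⟨CM, hCM, hM⟩ := moment_step q hq hq2 1 one_pos
  set C1 := max CE CS with hC1
  have hC1a : CE ≤ C1 := le_max_left _ _
  have hC1b : CS ≤ C1 := le_max_right _ _
  have hC10 : 0 < C1 := by linarith
  have hκ0 : 0 < κ := by linarith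
  have hqR : (2 : ℝ) ≤ q := by exact_mod_cast hq2
  refine ⟨κ, min (min δL (1 / 10)) (min C1⁻¹ (1 / (4 * CL * κ * 2 ^ q * 2 ^ q))),
    (CM * (1 + κ) + q * (CL * (1 + κ * 2 ^ q))) * C1 ^ (q / 2), hκ, by positivity,
    ((min_le_left _ _).trans (min_le_left _ _)).trans hδL2, by positivity, ?_⟩
  intro n G τ ρ δ hτ hn hR hρ0 hρ hδ hμ
  set δ0 := min (min δL (1 / 10)) (min C1⁻¹ (1 / (4 * CL * κ * 2 ^ q * 2 ^ q))) with hδ0
  have d0 : 0 < δ0 := by positivity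
  have d1 : δ0 ≤ δL := (min_le_left _ _).trans (min_le_left _ _)
  have d2 : δ0 ≤ 1 / 10 := (min_le_left _ _).trans (min_le_right _ _)
  have d3 : δ0 ≤ C1⁻¹ := (min_le_right _ _).trans (min_le_left _ _)
  have d4 : δ0 ≤ 1 / (4 * CL * κ * 2 ^ q * 2 ^ q) := (min_le_right _ _).trans (min_le_right _ _)
  set p := Real.exp (-τ) with hp
  set μ := mu n p with hμd
  have hp0 : 0 < p := Real.exp_pos _
  have hp1 : p ≤ 1 := Real.exp_le_one_iff.2 (by linarith)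
  have hμ10 : 10 ≤ μ := le_trans (by
    rw [le_inv_comm₀ (by norm_num) d0]; linarith) hμ
  have hμ0 : 0 < μ := by linarith
  have hμC : C1 ≤ μ := le_trans (by rw [le_inv_comm₀ hC10 d0]; exact d3) hμ
  have hn0 : (0 : ℝ) < n := by exact_mod_cast (by omega : 0 < n)
  obtain ⟨hQ, -⟩ := hR.xs_le hp0 hp1 (by linarith) (by linarith) hn
  have hQ0 : (0 : ℝ) < Q G := by exact_mod_cast hQ
  set x := xs G τ with hx
  have hx0 : 0 < x := div_pos hμ0 hQ0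
  set p' := Real.exp (-(τ + x)) with hp'
  have hpp : p' ≤ p := Real.exp_le_exp.2 (by linarith)
  set ε := C1 / μ with hε
  have hε0 : 0 < ε := by positivity
  have hε1 : ε ≤ 1 := (div_le_one hμ0).2 hμC
  have hεE : CE / μ ≤ ε := div_le_div_of_nonneg_right hC1a hμ0.le
  have hεS : CS / μ ≤ ε := div_le_div_of_nonneg_right hC1b hμ0.le
  set σ := Real.sqrt ε with hσ
  have hσ0 : 0 ≤ σ := Real.sqrt_nonneg _
  have hσ2 : σ ^ 2 = ε := Real.sq_sqrt hε0.le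
  have hεσ : ε ≤ σ := Real.le_sqrt_of_sq_le (by nlinarith)
  have hσq : σ ^ q = ε ^ (q / 2) := by
    rw [← hσ2, ← pow_mul, Nat.two_mul_div_two_of_even hq]
  have hεq : ε ^ q ≤ ε ^ (q / 2) := pow_le_pow_of_le_one hε0.le hε1 (Nat.div_le_self _ _)
  set r := rr G p with hr
  have hE' := hE n G τ ρ δ hτ hn hR (by linarith) (by linarith) hμ10
  have hS' := hS n G τ ρ δ hτ hn hR (by linarith) (by linarith) hμ10
  simp only [← hx, ← hp, ← hp', ← hμd, ← hr] at hE' hS'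
  set mE : Fin n → Fin n → ℝ := fun u v => (Q G : ℝ)⁻¹ *
    ∑ T ∈ (triangles G).filter (fun T => s(u, v) ∉ T.sym2), (rr (rem G T) p' u v - r u v) with hmE
  set mS : Fin n → ℝ := fun w => (Q G : ℝ)⁻¹ *
    ∑ T ∈ triangles G, (sav (rem G T) p' (rr (rem G T) p') w - sav G p r w) with hmS
  set f : Fin n → Fin n → ℝ := fun u v => mE u v / x + Bop G p r u v with hf
  set f' : Fin n → ℝ := fun w => mS w / x + sav G p (Bop G p r) w with hf'
  have c0 : (0 : ℝ) ≤ (Q G : ℝ)⁻¹ := by positivity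
  have c1 : ∀ S ⊆ triangles G, (Q G : ℝ)⁻¹ * S.card ≤ 1 := fun S hS => by
    rw [inv_mul_le_iff₀ hQ0, mul_one]
    exact_mod_cast card_le_card hS
  have A1 : ∀ e ∈ arcs G, (Q G : ℝ)⁻¹ *
      ∑ T ∈ (triangles G).filter (fun T => s(e.1, e.2) ∉ T.sym2), rr (rem G T) p' e.1 e.2 ^ q ≤
      r e.1 e.2 ^ q + q * x * (r e.1 e.2 ^ (q - 1) * (-Bop G p r e.1 e.2 + f e.1 e.2)) +
        x * r e.1 e.2 ^ q + x * (CM * ε ^ (q / 2)) := by
    intro e he
    obtain ⟨-, b2, b3⟩ := hE' e.1 e.2 (mem_arcs.1 he)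
    have := hM _ _ (Q G : ℝ)⁻¹ (r e.1 e.2) x σ (fun T => rr (rem G T) p' e.1 e.2 - r e.1 e.2) c0
      (c1 _ (filter_subset _ _)) hx0.le hσ0 (fun T hT => ((b3 T hT).trans hεE).trans hεσ)
      (b2.trans (by rw [hσ2]; exact mul_le_mul_of_nonneg_left hεE hx0.le))
    simp only [add_sub_cancel, hσq] at this
    refine this.trans (le_of_eq ?_)
    simp only [hf, hmE]
    field_simp
    ring
  have A2 : ∀ w, (Q G : ℝ)⁻¹ * ∑ T ∈ triangles G, sav (rem G T) p' (rr (rem G T) p') w ^ q ≤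
      sav G p r w ^ q + q * x * (sav G p r w ^ (q - 1) * (-sav G p (Bop G p r) w + f' w)) +
        x * sav G p r w ^ q + x * (CM * ε ^ (q / 2)) := by
    intro w
    obtain ⟨-, b2, b3⟩ := hS' w
    have := hM _ _ (Q G : ℝ)⁻¹ (sav G p r w) x σ
      (fun T => sav (rem G T) p' (rr (rem G T) p') w - sav G p r w) c0
      (c1 _ subset_rfl) hx0.le hσ0 (fun T hT => ((b3 T hT).trans hεS).trans hεσ)
      (b2.trans (by rw [hσ2]; exact mul_le_mul_of_nonneg_left hεS hx0.le))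
    simp only [add_sub_cancel, hσq] at this
    refine this.trans (le_of_eq ?_)
    simp only [hf', hmS]
    field_simp
    ring
  have hd0 : 0 < (n : ℝ) * p := by positivity
  have harcs : ((arcs G).card : ℝ) ≤ (n : ℝ) ^ 2 := by exact_mod_cast card_arcs_le G
  have hdn : (n : ℝ) * p * n ≤ (n : ℝ) ^ 2 := by nlinarith [mul_pos hn0 hn0]
  have hη0 : 0 ≤ ε ^ (q / 2) := by positivity
  have B1 : ∑ e ∈ arcs G, f e.1 e.2 ^ q ≤ (n : ℝ) ^ 2 * ε ^ (q / 2) := by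
    refine (sum_le_card_nsmul _ _ (ε ^ (q / 2)) fun e he => ?_).trans ?_
    · exact (pow_le_of_abs hq ((div_bound hx0 (hE' e.1 e.2 (mem_arcs.1 he)).1).trans hεE)).trans hεq
    · rw [nsmul_eq_mul]
      exact mul_le_mul_of_nonneg_right harcs hη0
  have R0 : 0 ≤ ∑ e ∈ arcs G, r e.1 e.2 ^ q := sum_nonneg fun e _ => hq.pow_nonneg _
  have S0 : 0 ≤ ∑ w, sav G p r w ^ q := sum_nonneg fun e _ => hq.pow_nonneg _
  have B2 : (n : ℝ) * p * ∑ w, f' w ^ q ≤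
      2 ^ q * (δ0 * (2 ^ q * ∑ e ∈ arcs G, r e.1 e.2 ^ q) + (n : ℝ) ^ 2 * ε ^ (q / 2)) := by
    have hρq : ρ ^ q ≤ δ0 := (pow_le_of_le_one hρ0 (by linarith) (by omega)).trans hρ
    have g0 : ∀ w, 0 ≤ sav G p (fun a b => |r a b|) w := fun w =>
      mul_nonneg (by positivity) (sum_nonneg fun u _ => abs_nonneg _)
    have g1 : ∀ w, f' w ^ q ≤ 2 ^ q * (δ0 * sav G p (fun a b => |r a b|) w ^ q + ε ^ (q / 2)) := by
      intro w
      refine (pow_le_of_abs hq ((div_bound hx0 (hS' w).1).trans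
        (add_le_add_right hεS _))).trans ((add_pow_le (mul_nonneg hρ0 (g0 w)) hε0.le).trans ?_)
      rw [mul_pow]
      have := pow_nonneg (g0 w) q
      gcongr
    have g2 := sum_le_sum fun w (_ : w ∈ (univ : Finset (Fin n))) => g1 w
    rw [← mul_sum, sum_add_distrib, ← mul_sum, sum_const, card_univ, Fintype.card_fin,
      nsmul_eq_mul] at g2
    have g3 := sav_abs hq hq2 hR hd0 (by linarith) r
    refine (mul_le_mul_of_nonneg_left g2 hd0.le).trans ?_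
    rw [mul_left_comm]
    refine mul_le_mul_of_nonneg_left ?_ (by positivity)
    have g4 := mul_le_mul_of_nonneg_left g3 d0.le
    have g5 := mul_le_mul_of_nonneg_right hdn hη0
    linarith
  have hL' := hL n G p ρ δ hp0 hR (hρ.trans d1) (hδ.trans d1) r f f'
  have s1 := sum_le_sum A1
  have s2 := sum_le_sum fun w (_ : w ∈ (univ : Finset (Fin n))) => A2 w
  simp only [sum_add_distrib, ← mul_sum, sum_const, card_univ, Fintype.card_fin,
    nsmul_eq_mul] at s1 s2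
  have main := avg_phi (p := p) (p' := p') hq hκ0.le hpp G
  simp only [← mul_sum] at main
  have hPhi : Phi q κ G p r = ∑ e ∈ arcs G, r e.1 e.2 ^ q + κ * (n * p) * ∑ w, sav G p r w ^ q := rfl
  rw [hPhi] at hL' ⊢
  set R := ∑ e ∈ arcs G, r e.1 e.2 ^ q
  set S := ∑ w, sav G p r w ^ q
  set L1 := ∑ e ∈ arcs G, r e.1 e.2 ^ (q - 1) * (-Bop G p r e.1 e.2 + f e.1 e.2)
  set L2 := ∑ w, sav G p r w ^ (q - 1) * (-sav G p (Bop G p r) w + f' w)
  set F1 := ∑ e ∈ arcs G, f e.1 e.2 ^ q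
  set F2 := ∑ w, f' w ^ q
  set η := ε ^ (q / 2) with hη
  set d := (n : ℝ) * p
  have e1 : C1 ^ (q / 2) * μ⁻¹ ^ (q / 2) = η := by rw [hη, hε, div_eq_mul_inv, mul_pow]
  have t1 : CL * (κ * (2 ^ q * (δ0 * (2 ^ q * R)))) ≤ 1 / 4 * R := by
    rw [le_div_iff₀ (by positivity)] at d4
    have := mul_le_mul_of_nonneg_right d4 R0
    linarith
  have hκS : 0 ≤ κ * d * S := by positivity
  have t2 : L1 + κ * d * L2 ≤ 1 / 2 * (R + κ * d * S) +
      CL * (1 + κ * 2 ^ q) * ((n : ℝ) ^ 2 * η) := by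
    have u1 := mul_le_mul_of_nonneg_left B2 hκ0.le
    have u2 : F1 + κ * d * F2 ≤ (n : ℝ) ^ 2 * η +
        κ * (2 ^ q * (δ0 * (2 ^ q * R) + (n : ℝ) ^ 2 * η)) := by linarith
    have u3 := mul_le_mul_of_nonneg_left u2 hCL.le
    linarith
  have t3 := mul_le_mul_of_nonneg_left t2 (by positivity : 0 ≤ q * x)
  have t4 := mul_le_mul_of_nonneg_left s2 (by positivity : 0 ≤ κ * d)
  have t5 := mul_le_mul_of_nonneg_right harcs (by positivity : 0 ≤ x * (CM * η))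
  have t6 := mul_le_mul_of_nonneg_right hdn (by positivity : 0 ≤ κ * (x * (CM * η)))
  have t7 := mul_le_mul_of_nonneg_right hqR (by positivity : 0 ≤ x * (R + κ * d * S))
  have e2 : x * ((CM * (1 + κ) + q * (CL * (1 + κ * 2 ^ q))) * C1 ^ (q / 2) * (n : ℝ) ^ 2 *
      μ⁻¹ ^ (q / 2)) = x * ((CM * (1 + κ) + q * (CL * (1 + κ * 2 ^ q))) * ((n : ℝ) ^ 2 * η)) := by
    rw [← e1]
    ring
  rw [e2]
  linarith

end PhiStepX

/-- `Wphi` is a supermartingale in regular states. -/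
theorem phi_step (q : ℕ) (hq : Even q) (hq2 : 2 ≤ q) :
    ∃ κ δ0 C : ℝ, 1 ≤ κ ∧ 0 < δ0 ∧ 0 < C ∧ ∀ (n : ℕ) (G : Gr n) (τ ρ δ : ℝ), 0 ≤ τ → 24 ≤ n →
      Reg G (Real.exp (-τ)) ρ δ → 0 ≤ ρ → ρ ≤ δ0 → δ ≤ δ0 → δ0⁻¹ ≤ mu n (Real.exp (-τ)) →
      Sup (Wphi q κ C) G τ := by
  obtain ⟨κ, δ0, C, hκ, hδ0, hδ1, hC, h⟩ := PhiStepX.core q hq hq2
  refine ⟨κ, δ0, C, hκ, hδ0, hC, fun n G τ ρ δ hτ hn hR hρ0 hρ hδ hμ => ?_⟩
  have h1 := h n G τ ρ δ hτ hn hR hρ0 hρ hδ hμ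
  have hp0 : 0 < Real.exp (-τ) := Real.exp_pos _
  have hp1 : Real.exp (-τ) ≤ 1 := Real.exp_le_one_iff.2 (by linarith)
  obtain ⟨hQ, hx1⟩ := hR.xs_le hp0 hp1 (by linarith) (by linarith) hn
  have hn0 : (0 : ℝ) < n := by exact_mod_cast (by omega : 0 < n)
  have hμ1 : 1 ≤ mu n (Real.exp (-τ)) := le_trans (by
    rw [le_inv_comm₀ (by norm_num) hδ0]; linarith) hμ
  have hx0 : 0 ≤ xs G τ := div_nonneg (by linarith) (Nat.cast_nonneg _)
  have hx : xs G τ ≤ 1 := hx1.trans (inv_le_one_of_one_le₀ hμ1)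
  unfold Sup Wphi
  rw [avgT_add, avgT_mul, avgT_mul, avgT_card_rem hR.noloop hQ]
  set x := xs G τ
  set Φ := Phi q κ G (Real.exp (-τ)) (rr G (Real.exp (-τ))) with hΦ
  have hΦ0 : 0 ≤ Φ := add_nonneg (sum_nonneg fun e _ => hq.pow_nonneg _)
    (mul_nonneg (by positivity) (sum_nonneg fun e _ => hq.pow_nonneg _))
  have e1 : Real.exp (-(q * (τ + x))) = Real.exp (-(q * τ)) * Real.exp (-(q * x)) := by
    rw [← Real.exp_add]
    congr 1
    ring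
  have e2 : Real.exp (-(q * x)) * (1 + q * x) ≤ 1 := by
    rw [Real.exp_neg, inv_mul_le_iff₀ (Real.exp_pos _)]
    linarith [Real.add_one_le_exp (q * x)]
  have e3 : Real.exp (-(q * x)) ≤ 1 := Real.exp_le_one_iff.2 (by
    have : 0 ≤ q * x := by positivity
    linarith)
  have e4 : Real.exp (-(q * τ)) * (mu n (Real.exp (-τ)))⁻¹ ^ (q / 2) = ((n : ℝ) ^ (q / 2))⁻¹ := by
    have : Real.exp (-(q * τ)) = (Real.exp (-τ) ^ 2) ^ (q / 2) := by
      rw [← pow_mul, Nat.two_mul_div_two_of_even hq, ← Real.exp_nat_mul]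
      congr 1
      ring
    rw [this, ← mul_pow, ← inv_pow]
    congr 1
    unfold mu
    field_simp
  have hE := Real.exp_pos (-(q * τ))
  have hE' := Real.exp_pos (-(q * x))
  have hA : 0 ≤ C * (n : ℝ) ^ 2 * ((n : ℝ) ^ (q / 2))⁻¹ := by positivity
  have h2 := mul_le_mul_of_nonneg_left h1 (mul_pos hE hE').le
  have h3 := mul_le_mul_of_nonneg_right e2 (mul_nonneg hE.le hΦ0)
  have h4 : Real.exp (-(q * x)) * x ≤ 1 := mul_le_one₀ e3 hx0 hx
  have h5 := mul_le_mul_of_nonneg_right h4 hA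
  have h6 : Real.exp (-(q * τ)) * Real.exp (-(q * x)) *
      (x * (C * (n : ℝ) ^ 2 * (mu n (Real.exp (-τ)))⁻¹ ^ (q / 2))) =
      Real.exp (-(q * x)) * x * (C * (n : ℝ) ^ 2 * ((n : ℝ) ^ (q / 2))⁻¹) := by
    rw [← e4]
    ring
  rw [e1]
  rw [mul_add, h6] at h2
  linarith

end Crest.Agent.R30
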