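import Crest.Agent.R30.Basic

set_option autoImplicit false

open Finset
open scoped BigOperators Classical
open Crest.CombinatoricsR.TriangleRemoval

namespace Crest.Agent.R30

variable {n : ℕ}

namespace PullX

theorem mem_kd {G R : Gr n} {l : List (St n)} {c : St n} :
    c ∈ kd G R l ↔ c.1 ∈ fr R l ∧ c.2 ∈ triangles G ∧ c.1 ∈ c.2.sym2 ∧ c.2 ≠ prj l := by
  simp only [kd, mem_filter, mem_univ, true_and]

theorem tb_gen (G R : Gr n) (K : ℕ) (ω : Finset (Fin n) → Fin K) (k : ℕ) :
    ∀ l : List (St n), l.length + k ≤ K + 1 → (l ≠ [] → k ≤ ω (prj l)) →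
      (tb (kd G R) (lab (ω ∘ fun i : Nd (St n) K => prj i.1)) k l ↔
        ∀ f ∈ fr R l, alive G (fun T => (ω T : ℕ)) k f) := by
  induction k using Nat.strong_induction_on with
  | _ k ih =>
    intro l hl hk
    have hlab : ∀ c : St n, 0 < k →
        lab (ω ∘ fun i : Nd (St n) K => prj i.1) (c :: l) = (ω c.2 : ℕ) := by
      intro c h0
      have : (c :: l).length ≤ K + 1 := by rw [List.length_cons]; omega
      simp only [lab, dif_pos this]
      rfl
    have hrec : ∀ c : St n, (ω c.2 : ℕ) < k →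
        (tb (kd G R) (lab (ω ∘ fun i : Nd (St n) K => prj i.1)) (ω c.2 : ℕ) (c :: l) ↔
          ∀ f ∈ (tE c.2).erase c.1, alive G (fun T => (ω T : ℕ)) (ω c.2 : ℕ) f) := by
      intro c hc
      exact ih _ hc (c :: l) (by rw [List.length_cons]; omega) (fun _ => le_rfl)
    rw [tb_iff]
    constructor
    · intro h f hf
      rw [alive_iff]
      intro T hT hfT hlt
      have hne : T ≠ prj l := by
        rintro rfl
        by_cases hl0 : l = []
        · subst hl0
          have := (mem_triangles_iff.1 hT).1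
          simp [prj] at this
        · have := hk hl0
          omega
      have hc : ((f, T) : St n) ∈ kd G R l := mem_kd.2 ⟨hf, hT, hfT, hne⟩
      have h1 := h (f, T) hc
      rw [hlab (f, T) (by omega)] at h1
      have h2 := h1 hlt
      rw [hrec (f, T) hlt] at h2
      exact h2
    · intro h c hc hlt
      have h0 : 0 < k := by omega
      rw [hlab c h0] at hlt ⊢
      rw [hrec c hlt]
      obtain ⟨h1, h2, h3, -⟩ := mem_kd.1 hc
      have h4 := h c.1 h1
      rw [alive_iff] at h4
      exact h4 c.2 h2 h3 hlt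

end PullX

/-- the real recursion is the tree recursion for pulled-back labels -/
theorem tb_pull (G R : Gr n) (K : ℕ) (ω : Finset (Fin n) → Fin K) :
    tb (kd G R) (lab (ω ∘ fun i : Nd (St n) K => prj i.1)) K [] ↔
      ∀ f ∈ R, alive G (fun T => (ω T : ℕ)) K f := by
  exact PullX.tb_gen G R K ω K [] (by simp) (fun h => absurd rfl h)

theorem tβ_eq_uu (G R : Gr n) (K k : ℕ) (l : List (St n)) :
    tβ (kd G R) K k l = ∏ f ∈ fr R l, uu G K k f (prj l) := by
  induction k using Nat.strong_induction_on generalizing l with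
  | _ k ih =>
    rw [tβ_eq, Finset.prod_finset_product (kd G R l) (fr R l)
      (fun f => (triangles G).filter (fun T => f ∈ T.sym2 ∧ T ≠ prj l))
      (fun c => by rw [PullX.mem_kd, mem_filter])]
    apply Finset.prod_congr rfl
    intro f _
    rw [uu_eq]
    apply Finset.prod_congr rfl
    intro T _
    congr 2
    apply Finset.sum_congr rfl
    intro j hj
    rw [ih j (mem_range.1 hj)]
    rfl

section ext
variable {σ : Type} [DecidableEq σ]

theorem mem_ext_succ {kids : List σ → Finset σ} {l0 l : List σ} {b : ℕ} :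
    l ∈ ext kids l0 (b + 1) ↔ ∃ c l', l = c :: l' ∧ l' ∈ ext kids l0 b ∧ c ∈ kids l' := by
  simp only [ext, mem_biUnion, mem_image]
  constructor
  · rintro ⟨l', h1, c, h2, rfl⟩
    exact ⟨c, l', rfl, h1, h2⟩
  · rintro ⟨c, l', rfl, h1, h2⟩
    exact ⟨l', h1, c, h2, rfl⟩

theorem length_of_mem_ext {kids : List σ → Finset σ} {l0 l : List σ} {b : ℕ}
    (h : l ∈ ext kids l0 b) : l.length = l0.length + b := by
  induction b generalizing l with
  | zero => simp only [ext, mem_singleton] at h; simp [h]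
  | succ b ih =>
    obtain ⟨c, l', rfl, h1, -⟩ := mem_ext_succ.1 h
    rw [List.length_cons, ih h1, add_assoc]

theorem suffix_of_mem_ext {kids : List σ → Finset σ} {l0 l : List σ} {b : ℕ}
    (h : l ∈ ext kids l0 b) : l0 <:+ l := by
  induction b generalizing l with
  | zero => simp only [ext, mem_singleton] at h; rw [h]
  | succ b ih =>
    obtain ⟨c, l', rfl, h1, -⟩ := mem_ext_succ.1 h
    exact (ih h1).trans (List.suffix_cons c l')

theorem ext_trans {kids : List σ → Finset σ} {l0 l1 l2 : List σ} {a b : ℕ}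
    (h1 : l1 ∈ ext kids l0 a) (h2 : l2 ∈ ext kids l1 b) : l2 ∈ ext kids l0 (a + b) := by
  induction b generalizing l2 with
  | zero => simp only [ext, mem_singleton] at h2; rw [h2]; exact h1
  | succ b ih =>
    obtain ⟨c, l', rfl, h3, h4⟩ := mem_ext_succ.1 h2
    rw [← add_assoc]
    exact mem_ext_succ.2 ⟨c, l', rfl, ih h3, h4⟩

theorem valid_nil (kids : List σ → Finset σ) : Valid kids [] := by
  simp [Valid, ext]

theorem valid_cons {kids : List σ → Finset σ} {c : σ} {l : List σ} :
    Valid kids (c :: l) ↔ Valid kids l ∧ c ∈ kids l := by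
  unfold Valid
  rw [List.length_cons, mem_ext_succ]
  constructor
  · rintro ⟨c', l', h, h1, h2⟩
    obtain ⟨rfl, rfl⟩ := List.cons.inj h
    exact ⟨h1, h2⟩
  · rintro ⟨h1, h2⟩
    exact ⟨c, l, rfl, h1, h2⟩

theorem valid_of_mem_ext {kids : List σ → Finset σ} {l0 l : List σ} {b : ℕ}
    (h0 : Valid kids l0) (h : l ∈ ext kids l0 b) : Valid kids l := by
  unfold Valid
  rw [length_of_mem_ext h]
  exact ext_trans h0 h

theorem Valid.mem_ext {kids : List σ → Finset σ} {l0 l : List σ} (h : Valid kids l)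
    (hs : l0 <:+ l) : Valid kids l0 ∧ l ∈ ext kids l0 (l.length - l0.length) := by
  induction l with
  | nil =>
    obtain rfl := List.suffix_nil.1 hs
    exact ⟨h, by simp [ext]⟩
  | cons c l ih =>
    rcases List.suffix_cons_iff.1 hs with rfl | hs'
    · exact ⟨h, by simp [ext]⟩
    · obtain ⟨h1, h2⟩ := valid_cons.1 h
      obtain ⟨h3, h4⟩ := ih h1 hs'
      refine ⟨h3, ?_⟩
      have := hs'.length_le
      rw [List.length_cons, show l.length + 1 - l0.length = (l.length - l0.length) + 1 by omega]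
      exact mem_ext_succ.2 ⟨c, l, rfl, h4, h2⟩

theorem Act.valid {kids : List σ → Finset σ} {K : ℕ} {lb : List σ → ℕ} {l : List σ}
    (h : Act kids K lb l) : Valid kids l := by
  induction l with
  | nil => exact valid_nil kids
  | cons c l ih => exact valid_cons.2 ⟨ih h.1, h.2.1⟩

theorem card_ext_le {kids : List σ → Finset σ} {D : ℝ} (hD : 0 ≤ D)
    (hk : ∀ l, Valid kids l → ((kids l).card : ℝ) ≤ D) {l0 : List σ} (h0 : Valid kids l0)
    (b : ℕ) : ((ext kids l0 b).card : ℝ) ≤ D ^ b := by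
  induction b with
  | zero => simp [ext]
  | succ b ih =>
    have h1 : (ext kids l0 (b + 1)).card ≤ ∑ l' ∈ ext kids l0 b, (kids l').card :=
      Finset.card_biUnion_le.trans (Finset.sum_le_sum fun _ _ => Finset.card_image_le)
    calc ((ext kids l0 (b + 1)).card : ℝ) ≤ ∑ l' ∈ ext kids l0 b, ((kids l').card : ℝ) := by
          exact_mod_cast h1
      _ ≤ ∑ _l' ∈ ext kids l0 b, D :=
          Finset.sum_le_sum fun l' hl' => hk l' (valid_of_mem_ext h0 hl')
      _ = (ext kids l0 b).card * D := by rw [Finset.sum_const, nsmul_eq_mul]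
      _ ≤ D ^ b * D := mul_le_mul_of_nonneg_right ih hD
      _ = D ^ (b + 1) := (pow_succ D b).symm

theorem mem_sufs {l l' : List σ} : l' ∈ sufs l ↔ l' <:+ l := by
  simp [sufs]

end ext

/-- frontier of a valid node -/
theorem fr_valid {G R : Gr n} (hR : R ⊆ G) (hR2 : R.card ≤ 2) {l : List (St n)} (hG : NoLoop G)
    (h : Valid (kd G R) l) : fr R l ⊆ G ∧ (fr R l).card ≤ 2 ∧ (l ≠ [] → (fr R l).card = 2) := by
  induction l with
  | nil => exact ⟨hR, hR2, fun h => absurd rfl h⟩
  | cons c l ih =>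
    obtain ⟨h1, h2⟩ := valid_cons.1 h
    obtain ⟨h3, h4, h5, -⟩ := PullX.mem_kd.1 h2
    obtain ⟨h6, h7⟩ := mem_triangles_iff.1 h4
    have h8 : c.1 ∈ tE c.2 := mem_tE.2 ⟨h5, hG _ ((ih h1).1 h3)⟩
    have h9 : (fr R (c :: l)).card = 2 := by
      show ((tE c.2).erase c.1).card = 2
      rw [Finset.card_erase_of_mem h8, card_tE h6]
    exact ⟨(Finset.erase_subset _ _).trans h7, h9.le, fun _ => h9⟩

theorem kd_card_le {G R : Gr n} (hG : NoLoop G) (hR : R ⊆ G) (hR2 : R.card ≤ 2) {Δ : ℝ}
    (hΔ0 : 0 ≤ Δ) (hΔ : ∀ u v, s(u, v) ∈ G → (cod G u v : ℝ) ≤ Δ) {l : List (St n)}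
    (h : Valid (kd G R) l) : ((kd G R l).card : ℝ) ≤ 2 * Δ := by
  obtain ⟨h1, h2, -⟩ := fr_valid hR hR2 hG h
  have h3 : kd G R l ⊆ (fr R l).biUnion fun f =>
      ((triangles G).filter (fun T => f ∈ T.sym2)).image fun T => ((f, T) : St n) := by
    intro c hc
    obtain ⟨h4, h5, h6, -⟩ := PullX.mem_kd.1 hc
    exact mem_biUnion.2 ⟨c.1, h4, mem_image.2 ⟨c.2, mem_filter.2 ⟨h5, h6⟩, rfl⟩⟩
  have h4 : (kd G R l).card ≤ ∑ f ∈ fr R l, ((triangles G).filter (fun T => f ∈ T.sym2)).card :=
    (Finset.card_le_card h3).trans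
      (Finset.card_biUnion_le.trans (Finset.sum_le_sum fun _ _ => Finset.card_image_le))
  have h5 : ∀ f ∈ fr R l, (((triangles G).filter (fun T => f ∈ T.sym2)).card : ℝ) ≤ Δ := by
    intro f hf
    have hf' := h1 hf
    induction f using Sym2.ind with
    | _ u v => rw [card_tri_mem hG hf']; exact hΔ u v hf'
  calc ((kd G R l).card : ℝ)
      ≤ ∑ f ∈ fr R l, (((triangles G).filter (fun T => f ∈ T.sym2)).card : ℝ) := by
        exact_mod_cast h4
    _ ≤ ∑ _f ∈ fr R l, Δ := Finset.sum_le_sum h5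
    _ = (fr R l).card * Δ := by rw [Finset.sum_const, nsmul_eq_mul]
    _ ≤ 2 * Δ := mul_le_mul_of_nonneg_right (by exact_mod_cast h2) hΔ0

end Crest.Agent.R30
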