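import Crest.Agent.R30.Val

set_option autoImplicit false

open Finset
open scoped BigOperators Classical
open Crest.CombinatoricsR.TriangleRemoval

namespace Crest.Agent.R30

variable {n : ℕ}

/-- Bonferroni bound for the number of triangles through a set of edges -/
theorem hit_lower {G : Gr n} (hG : NoLoop G) {c : ℝ}
    (hc : ∀ e ∈ G, c ≤ ((triangles G).filter fun T => e ∈ T.sym2).card) (F : Gr n) (hF : F ⊆ G) :
    (F.card : ℝ) * c - (F.card : ℝ) ^ 2 ≤
      ((triangles G).filter fun T => ∃ e ∈ F, e ∈ T.sym2).card := by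
  induction F using Finset.induction_on with
  | empty => simp
  | insert e F he ih =>
    have h1 := ih ((subset_insert _ _).trans hF)
    have heG := hF (mem_insert_self e F)
    have h2 := hc e heG
    have e1 : ((triangles G).filter fun T => ∃ e' ∈ insert e F, e' ∈ T.sym2) =
        ((triangles G).filter fun T => e ∈ T.sym2) ∪
          (triangles G).filter fun T => ∃ e' ∈ F, e' ∈ T.sym2 := by
      ext T
      simp only [mem_filter, mem_union, mem_insert, exists_eq_or_imp]
      tauto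
    have h3 : (((triangles G).filter fun T => e ∈ T.sym2) ∩
        (triangles G).filter fun T => ∃ e' ∈ F, e' ∈ T.sym2).card ≤ F.card * 1 := by
      refine le_trans (card_le_card (t := F.biUnion fun e' =>
        (triangles G).filter fun T => e ∈ T.sym2 ∧ e' ∈ T.sym2) fun T hT => ?_)
        (card_biUnion_le_card_mul _ _ _ fun e' he' => card_le_one.2 fun T hT T' hT' => ?_)
      · simp only [mem_inter, mem_filter, mem_biUnion] at hT ⊢
        obtain ⟨a1, _, e', a2, a3⟩ := hT
        exact ⟨e', a2, a1.1, a1.2, a3⟩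
      · simp only [mem_filter] at hT hT'
        have d1 := hG e heG
        have d2 := hG e' (hF (mem_insert_of_mem he'))
        exact tri_unique (mem_triangles_iff.1 hT.1).1 (mem_triangles_iff.1 hT'.1).1
          (f := e) (g := e') (fun h => he (h ▸ he')) (mem_tE.2 ⟨hT.2.1, d1⟩)
          (mem_tE.2 ⟨hT.2.2, d2⟩) (mem_tE.2 ⟨hT'.2.1, d1⟩) (mem_tE.2 ⟨hT'.2.2, d2⟩)
    have h4 := card_union_add_card_inter ((triangles G).filter fun T => e ∈ T.sym2)
      ((triangles G).filter fun T => ∃ e' ∈ F, e' ∈ T.sym2)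
    rw [e1, card_insert_of_notMem he]
    have h5 := (Nat.cast_le (α := ℝ)).2 h3
    have h6 := congrArg (Nat.cast (R := ℝ)) h4
    have h7 : (0 : ℝ) ≤ F.card := Nat.cast_nonneg _
    push_cast at h5 h6 ⊢
    nlinarith

theorem sub_step {G : Gr n} {τ ρ δ : ℝ} (hτ : 0 ≤ τ) (hn : 24 ≤ n)
    (h : Reg G (Real.exp (-τ)) ρ δ) (hρ : 0 < ρ) (hρ1 : ρ ≤ 1 / 20) (hδ : δ ≤ 1 / 2)
    (F : Gr n) (hF : (F.card : ℝ) ≤ ρ * mu n (Real.exp (-τ))) :
    Sup (Wsub ρ F) G τ := by
  unfold Sup avgT Wsub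
  by_cases hFG : F ⊆ G
  swap
  · rw [ind_neg hFG, zero_mul, sum_eq_zero, mul_zero]
    intro T _
    rw [ind_neg fun hh => hFG (hh.trans sdiff_subset), zero_mul]
  have hp := Real.exp_pos (-τ)
  have hQ : (0 : ℝ) < Q G := by
    exact_mod_cast (h.xs_le hp (Real.exp_le_one_iff.2 (by linarith)) (by linarith) hδ hn).1
  have hμ : 0 ≤ mu n (Real.exp (-τ)) := by unfold mu; positivity
  have h1 := hit_lower h.noloop (c := (1 - ρ) * mu n (Real.exp (-τ))) (fun e he => by
    induction e using Sym2.ind with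
    | _ u v => rw [card_tri_mem h.noloop he]; exact (h.cod_le hp he).1) F hFG
  have h2 : ∑ T ∈ triangles G, ind (F ⊆ rem G T) ≤
      (Q G : ℝ) - ((triangles G).filter fun T => ∃ e ∈ F, e ∈ T.sym2).card := by
    rw [Q, card_filter, card_eq_sum_ones]
    push_cast
    rw [← sum_sub_distrib]
    refine sum_le_sum fun T _ => ?_
    split_ifs with hh
    · obtain ⟨e, a1, a2⟩ := hh
      rw [ind_neg fun hs => (mem_rem.1 (hs a1)).2 a2, sub_self]
    · rw [sub_zero]; exact ind_le_one _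
  rw [ind_pos hFG, one_mul, ← sum_mul, mul_add, Real.exp_add, xs]
  generalize (∑ T ∈ triangles G, ind (F ⊆ rem G T)) = N at h2
  generalize (((triangles G).filter fun T => ∃ e ∈ F, e ∈ T.sym2).card : ℝ) = H at h1 h2
  generalize mu n (Real.exp (-τ)) = μ at *
  have hk : (0 : ℝ) ≤ F.card := Nat.cast_nonneg _
  generalize (F.card : ℝ) = k at *
  generalize (Q G : ℝ) = Q at *
  have h3 : N ≤ Q - (1 - 10 * ρ) * k * μ := by
    have := mul_le_mul_of_nonneg_left hF hk
    have := mul_nonneg (mul_nonneg hρ.le hk) hμ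
    nlinarith
  have h4 : Q⁻¹ * N ≤ Real.exp (-((1 - 10 * ρ) * k * (μ / Q))) :=
    calc _ ≤ Q⁻¹ * (Q - (1 - 10 * ρ) * k * μ) := mul_le_mul_of_nonneg_left h3 (inv_pos.2 hQ).le
      _ = -((1 - 10 * ρ) * k * (μ / Q)) + 1 := by field_simp; ring
      _ ≤ _ := Real.add_one_le_exp _
  calc _ = Q⁻¹ * N * Real.exp ((1 - 10 * ρ) * k * (μ / Q)) * Real.exp ((1 - 10 * ρ) * k * τ) := by
        ring
    _ ≤ Real.exp (-((1 - 10 * ρ) * k * (μ / Q))) * Real.exp ((1 - 10 * ρ) * k * (μ / Q)) *
        Real.exp ((1 - 10 * ρ) * k * τ) := by gcongr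
    _ = _ := by rw [← Real.exp_add, neg_add_cancel, Real.exp_zero, one_mul]

end Crest.Agent.R30
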