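import Crest.Agent.R30.Defs

set_option autoImplicit false

open Finset
open scoped BigOperators Classical
open Crest.CombinatoricsR.TriangleRemoval

namespace Crest.Agent.R30

theorem tau_eq_sum (μ : ℝ) (K k : ℕ) :
    tau μ K k = ∑ j ∈ range k, μ * Real.exp (-(2 * tau μ K j)) / K := by
  induction k with
  | zero => simp [tau]
  | succ k ih => rw [sum_range_succ, ← ih, tau]

theorem tau_nonneg {μ : ℝ} (hμ : 0 ≤ μ) (K k : ℕ) : 0 ≤ tau μ K k := by
  rw [tau_eq_sum]
  exact sum_nonneg fun _ _ => by positivity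

theorem tau_mono {μ : ℝ} (hμ : 0 ≤ μ) (K : ℕ) {j k : ℕ} (h : j ≤ k) : tau μ K j ≤ tau μ K k := by
  rw [tau_eq_sum μ K j, tau_eq_sum μ K k]
  exact sum_le_sum_of_subset_of_nonneg (range_mono h) fun _ _ _ => by positivity

theorem TauX.step {μ : ℝ} (hμ : 0 ≤ μ) {K : ℕ} (hK : 0 < K) (h : 2 * μ ≤ K) (k : ℕ) :
    1 + k * (2 * (μ / K)) ≤ Real.exp (2 * tau μ K k) ∧
      Real.exp (2 * tau μ K k) ≤ 1 + k * (2 * (μ / K) + 4 * (μ / K) ^ 2) := by
  have hK' : (0 : ℝ) < K := Nat.cast_pos.2 hK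
  have hy0 : 0 ≤ μ / K := by positivity
  have hy1 : 2 * (μ / K) ≤ 1 := by rw [← mul_div_assoc, div_le_one hK']; exact h
  induction k with
  | zero => simp [tau]
  | succ k ih =>
    obtain ⟨h1, h2⟩ := ih
    have hE1 : 1 ≤ Real.exp (2 * tau μ K k) := Real.one_le_exp (by have := tau_nonneg hμ K k; linarith)
    have e : Real.exp (2 * tau μ K (k + 1)) = Real.exp (2 * tau μ K k) *
        Real.exp (2 * (μ / K) / Real.exp (2 * tau μ K k)) := by
      rw [← Real.exp_add, tau, Real.exp_neg]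
      congr 1
      field_simp
    rw [e]
    set E := Real.exp (2 * tau μ K k)
    set y := μ / K
    have hE0 : 0 < E := by linarith
    set x := 2 * y / E with hx
    have hxE : E * x = 2 * y := by rw [hx]; field_simp
    have hx0 : 0 ≤ x := by positivity
    have hx1 : x ≤ 2 * y := div_le_self (by linarith) hE1
    have l1 := Real.add_one_le_exp x
    have l2 := (abs_le.1 (Real.abs_exp_sub_one_sub_id_le (x := x)
      (by rw [abs_of_nonneg hx0]; linarith))).2
    push_cast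
    constructor
    · have := mul_le_mul_of_nonneg_left l1 hE0.le
      linarith
    · have a1 : E * Real.exp x ≤ E * (1 + x + x ^ 2) :=
        mul_le_mul_of_nonneg_left (by linarith) hE0.le
      have a2 : E * x ^ 2 = 2 * y * x := by rw [← hxE]; ring
      have a3 : 2 * y * x ≤ 2 * y * (2 * y) := mul_le_mul_of_nonneg_left hx1 (by linarith)
      linarith

theorem tau_final {μ : ℝ} (hμ : 0 ≤ μ) {K : ℕ} (hK : 0 < K) (h : 2 * μ ≤ K) :
    1 + 2 * μ ≤ Real.exp (2 * tau μ K K) ∧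
      Real.exp (2 * tau μ K K) ≤ 1 + 2 * μ + 4 * μ ^ 2 / K := by
  have hK' : (0 : ℝ) < K := Nat.cast_pos.2 hK
  obtain ⟨h1, h2⟩ := TauX.step hμ hK h K
  refine ⟨le_trans (le_of_eq ?_) h1, h2.trans (le_of_eq ?_)⟩ <;> field_simp
  ring

end Crest.Agent.R30
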