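import Crest.Agent.R30.Defs

set_option autoImplicit false

open Finset
open scoped BigOperators Classical
open Crest.CombinatoricsR.TriangleRemoval

namespace Crest.Agent.R30

variable {σ : Type} [Fintype σ] [DecidableEq σ]

omit [Fintype σ] [DecidableEq σ] in
theorem tb_mono (kids : List σ → Finset σ) (lb : List σ → ℕ) {j k : ℕ} (hjk : j ≤ k)
    {l : List σ} (h : tb kids lb k l) : tb kids lb j l := by
  rw [tb_iff] at h ⊢
  exact fun c hc hj => h c hc (hj.trans_le hjk)

omit [Fintype σ] [DecidableEq σ] in
theorem Act.length_add_hor_le {kids : List σ → Finset σ} {K : ℕ} {lb : List σ → ℕ} {l : List σ}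
    (h : Act kids K lb l) : l.length + hor K lb l ≤ K := by
  induction l with
  | nil => simp [hor]
  | cons c l ih =>
      have h1 := ih h.1
      have h2 := h.2.2.1
      simp only [List.length_cons, hor] at h1 h2 ⊢
      omega

omit [Fintype σ] [DecidableEq σ] in
theorem Act.of_suffix {kids : List σ → Finset σ} {K : ℕ} {lb : List σ → ℕ} {l l' : List σ}
    (h : Act kids K lb l) (hs : l' <:+ l) : Act kids K lb l' := by
  obtain ⟨t, rfl⟩ := hs
  induction t with
  | nil => exact h
  | cons c t ih => exact ih h.1

namespace TreeStopX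

omit [Fintype σ] [DecidableEq σ] in
theorem tb_agree {kids : List σ → Finset σ} {K : ℕ} {lb lb' : List σ → ℕ}
    (hA : ∀ l c, Act kids K lb l → c ∈ kids l → lb' (c :: l) = lb (c :: l)) (k : ℕ) :
    ∀ l, Act kids K lb l → k ≤ hor K lb l → (tb kids lb' k l ↔ tb kids lb k l) := by
  induction k using Nat.strong_induction_on with
  | _ k ih =>
    intro l hl hk
    by_cases hc : ∀ j < k, tb kids lb j l
    · rw [tb_iff kids lb', tb_iff kids lb]
      refine forall₂_congr fun c hcl => ?_
      rw [hA l c hl hcl]
      refine forall_congr' fun hj => not_congr ?_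
      exact ih _ hj (c :: l) ⟨hl, hcl, hj.trans_le hk, hc _ hj⟩ le_rfl
    · push Not at hc
      obtain ⟨j, hj, hn⟩ := hc
      exact iff_of_false
        (fun h => hn ((ih j hj l hl (hj.le.trans hk)).1 (tb_mono _ _ hj.le h)))
        fun h => hn (tb_mono _ _ hj.le h)

omit [Fintype σ] [DecidableEq σ] in
theorem act_agree {kids : List σ → Finset σ} {K : ℕ} {lb lb' : List σ → ℕ}
    (hA : ∀ l c, Act kids K lb l → c ∈ kids l → lb' (c :: l) = lb (c :: l)) (l : List σ) :
    Act kids K lb' l ↔ Act kids K lb l := by
  induction l with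
  | nil => rfl
  | cons c l ih =>
      simp only [Act]
      rw [ih]
      refine and_congr_right fun hl => and_congr_right fun hc => ?_
      have e : hor K lb' l = hor K lb l := by
        cases l with
        | nil => rfl
        | cons c' l' => exact hA l' c' hl.1 hl.2.1
      rw [hA l c hl hc, e]
      exact and_congr_right fun hj => tb_agree hA _ l hl hj.le

end TreeStopX

/-- `Rset` is a stopping set that determines the root event. -/
theorem tree_stop (kids : List σ → Finset σ) (K : ℕ) (ω ω' : Nd σ K → Fin K)
    (h : ∀ i ∈ Rset kids ω, ω' i = ω i) :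
    Rset kids ω' = Rset kids ω ∧ (tb kids (lab ω') K [] ↔ tb kids (lab ω) K []) := by
  have hA : ∀ l c, Act kids K (lab ω) l → c ∈ kids l → lab ω' (c :: l) = lab ω (c :: l) := by
    intro l c hl hc
    have h1 : (c :: l).length ≤ K + 1 := by
      have := hl.length_add_hor_le
      simp only [List.length_cons]
      omega
    unfold lab
    rw [dif_pos h1, dif_pos h1, h ⟨c :: l, h1⟩ (mem_filter.2 ⟨mem_univ _, c, l, rfl, hl, hc⟩)]
  refine ⟨?_, TreeStopX.tb_agree hA K [] trivial le_rfl⟩
  unfold Rset
  simp only [TreeStopX.act_agree hA]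

end Crest.Agent.R30
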