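import Crest.Agent.R30.TreeProd
import Crest.Agent.R30.TreeStop
import Crest.Agent.R30.Pull

set_option autoImplicit false

open Finset
open scoped BigOperators Classical
open Crest.CombinatoricsR.TriangleRemoval

namespace Crest.Agent.R30

variable {σ : Type} [Fintype σ] [DecidableEq σ]

namespace TPX

omit [Fintype σ] [DecidableEq σ] in
theorem suf_eq {r r' i : List σ} (h : r <:+ i) (h' : r' <:+ i) (hl : r.length = r'.length) :
    r = r' :=
  (List.suffix_of_suffix_length_le h h' hl.le).eq_of_length hl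

omit [Fintype σ] [DecidableEq σ] in
theorem tb_congr (kids : List σ → Finset σ) (lb lb' : List σ → ℕ) (k : ℕ) :
    ∀ l : List σ, (∀ i, l <:+ i → i ≠ l → lb i = lb' i) →
      (tb kids lb k l ↔ tb kids lb' k l) := by
  induction k using Nat.strong_induction_on with
  | _ k ih =>
    intro l h
    rw [tb_iff, tb_iff]
    refine forall_congr' fun c => forall_congr' fun _ => ?_
    have hc : lb (c :: l) = lb' (c :: l) :=
      h _ (List.suffix_cons c l) (List.cons_ne_self c l)
    rw [← hc]
    refine forall_congr' fun hk => not_congr (ih _ hk _ ?_)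
    intro i hi _
    refine h i ((List.suffix_cons c l).trans hi) ?_
    rintro rfl
    have := hi.length_le
    simp at this

/-- acceptance of the node `c :: l` before time `j` -/
def acc (kids : List σ → Finset σ) (lb : List σ → ℕ) (l : List σ) (c : σ) (j : ℕ) : Prop :=
  lb (c :: l) < j ∧ tb kids lb (lb (c :: l)) (c :: l)

omit [Fintype σ] [DecidableEq σ] in
theorem acc_congr (kids : List σ → Finset σ) (lb lb' : List σ → ℕ) (l : List σ) (c : σ) (j : ℕ)
    (h : ∀ i, c :: l <:+ i → lb i = lb' i) : acc kids lb l c j ↔ acc kids lb' l c j := by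
  unfold acc
  rw [← h _ (List.suffix_refl _), tb_congr kids lb lb' _ _ fun i hi _ => h i hi]

/-- no sibling of `c` is accepted before time `j` -/
def side (kids : List σ → Finset σ) (lb : List σ → ℕ) (l : List σ) (c : σ) (j : ℕ) : Prop :=
  ∀ c' ∈ (kids l).erase c, ¬ acc kids lb l c' j

omit [Fintype σ] in
theorem side_congr (kids : List σ → Finset σ) (lb lb' : List σ → ℕ) (l : List σ) (c : σ) (j : ℕ)
    (h : ∀ c', c' ≠ c → ∀ i, c' :: l <:+ i → lb i = lb' i) :
    side kids lb l c j ↔ side kids lb' l c j := by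
  unfold side
  refine forall_congr' fun c' => forall_congr' fun hc' => not_congr ?_
  exact acc_congr kids lb lb' l c' j (h c' (Finset.ne_of_mem_erase hc'))

/-- the chain event below depth `m + 1` -/
def Ch (kids : List σ → Finset σ) (K m : ℕ) (lb : List σ → ℕ) : List σ → Prop
  | [] => True
  | c :: l => l.length ≤ m ∨ (Ch kids K m lb l ∧ lb (c :: l) < lb l ∧
      side kids lb l c (lb (c :: l)) ∧ l.length + 1 + lb (c :: l) ≤ K)

omit [Fintype σ] in
theorem ch_of_act {kids : List σ → Finset σ} {K : ℕ} (m : ℕ) {lb : List σ → ℕ} :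
    ∀ {l : List σ}, Act kids K lb l → Ch kids K m lb l
  | [], _ => trivial
  | c :: l, h => by
    by_cases hl : l.length ≤ m
    · exact Or.inl hl
    · right
      have h' := h.length_add_hor_le
      obtain ⟨h1, _, h3, h4⟩ := h
      refine ⟨ch_of_act m h1, ?_, ?_, ?_⟩
      · cases l with
        | nil => simp at hl
        | cons c' l' => exact h3
      · intro c' hc' ha
        exact (tb_iff _ _ _ _).1 h4 c' (Finset.mem_of_mem_erase hc') ha.1 ha.2
      · simpa [hor] using h'

omit [Fintype σ] in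
theorem ch_congrA (kids : List σ → Finset σ) (K m : ℕ) (lb lb' : List σ → ℕ) :
    ∀ l : List σ, (∀ i, ¬ (l <:+ i ∧ i ≠ l) → lb i = lb' i) →
      (Ch kids K m lb l ↔ Ch kids K m lb' l)
  | [], _ => Iff.rfl
  | c :: l, h => by
    have h1 : lb (c :: l) = lb' (c :: l) := h _ (by simp)
    have h2 : lb l = lb' l := h _ (by
      rintro ⟨hs, _⟩
      have := hs.length_le
      simp at this)
    have h3 := ch_congrA kids K m lb lb' l (fun i hi => h i (by
      rintro ⟨hs, _⟩
      refine hi ⟨(List.suffix_cons c l).trans hs, ?_⟩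
      rintro rfl
      have := hs.length_le
      simp at this))
    have h4 := side_congr kids lb lb' l c (lb (c :: l)) (fun c' hc' i hi => h i (by
      rintro ⟨hs, _⟩
      have := suf_eq hi hs (by simp)
      simp at this
      exact hc' this))
    simp only [Ch]
    rw [h3, h4, ← h1, ← h2]

omit [Fintype σ] in
theorem ch_congrB (kids : List σ → Finset σ) (K m : ℕ) (lb lb' : List σ → ℕ) :
    ∀ l : List σ, (∀ i, (∃ r, r <:+ l ∧ r.length = m + 1 ∧ r <:+ i) → lb i = lb' i) →
      (Ch kids K m lb l ↔ Ch kids K m lb' l)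
  | [], _ => Iff.rfl
  | c :: l, h => by
    by_cases hl : l.length ≤ m
    · simp only [Ch, hl, true_or]
    · have hr : ∃ r, r <:+ l ∧ r.length = m + 1 :=
        ⟨l.drop (l.length - (m + 1)), List.drop_suffix _ _, by simp; omega⟩
      obtain ⟨r, hr1, hr2⟩ := hr
      have hr3 : r <:+ c :: l := hr1.trans (List.suffix_cons c l)
      have h1 : lb (c :: l) = lb' (c :: l) := h _ ⟨r, hr3, hr2, hr3⟩
      have h2 : lb l = lb' l := h _ ⟨r, hr3, hr2, hr1⟩
      have h3 := ch_congrB kids K m lb lb' l (fun i ⟨r', a1, a2, a3⟩ =>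
        h i ⟨r', a1.trans (List.suffix_cons c l), a2, a3⟩)
      have h4 := side_congr kids lb lb' l c (lb (c :: l)) (fun c' _ i hi =>
        h i ⟨r, hr3, hr2, (hr1.trans (List.suffix_cons c' l)).trans hi⟩)
      simp only [Ch]
      rw [h3, h4, ← h1, ← h2]

omit [Fintype σ] [DecidableEq σ] in
theorem lab_congr {K : ℕ} {ω ω' : Nd σ K → Fin K} (P : List σ → Prop)
    (h : ∀ i ∈ {i : Nd σ K | P i.1}, ω i = ω' i) (l : List σ) (hl : P l) :
    lab ω l = lab ω' l := by
  unfold lab
  split_ifs with h1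
  · rw [h ⟨l, h1⟩ hl]
  · rfl

omit [Fintype σ] [DecidableEq σ] in
theorem lab_lt {K : ℕ} (hK : 0 < K) (ω : Nd σ K → Fin K) (l : List σ) : lab ω l < K := by
  unfold lab
  split_ifs with h1
  · exact (ω _).2
  · exact hK

theorem ind_and (P Q : Prop) : ind (P ∧ Q) = ind P * ind Q := by
  by_cases hP : P <;> by_cases hQ : Q <;> simp [ind, hP, hQ]

theorem ind_mono {P Q : Prop} (h : P → Q) : ind P ≤ ind Q := by
  by_cases hP : P
  · rw [ind_pos hP, ind_pos (h hP)]
  · rw [ind_neg hP]; exact ind_nonneg _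

theorem ind_congr {P Q : Prop} (h : P ↔ Q) : ind P = ind Q := by rw [propext h]

omit [Fintype σ] in
theorem ind_side (kids : List σ → Finset σ) (lb : List σ → ℕ) (l : List σ) (c : σ) (j : ℕ) :
    ind (side kids lb l c j) = ∏ c' ∈ (kids l).erase c, (1 - ind (acc kids lb l c' j)) := by
  by_cases h : side kids lb l c j
  · rw [ind_pos h, Finset.prod_eq_one]
    intro c' hc'
    rw [ind_neg (h c' hc')]; ring
  · rw [ind_neg h]
    unfold side at h
    push Not at h
    obtain ⟨c', hc', ha⟩ := h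
    exact (Finset.prod_eq_zero hc' (by rw [ind_pos ha]; ring)).symm

theorem side_le (kids : List σ → Finset σ) {K : ℕ} (hK : 0 < K) (B : ℕ → ℝ)
    (hB : ∀ l, Valid kids l → l ≠ [] → ∀ j ≤ K, tβ kids K j l ≤ B j)
    (hhalf : ∀ l, Valid kids l → ∀ c ∈ kids l, ∀ j ≤ K,
      (K : ℝ)⁻¹ * ∑ i ∈ range j, tβ kids K i (c :: l) ≤ 1 / 2)
    {l : List σ} {c : σ} (hv : Valid kids l) (hne : l ≠ []) (hc : c ∈ kids l) {j : ℕ}
    (hj : j ≤ K) (hl : l.length + j ≤ K + 1) :
    (𝔼 ω : Nd σ K → Fin K, ind (side kids (lab ω) l c j)) ≤ 2 * B j := by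
  haveI : Nonempty (Fin K) := ⟨⟨0, hK⟩⟩
  have h1 : (𝔼 ω : Nd σ K → Fin K, ind (side kids (lab ω) l c j)) =
      ∏ c' ∈ (kids l).erase c, (1 - (K : ℝ)⁻¹ * ∑ i ∈ range j, tβ kids K i (c' :: l)) := by
    simp only [ind_side]
    rw [expect_prod_of_disjoint ((kids l).erase c)
      (fun c' (ω : Nd σ K → Fin K) => 1 - ind (acc kids (lab ω) l c' j))
      (fun c' => {i : Nd σ K | c' :: l <:+ i.1})]
    · refine Finset.prod_congr rfl fun c' _ => ?_
      rw [Finset.expect_sub_distrib, Finset.expect_const Finset.univ_nonempty,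
        ← tree_acc kids hK j l c' hj hl]
      rfl
    · intro c' _ ω ω' h
      have := acc_congr kids (lab ω) (lab ω') l c' j
        (fun i hi => lab_congr (fun i => c' :: l <:+ i) h i hi)
      simp only [ind_congr this]
    · intro c1 _ c2 _ hne
      rw [Set.disjoint_left]
      intro i hi1 hi2
      have := suf_eq hi1 hi2 (by simp)
      simp at this
      exact hne this
  rw [h1]
  have h2 := hB l hv hne j hj
  rw [tβ_eq, ← Finset.mul_prod_erase _ _ hc] at h2
  have h3 := hhalf l hv c hc j hj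
  have h4 : 0 ≤ ∏ c' ∈ (kids l).erase c,
      (1 - (K : ℝ)⁻¹ * ∑ i ∈ range j, tβ kids K i (c' :: l)) :=
    Finset.prod_nonneg fun c' hc' => by
      have := hhalf l hv c' (Finset.mem_of_mem_erase hc') j hj
      linarith
  nlinarith

theorem pow_step {x h : ℝ} (hx : 0 ≤ x) (hh : 0 ≤ h) (e : ℕ) :
    x ^ (e + 1) + (e + 1) * h * x ^ e ≤ (h + x) ^ (e + 1) := by
  induction e with
  | zero => simp; linarith
  | succ e ih =>
    have h1 : 0 ≤ x ^ e := pow_nonneg hx e
    have h2 : (h + x) ^ (e + 1 + 1) = (h + x) ^ (e + 1) * (h + x) := pow_succ _ _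
    have h3 : (x ^ (e + 1) + (e + 1) * h * x ^ e) * (h + x) ≤ (h + x) ^ (e + 1) * (h + x) :=
      mul_le_mul_of_nonneg_right ih (by linarith)
    have h4 : 0 ≤ ((e : ℝ) + 1) * h * x ^ e * h := by positivity
    rw [h2]
    refine le_trans ?_ h3
    push_cast
    rw [pow_succ x (e + 1), pow_succ x e]
    nlinarith

theorem sum_step (h : ℕ → ℝ) (hh : ∀ j, 0 ≤ h j) (K e : ℕ) :
    ∀ n t, t + n = K →
      ∑ j ∈ Ico t K, h j * ((∑ i ∈ Ico (j + 1) K, h i) ^ e / e.factorial) ≤
        (∑ i ∈ Ico t K, h i) ^ (e + 1) / (e + 1).factorial := by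
  intro n
  induction n with
  | zero =>
    intro t ht
    have : t = K := by omega
    subst this
    simp
  | succ n ih =>
    intro t ht
    have htK : t < K := by omega
    rw [Finset.sum_eq_sum_Ico_succ_bot htK, Finset.sum_eq_sum_Ico_succ_bot htK h]
    have h1 := ih (t + 1) (by omega)
    have hx : 0 ≤ ∑ i ∈ Ico (t + 1) K, h i := Finset.sum_nonneg fun i _ => hh i
    have h2 := pow_step hx (hh t) e
    set x := ∑ i ∈ Ico (t + 1) K, h i with hxdef
    have hf : (0 : ℝ) < e.factorial := by exact_mod_cast e.factorial_pos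
    have hf' : ((e + 1).factorial : ℝ) = (e + 1) * e.factorial := by
      rw [Nat.factorial_succ]; push_cast; ring
    have h3 : h t * (x ^ e / e.factorial) + x ^ (e + 1) / (e + 1).factorial =
        (x ^ (e + 1) + (e + 1) * h t * x ^ e) / (e + 1).factorial := by
      rw [hf']; field_simp; ring
    have h4 : (x ^ (e + 1) + (e + 1) * h t * x ^ e) / (e + 1).factorial ≤
        (h t + x) ^ (e + 1) / (e + 1).factorial :=
      div_le_div_of_nonneg_right h2 (by positivity)
    linarith

theorem ind_expect_le_one {K : ℕ} (hK : 0 < K) (P : (Nd σ K → Fin K) → Prop) :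
    (𝔼 ω : Nd σ K → Fin K, ind (P ω)) ≤ 1 := by
  haveI : Nonempty (Fin K) := ⟨⟨0, hK⟩⟩
  exact Finset.expect_le Finset.univ_nonempty fun ω _ => ind_le_one _

theorem ind_expect_nonneg {K : ℕ} (P : (Nd σ K → Fin K) → Prop) :
    0 ≤ (𝔼 ω : Nd σ K → Fin K, ind (P ω)) :=
  Finset.expect_nonneg fun ω _ => ind_nonneg _

theorem chain_le (kids : List σ → Finset σ) {K : ℕ} (hK : 0 < K) (B : ℕ → ℝ)
    (hB0 : ∀ j, 0 ≤ B j)
    (hB : ∀ l, Valid kids l → l ≠ [] → ∀ j ≤ K, tβ kids K j l ≤ B j)
    (hhalf : ∀ l, Valid kids l → ∀ c ∈ kids l, ∀ j ≤ K,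
      (K : ℝ)⁻¹ * ∑ i ∈ range j, tβ kids K i (c :: l) ≤ 1 / 2) (m : ℕ) (e : ℕ) :
    ∀ (l : List σ), Valid kids l → l.length = m + 1 + e → ∀ t, t ≤ K →
      (𝔼 ω : Nd σ K → Fin K, ind (Ch kids K m (lab ω) l ∧ t ≤ lab ω l)) ≤
        (∑ i ∈ Ico t K, (K : ℝ)⁻¹ * (2 * B i)) ^ e / e.factorial := by
  haveI : Nonempty (Fin K) := ⟨⟨0, hK⟩⟩
  induction e with
  | zero =>
    intro l _ _ t _
    simpa using ind_expect_le_one hK _
  | succ e ih =>
    intro l hv hlen t ht
    cases l with
    | nil => simp at hlen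
    | cons c l =>
      obtain ⟨hv', hc⟩ := valid_cons.1 hv
      have hlen' : l.length = m + 1 + e := by simp at hlen; omega
      have hne : l ≠ [] := by rintro rfl; simp at hlen'; omega
      have hh : ∀ j, 0 ≤ (K : ℝ)⁻¹ * (2 * B j) := fun j => by have := hB0 j; positivity
      refine le_trans ?_ (sum_step (fun i => (K : ℝ)⁻¹ * (2 * B i)) hh K e (K - t) t (by omega))
      have hpt : ∀ ω : Nd σ K → Fin K,
          ind (Ch kids K m (lab ω) (c :: l) ∧ t ≤ lab ω (c :: l)) ≤
            ∑ j ∈ Ico t K, ind (l.length + 1 + j ≤ K) *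
              (ind (Ch kids K m (lab ω) l ∧ j + 1 ≤ lab ω l) *
                (ind (lab ω (c :: l) = j) * ind (side kids (lab ω) l c j))) := by
        intro ω
        have hnn : ∀ j ∈ Ico t K, 0 ≤ ind (l.length + 1 + j ≤ K) *
              (ind (Ch kids K m (lab ω) l ∧ j + 1 ≤ lab ω l) *
                (ind (lab ω (c :: l) = j) * ind (side kids (lab ω) l c j))) := fun j _ =>
          mul_nonneg (ind_nonneg _) (mul_nonneg (ind_nonneg _)
            (mul_nonneg (ind_nonneg _) (ind_nonneg _)))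
        by_cases hev : Ch kids K m (lab ω) (c :: l) ∧ t ≤ lab ω (c :: l)
        · rw [ind_pos hev]
          obtain ⟨h1, h2⟩ := hev
          have h3 : ¬ l.length ≤ m := by omega
          simp only [Ch, h3, false_or] at h1
          obtain ⟨a1, a2, a3, a4⟩ := h1
          have hmem : lab ω (c :: l) ∈ Ico t K := Finset.mem_Ico.2 ⟨h2, lab_lt hK ω _⟩
          refine le_trans ?_ (Finset.single_le_sum hnn hmem)
          rw [ind_pos a4, ind_pos ⟨a1, a2⟩, ind_pos rfl, ind_pos a3]; norm_num
        · rw [ind_neg hev]; exact Finset.sum_nonneg hnn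
      refine le_trans (Finset.expect_le_expect fun ω _ => hpt ω) ?_
      rw [Finset.expect_sum_comm]
      refine Finset.sum_le_sum fun j hj => ?_
      have hjK : j < K := (Finset.mem_Ico.1 hj).2
      have hx : 0 ≤ (∑ i ∈ Ico (j + 1) K, (K : ℝ)⁻¹ * (2 * B i)) ^ e / e.factorial := by
        have : 0 ≤ ∑ i ∈ Ico (j + 1) K, (K : ℝ)⁻¹ * (2 * B i) :=
          Finset.sum_nonneg fun i _ => hh i
        positivity
      by_cases hlj : l.length + 1 + j ≤ K
      · simp only [ind_pos hlj, one_mul]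
        have hlK : (c :: l).length ≤ K + 1 := by simp; omega
        rw [expect_mul_of_disjoint
          (fun ω : Nd σ K → Fin K => ind (Ch kids K m (lab ω) l ∧ j + 1 ≤ lab ω l))
          (fun ω : Nd σ K → Fin K => ind (lab ω (c :: l) = j) * ind (side kids (lab ω) l c j))
          {i : Nd σ K | ¬ (l <:+ i.1 ∧ i.1 ≠ l)}]
        · rw [expect_mul_of_disjoint
            (fun ω : Nd σ K → Fin K => ind (lab ω (c :: l) = j))
            (fun ω : Nd σ K → Fin K => ind (side kids (lab ω) l c j))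
            {i : Nd σ K | i.1 = c :: l}]
          · have e1 : (𝔼 ω : Nd σ K → Fin K, ind (lab ω (c :: l) = j)) = (K : ℝ)⁻¹ := by
              rw [← expect_coord (I := Nd σ K) (K := K) ⟨c :: l, hlK⟩ hjK]
              refine Finset.expect_congr rfl fun ω _ => ?_
              simp only [lab, dif_pos hlK]
            rw [e1]
            have e2 := side_le kids hK B hB hhalf hv' hne hc hjK.le (by omega)
            have e3 := ih l hv' hlen' (j + 1) hjK
            have e4 := ind_expect_nonneg (K := K) (fun ω => side kids (lab ω) l c j)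
            have e5 : (0 : ℝ) ≤ (K : ℝ)⁻¹ := by positivity
            rw [mul_comm ((K : ℝ)⁻¹ * (2 * B j))]
            exact mul_le_mul e3 (mul_le_mul_of_nonneg_left e2 e5) (mul_nonneg e5 e4) hx
          · intro ω ω' h
            have := lab_congr (fun i => i = c :: l) h (c :: l) rfl
            simp only [this]
          · intro ω ω' h
            have := side_congr kids (lab ω) (lab ω') l c j (fun c' hc' i hi =>
              lab_congr (fun i => ¬ i = c :: l) h i (by
                rintro rfl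
                have := suf_eq hi (List.suffix_refl _) (by simp)
                simp at this
                exact hc' this))
            simp only [ind_congr this]
        · intro ω ω' h
          have h1 := ch_congrA kids K m (lab ω) (lab ω') l
            (fun i hi => lab_congr (fun i => ¬ (l <:+ i ∧ i ≠ l)) h i hi)
          have h2 := lab_congr (fun i => ¬ (l <:+ i ∧ i ≠ l)) h l (by simp)
          simp only [h1, h2]
        · intro ω ω' h
          have h0 : ∀ i, (l <:+ i ∧ i ≠ l) → lab ω i = lab ω' i := fun i hi =>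
            lab_congr (fun i => l <:+ i ∧ i ≠ l) (fun i hi => h i (by simpa using hi)) i hi
          have h1 := h0 (c :: l) ⟨List.suffix_cons c l, List.cons_ne_self c l⟩
          have h2 := side_congr kids (lab ω) (lab ω') l c j (fun c' _ i hi =>
            h0 i ⟨(List.suffix_cons c' l).trans hi, by
              rintro rfl
              have := hi.length_le
              simp at this⟩)
          simp only [h1, ind_congr h2]
      · simp only [ind_neg hlj, zero_mul, Finset.expect_const_zero]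
        exact mul_nonneg (hh j) hx

theorem chain_wt (kids : List σ → Finset σ) {K : ℕ} (hK : 0 < K) (B : ℕ → ℝ)
    (hB0 : ∀ j, 0 ≤ B j)
    (hB : ∀ l, Valid kids l → l ≠ [] → ∀ j ≤ K, tβ kids K j l ≤ B j)
    (hhalf : ∀ l, Valid kids l → ∀ c ∈ kids l, ∀ j ≤ K,
      (K : ℝ)⁻¹ * ∑ i ∈ range j, tβ kids K i (c :: l) ≤ 1 / 2) (m d : ℕ)
    (l : List σ) (hv : Valid kids l) (hl : l.length = m + d) :
    (𝔼 ω : Nd σ K → Fin K, ind (Ch kids K m (lab ω) l)) ≤
      wt ((K : ℝ)⁻¹ * ∑ j ∈ range K, 2 * B j) d := by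
  cases d with
  | zero => simpa [wt] using ind_expect_le_one hK _
  | succ e =>
    have := chain_le kids hK B hB0 hB hhalf m e l hv (by omega) 0 (Nat.zero_le _)
    simp only [Nat.zero_le, and_true] at this
    rw [← Finset.mul_sum, ← Finset.range_eq_Ico] at this
    simpa [wt] using this

end TPX

open TPX in
/-- probability that two nodes are both active -/
theorem tree_pair (kids : List σ → Finset σ) {K : ℕ} (hK : 0 < K) (B : ℕ → ℝ)
    (hB0 : ∀ j, 0 ≤ B j)
    (hB : ∀ l, Valid kids l → l ≠ [] → ∀ j ≤ K, tβ kids K j l ≤ B j)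
    (hhalf : ∀ l, Valid kids l → ∀ c ∈ kids l, ∀ j ≤ K,
      (K : ℝ)⁻¹ * ∑ i ∈ range j, tβ kids K i (c :: l) ≤ 1 / 2)
    {a b i : ℕ} {l0 l1 l2 : List σ} (h0 : l0 ∈ ext kids [] a) (h1 : l1 ∈ ext kids l0 b)
    (h2 : l2 ∈ ext kids l0 i) (hd : Div l0 l1 l2) :
    (𝔼 ω : Nd σ K → Fin K, ind (Act kids K (lab ω) l1 ∧ Act kids K (lab ω) l2)) ≤
      wt ((K : ℝ)⁻¹ * ∑ j ∈ range K, 2 * B j) a * wt ((K : ℝ)⁻¹ * ∑ j ∈ range K, 2 * B j) b *
        wt ((K : ℝ)⁻¹ * ∑ j ∈ range K, 2 * B j) i := by
  haveI : Nonempty (Fin K) := ⟨⟨0, hK⟩⟩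
  have v0 : Valid kids l0 := valid_of_mem_ext (valid_nil kids) h0
  have v1 : Valid kids l1 := valid_of_mem_ext v0 h1
  have v2 : Valid kids l2 := valid_of_mem_ext v0 h2
  have n0 : l0.length = 0 + a := by simpa using length_of_mem_ext h0
  have n1 := length_of_mem_ext h1
  have n2 := length_of_mem_ext h2
  have s1 := suffix_of_mem_ext h1
  have s2 := suffix_of_mem_ext h2
  have w0 := chain_wt kids hK B hB0 hB hhalf 0 a l0 v0 n0
  have w1 := chain_wt kids hK B hB0 hB hhalf l0.length b l1 v1 n1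
  have w2 := chain_wt kids hK B hB0 hB hhalf l0.length i l2 v2 n2
  have hpt : ∀ ω : Nd σ K → Fin K, ind (Act kids K (lab ω) l1 ∧ Act kids K (lab ω) l2) ≤
      ind (Ch kids K 0 (lab ω) l0) *
        (ind (Ch kids K l0.length (lab ω) l1) * ind (Ch kids K l0.length (lab ω) l2)) := by
    intro ω
    rw [← ind_and, ← ind_and]
    exact ind_mono fun h => ⟨ch_of_act _ (h.1.of_suffix s1), ch_of_act _ h.1, ch_of_act _ h.2⟩
  refine le_trans (Finset.expect_le_expect fun ω _ => hpt ω) ?_
  have hbelow : ∀ l : List σ, l0 <:+ l → ∀ x : List σ,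
      (∃ r, r <:+ l ∧ r.length = l0.length + 1 ∧ r <:+ x) → l0 <:+ x ∧ x ≠ l0 := by
    rintro l hl x ⟨r, a1, a2, a3⟩
    refine ⟨(List.suffix_of_suffix_length_le hl a1 (by omega)).trans a3, ?_⟩
    rintro rfl
    have := a3.length_le
    omega
  rw [expect_mul_of_disjoint
    (fun ω : Nd σ K → Fin K => ind (Ch kids K 0 (lab ω) l0))
    (fun ω : Nd σ K → Fin K =>
      ind (Ch kids K l0.length (lab ω) l1) * ind (Ch kids K l0.length (lab ω) l2))
    {x : Nd σ K | ¬ (l0 <:+ x.1 ∧ x.1 ≠ l0)}]
  · rw [expect_mul_of_disjoint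
      (fun ω : Nd σ K → Fin K => ind (Ch kids K l0.length (lab ω) l1))
      (fun ω : Nd σ K → Fin K => ind (Ch kids K l0.length (lab ω) l2))
      {x : Nd σ K | ∃ r, r <:+ l1 ∧ r.length = l0.length + 1 ∧ r <:+ x.1}]
    · have p0 := ind_expect_nonneg (K := K) (fun ω => Ch kids K 0 (lab ω) l0)
      have p1 := ind_expect_nonneg (K := K) (fun ω => Ch kids K l0.length (lab ω) l1)
      have p2 := ind_expect_nonneg (K := K) (fun ω => Ch kids K l0.length (lab ω) l2)
      rw [mul_assoc]
      exact mul_le_mul w0 (mul_le_mul w1 w2 p2 (p1.trans w1)) (mul_nonneg p1 p2) (p0.trans w0)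
    · intro ω ω' h
      have := ch_congrB kids K l0.length (lab ω) (lab ω') l1 (fun x hx =>
        lab_congr (fun x => ∃ r, r <:+ l1 ∧ r.length = l0.length + 1 ∧ r <:+ x) h x hx)
      simp only [ind_congr this]
    · intro ω ω' h
      have := ch_congrB kids K l0.length (lab ω) (lab ω') l2 (fun x hx =>
        lab_congr (fun x => ¬ ∃ r, r <:+ l1 ∧ r.length = l0.length + 1 ∧ r <:+ x) h x (by
          rintro ⟨r, a1, a2, a3⟩
          obtain ⟨r', b1, b2, b3⟩ := hx
          have := suf_eq a3 b3 (by omega)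
          subst this
          have := (hd r a1 b1).length_le
          omega))
      simp only [ind_congr this]
  · intro ω ω' h
    have := ch_congrA kids K 0 (lab ω) (lab ω') l0
      (fun x hx => lab_congr (fun x => ¬ (l0 <:+ x ∧ x ≠ l0)) h x hx)
    simp only [ind_congr this]
  · intro ω ω' h
    have h0 : ∀ x, (l0 <:+ x ∧ x ≠ l0) → lab ω x = lab ω' x := fun x hx =>
      lab_congr (fun x => l0 <:+ x ∧ x ≠ l0) (fun x hx => h x (by simpa using hx)) x hx
    have e1 := ch_congrB kids K l0.length (lab ω) (lab ω') l1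
      (fun x hx => h0 x (hbelow l1 s1 x hx))
    have e2 := ch_congrB kids K l0.length (lab ω) (lab ω') l2
      (fun x hx => h0 x (hbelow l2 s2 x hx))
    simp only [ind_congr e1, ind_congr e2]

end Crest.Agent.R30
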