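import Crest.Agent.R30.LinODE
import Crest.Agent.R30.Tau

set_option autoImplicit false

open Finset
open scoped BigOperators Classical
open Crest.CombinatoricsR.TriangleRemoval

namespace Crest.Agent.R30

namespace UODEX

theorem prod_bd {ι : Type} [DecidableEq ι] (s : Finset ι) (y : ι → ℝ) {g : ℝ} (hg0 : 0 ≤ g)
    (hg : g ≤ 1 / 2) (hy : ∀ i ∈ s, 0 ≤ y i ∧ y i ≤ g) (i0 : ι) :
    Real.exp (-(∑ i ∈ s, y i) - 2 * g * ∑ i ∈ s, y i) ≤ ∏ i ∈ s.erase i0, (1 - y i) ∧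
      ∏ i ∈ s.erase i0, (1 - y i) ≤ Real.exp (-(∑ i ∈ s, y i) + g) := by
  have h1 : ∑ i ∈ s.erase i0, y i ≤ ∑ i ∈ s, y i :=
    sum_le_sum_of_subset_of_nonneg (erase_subset _ _) fun i hi _ => (hy i hi).1
  have h2 : ∑ i ∈ s, y i ≤ ∑ i ∈ s.erase i0, y i + g := by
    by_cases h : i0 ∈ s
    · rw [← sum_erase_add _ _ h]; linarith [(hy i0 h).2]
    · rw [erase_eq_of_notMem h]; linarith
  constructor
  · calc _ ≤ Real.exp (∑ i ∈ s.erase i0, -((1 + 2 * g) * y i)) := by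
          refine Real.exp_le_exp.2 ?_
          rw [sum_neg_distrib, ← mul_sum]
          nlinarith
      _ = ∏ i ∈ s.erase i0, Real.exp (-((1 + 2 * g) * y i)) := Real.exp_sum _ _
      _ ≤ _ := by
          refine prod_le_prod (fun i _ => (Real.exp_pos _).le) fun i hi => ?_
          obtain ⟨a1, a2⟩ := hy i (mem_of_mem_erase hi)
          have a3 := Real.add_one_le_exp ((1 + 2 * g) * y i)
          have a4 : 0 ≤ 1 - y i := by linarith
          rw [Real.exp_neg, inv_le_iff_one_le_mul₀ (Real.exp_pos _)]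
          have a5 := mul_le_mul_of_nonneg_left a3 a4
          have a6 : y i * (1 + 2 * g) ≤ 2 * g := by nlinarith
          nlinarith
  · calc _ ≤ ∏ i ∈ s.erase i0, Real.exp (-y i) :=
          prod_le_prod (fun i hi => by linarith [(hy i (mem_of_mem_erase hi)).2]) fun i _ => by
            linarith [Real.add_one_le_exp (-y i)]
      _ = Real.exp (∑ i ∈ s.erase i0, -y i) := (Real.exp_sum _ _).symm
      _ ≤ _ := by
          refine Real.exp_le_exp.2 ?_
          rw [sum_neg_distrib]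
          linarith

theorem two_bd {t d1 d2 r g u1 u2 : ℝ} (hr : 0 < r) (hr1 : r ≤ 1 / 10) (hg0 : 0 ≤ g)
    (hg : g ≤ r ^ 2) (h1 : |d1| ≤ r) (h2 : |d2| ≤ r)
    (a1 : Real.exp (-t + d1 - g) ≤ u1) (a2 : u1 ≤ Real.exp (-t + d1 + g))
    (b1 : Real.exp (-t + d2 - g) ≤ u2) (b2 : u2 ≤ Real.exp (-t + d2 + g)) :
    0 ≤ u1 * u2 ∧ u1 * u2 ≤ 2 * Real.exp (-(2 * t)) ∧
      |u1 * u2 - Real.exp (-(2 * t)) * (1 + (d1 + d2))| ≤ 7 * r ^ 2 * Real.exp (-(2 * t)) := by
  have p1 : 0 ≤ u1 := (Real.exp_pos _).le.trans a1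
  have p2 : 0 ≤ u2 := (Real.exp_pos _).le.trans b1
  have hE := Real.exp_pos (-(2 * t))
  obtain ⟨h11, h12⟩ := abs_le.1 h1
  obtain ⟨h21, h22⟩ := abs_le.1 h2
  have hrr : r ^ 2 ≤ r / 10 := by nlinarith
  have lo : Real.exp (-(2 * t)) * (1 + (d1 + d2) - 2 * g) ≤ u1 * u2 :=
    calc _ ≤ Real.exp (-(2 * t)) * Real.exp (d1 + d2 - 2 * g) := by
          refine mul_le_mul_of_nonneg_left ?_ hE.le
          linarith [Real.add_one_le_exp (d1 + d2 - 2 * g)]
      _ = Real.exp (-t + d1 - g) * Real.exp (-t + d2 - g) := by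
          rw [← Real.exp_add, ← Real.exp_add]; congr 1; ring
      _ ≤ _ := mul_le_mul a1 b1 (Real.exp_pos _).le p1
  have hY : |d1 + d2 + 2 * g| ≤ 22 / 10 * r := abs_le.2 ⟨by linarith, by linarith⟩
  have hi : u1 * u2 ≤ Real.exp (-(2 * t)) * (1 + (d1 + d2) + 7 * r ^ 2) :=
    calc _ ≤ Real.exp (-t + d1 + g) * Real.exp (-t + d2 + g) :=
          mul_le_mul a2 b2 p2 (Real.exp_pos _).le
      _ = Real.exp (-(2 * t)) * Real.exp (d1 + d2 + 2 * g) := by
          rw [← Real.exp_add, ← Real.exp_add]; congr 1; ring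
      _ ≤ _ := by
          refine mul_le_mul_of_nonneg_left ?_ hE.le
          have c1 := (abs_le.1 (Real.abs_exp_sub_one_sub_id_le
            (x := d1 + d2 + 2 * g) (hY.trans (by linarith)))).2
          have c2 : (d1 + d2 + 2 * g) ^ 2 ≤ (22 / 10 * r) ^ 2 := by
            rw [← sq_abs]; exact pow_le_pow_left₀ (abs_nonneg _) hY 2
          nlinarith
  refine ⟨mul_nonneg p1 p2, hi.trans ?_, abs_le.2 ⟨?_, ?_⟩⟩
  · rw [mul_comm]
    exact mul_le_mul_of_nonneg_right (by linarith) hE.le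
  · have := mul_le_mul_of_nonneg_left hg hE.le
    have := mul_nonneg hE.le (sq_nonneg r)
    linarith
  · linarith

variable {n : ℕ}

/-- accumulated acceptance probability of a child triangle -/
noncomputable def yy (G : Gr n) (K k : ℕ) (f : Sym2 (Fin n)) (T : Finset (Fin n)) : ℝ :=
  (K : ℝ)⁻¹ * ∑ j ∈ range k, ∏ g ∈ (tE T).erase f, uu G K j g T

/-- the deviation from the mean-field solution -/
noncomputable def DD (G : Gr n) (μ : ℝ) (K k : ℕ) (u v : Fin n) : ℝ :=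
  tau μ K k - ∑ T ∈ (triangles G).filter (fun T => s(u, v) ∈ T.sym2), yy G K k s(u, v) T

/-- the induction hypothesis -/
def PP (G : Gr n) (μ : ℝ) (K : ℕ) (r g : ℝ) (k : ℕ) : Prop :=
  ∀ u v, s(u, v) ∈ G → |DD G μ K k u v| ≤ r ∧ ∀ T0,
    Real.exp (-tau μ K k + DD G μ K k u v - g) ≤ uu G K k s(u, v) T0 ∧
      uu G K k s(u, v) T0 ≤ Real.exp (-tau μ K k + DD G μ K k u v + g)

theorem beta_bd {G : Gr n} (hG : NoLoop G) {μ r g : ℝ} {K j : ℕ} (hr : 0 < r) (hr1 : r ≤ 1 / 10)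
    (hg0 : 0 ≤ g) (hg : g ≤ r ^ 2) (hP : PP G μ K r g j) {u v w : Fin n} (huv : s(u, v) ∈ G)
    (hw : w ∈ nb G u ∩ nb G v) :
    0 ≤ ∏ e ∈ (tE {u, v, w}).erase s(u, v), uu G K j e {u, v, w} ∧
    ∏ e ∈ (tE {u, v, w}).erase s(u, v), uu G K j e {u, v, w} ≤
      2 * Real.exp (-(2 * tau μ K j)) ∧
    |∏ e ∈ (tE {u, v, w}).erase s(u, v), uu G K j e {u, v, w} -
      Real.exp (-(2 * tau μ K j)) * (1 + (DD G μ K j u w + DD G μ K j v w))| ≤
        7 * r ^ 2 * Real.exp (-(2 * tau μ K j)) := by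
  simp only [mem_inter, mem_nb] at hw
  obtain ⟨e1, e2⟩ := erase_tE (u := u) (v := v) (w := w) (by simpa using hG _ huv)
    (by simpa using hG _ hw.1) (by simpa using hG _ hw.2)
  rw [e1, prod_pair e2]
  obtain ⟨a1, a2⟩ := hP u w hw.1
  obtain ⟨b1, b2⟩ := hP v w hw.2
  exact two_bd hr hr1 hg0 hg a1 b1 (a2 _).1 (a2 _).2 (b2 _).1 (b2 _).2

theorem drift {G : Gr n} {p ρ δ : ℝ} (hR : Reg G p ρ δ) (hp : 0 < p) (hμ : 0 < mu n p)
    {r g : ℝ} {K j : ℕ} (hK : 0 < K) (hr : 0 < r) (hr1 : r ≤ 1 / 10) (hρ : ρ ≤ r ^ 2)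
    (hg0 : 0 ≤ g) (hg : g ≤ r ^ 2) (hP : PP G (mu n p) K r g j) {u v : Fin n}
    (huv : s(u, v) ∈ G) :
    |DD G (mu n p) K (j + 1) u v - DD G (mu n p) K j u v +
        mu n p * Real.exp (-(2 * tau (mu n p) K j)) / K * Bop G p (DD G (mu n p) K j) u v| ≤
      mu n p * Real.exp (-(2 * tau (mu n p) K j)) / K * (10 * r ^ 2) := by
  have hK' : (0 : ℝ) < K := by exact_mod_cast hK
  have hb := fun w hw => (beta_bd hR.noloop hr hr1 hg0 hg hP huv (w := w) hw).2.2
  obtain ⟨c1, c2⟩ := hR.cod_le hp huv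
  have e1 : DD G (mu n p) K (j + 1) u v - DD G (mu n p) K j u v =
      mu n p * Real.exp (-(2 * tau (mu n p) K j)) / K - (K : ℝ)⁻¹ *
        ∑ w ∈ nb G u ∩ nb G v, ∏ e ∈ (tE {u, v, w}).erase s(u, v), uu G K j e {u, v, w} := by
    simp only [DD, sum_tri_mem hR.noloop huv, yy, sum_range_succ, mul_add, sum_add_distrib, tau]
    rw [mul_sum (a := (K : ℝ)⁻¹) (s := nb G u ∩ nb G v)]
    ring
  rw [e1, Bop]
  have hE := Real.exp_pos (-(2 * tau (mu n p) K j))
  generalize Real.exp (-(2 * tau (mu n p) K j)) = E at hb hE ⊢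
  have h1 := (abs_sum_le_sum_abs _ _).trans (sum_le_card_nsmul _ _ _ hb)
  rw [sum_sub_distrib, ← mul_sum, sum_add_distrib, sum_const, nsmul_eq_mul, nsmul_eq_mul,
    mul_one] at h1
  rw [cod] at c1 c2
  generalize ((nb G u ∩ nb G v).card : ℝ) = c at c1 c2 h1
  generalize (∑ w ∈ nb G u ∩ nb G v, ∏ e ∈ (tE {u, v, w}).erase s(u, v), uu G K j e {u, v, w}) = B
    at h1 ⊢
  generalize (∑ w ∈ nb G u ∩ nb G v, (DD G (mu n p) K j u w + DD G (mu n p) K j v w)) = A
    at h1 ⊢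
  generalize mu n p = μ at *
  have e2 : μ * E / K - (K : ℝ)⁻¹ * B + μ * E / K * (μ⁻¹ * A) =
      (K : ℝ)⁻¹ * (E * (μ - c) - (B - E * (c + A))) := by
    field_simp
    ring
  have e3 : μ * E / K * (10 * r ^ 2) = (K : ℝ)⁻¹ * (E * (μ * (10 * r ^ 2))) := by ring
  rw [e2, e3, abs_mul, abs_of_pos (inv_pos.2 hK')]
  refine mul_le_mul_of_nonneg_left ?_ (inv_pos.2 hK').le
  have hr2 : r ^ 2 ≤ 1 / 100 := by nlinarith
  have d0 : ρ * μ ≤ r ^ 2 * μ := mul_le_mul_of_nonneg_right hρ hμ.le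
  have d1 : |μ - c| ≤ r ^ 2 * μ := abs_le.2 ⟨by linarith, by linarith⟩
  have d2 : c ≤ 9 / 7 * μ := by nlinarith
  have d3 : c * (7 * r ^ 2 * E) ≤ 9 / 7 * μ * (7 * r ^ 2 * E) :=
    mul_le_mul_of_nonneg_right d2 (by positivity)
  have d4 : |E * (μ - c)| ≤ E * (r ^ 2 * μ) := by
    rw [abs_mul, abs_of_pos hE]; exact mul_le_mul_of_nonneg_left d1 hE.le
  refine (abs_sub _ _).trans ?_
  linarith

end UODEX

open UODEX in
/-- the tree survival probabilities follow the mean-field solution -/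
theorem u_bounds (q : ℕ) (hq : Even q) (hq2 : 2 ≤ q) (γ : ℝ) (hγ : 0 < γ) :
    ∃ δ0 C : ℝ, 0 < δ0 ∧ δ0 ≤ 1 / 2 ∧ 0 < C ∧
      ∀ (n : ℕ) (G : Gr n) (p ρ δ ρ' : ℝ) (K : ℕ), 0 < p → p ≤ 1 → Reg G p ρ δ → ρ ≤ δ0 →
        δ ≤ δ0 → 0 < K → 0 < mu n p → 0 < ρ' → ρ' ≤ 1 / 10 → ρ ≤ ρ' ^ 2 →
        2 * tau (mu n p) K K / mu n p * (2 * tau (mu n p) K K + 3) ≤ ρ' ^ 2 →
        mu n p / K ≤ ρ' ^ 4 →
        C * (n : ℝ) ^ 2 * (10 * ρ' ^ 2) ^ q * Real.exp (q * γ * tau (mu n p) K K) ≤ ρ' ^ q →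
        ∀ k ≤ K, ∀ f ∈ G, ∀ T0 : Finset (Fin n),
          Real.exp (-tau (mu n p) K k - 2 * ρ') ≤ uu G K k f T0 ∧
            uu G K k f T0 ≤ Real.exp (-tau (mu n p) K k + 2 * ρ') := by
  obtain ⟨δ0, C, h1, h2, h3, H⟩ := lin_ode q hq hq2 γ hγ
  refine ⟨δ0, C, h1, h2, h3,
    fun n G p ρ δ r K hp hp1 hR hρ hδ hK hμ hr hr1 hρr hg hμK hC => ?_⟩
  have hK' : (0 : ℝ) < K := by exact_mod_cast hK
  have hτ0 := tau_nonneg hμ.le K K
  have hr2 : r ^ 2 ≤ r / 10 := by nlinarith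
  have hg1 : 0 ≤ 2 * tau (mu n p) K K / mu n p := by positivity
  have key : ∀ k ≤ K, PP G (mu n p) K r (r ^ 2) k := by
    intro k
    induction k using Nat.strong_induction_on with
    | _ k ih =>
      intro hk u v huv
      have ih' : ∀ j < k, PP G (mu n p) K r (r ^ 2) j := fun j hj => ih j hj (by omega)
      have hτk := tau_mono hμ.le K hk
      have hD : |DD G (mu n p) K k u v| ≤ r := by
        have a1 := H n G p ρ δ hp hp1 hR hρ hδ
          (fun j => mu n p * Real.exp (-(2 * tau (mu n p) K j)) / K) (DD G (mu n p) K)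
          (10 * r ^ 2) k (by positivity) (by linarith) (fun j _ => ⟨by positivity, ?_⟩)
          (fun u v _ => by simp [DD, yy, tau])
          (fun j hj u v huv => (ih' j hj u v huv).1.trans (by linarith))
          (fun j hj u v huv => drift hR hp hμ hK hr hr1 hρr (sq_nonneg r) le_rfl (ih' j hj) huv)
          u v huv
        · rw [← tau_eq_sum] at a1
          have a2 : C * (n : ℝ) ^ 2 * (10 * r ^ 2) ^ q * Real.exp (q * γ * tau (mu n p) K k) ≤
              C * (n : ℝ) ^ 2 * (10 * r ^ 2) ^ q * Real.exp (q * γ * tau (mu n p) K K) := by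
            gcongr
          have a3 : |DD G (mu n p) K k u v| ^ q ≤ r ^ q := by
            rw [hq.pow_abs]; exact a1.trans (a2.trans hC)
          exact (pow_le_pow_iff_left₀ (abs_nonneg _) hr.le (by omega)).1 a3
        · have a1 : Real.exp (-(2 * tau (mu n p) K j)) ≤ 1 :=
            Real.exp_le_one_iff.2 (by linarith [tau_nonneg hμ.le K j])
          have a2 : mu n p * Real.exp (-(2 * tau (mu n p) K j)) / K ≤ mu n p / K := by
            gcongr
            exact mul_le_of_le_one_right hμ.le a1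
          have a3 : 0 ≤ r ^ 4 := by positivity
          calc _ ≤ r ^ 4 := a2.trans hμK
            _ ≤ 100 * r ^ 4 := by linarith
            _ = _ := by ring
      refine ⟨hD, fun T0 => ?_⟩
      have hy : ∀ T ∈ (triangles G).filter (fun T => s(u, v) ∈ T.sym2),
          0 ≤ yy G K k s(u, v) T ∧ yy G K k s(u, v) T ≤ 2 * tau (mu n p) K K / mu n p := by
        intro T hT
        obtain ⟨w, hw, rfl⟩ := exists_apex hR.noloop huv (mem_filter.1 hT).1 (mem_filter.1 hT).2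
        have hb := fun j (hj : j ∈ range k) =>
          beta_bd hR.noloop hr hr1 (sq_nonneg r) le_rfl (ih' j (mem_range.1 hj)) huv hw
        refine ⟨mul_nonneg (inv_pos.2 hK').le (sum_nonneg fun j hj => (hb j hj).1), ?_⟩
        calc _ ≤ (K : ℝ)⁻¹ * ∑ j ∈ range k, 2 * Real.exp (-(2 * tau (mu n p) K j)) :=
              mul_le_mul_of_nonneg_left (sum_le_sum fun j hj => (hb j hj).2.1) (inv_pos.2 hK').le
          _ = 2 * tau (mu n p) K k / mu n p := by
              rw [tau_eq_sum (mu n p) K k, mul_sum, mul_sum, sum_div]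
              refine sum_congr rfl fun j _ => ?_
              field_simp
          _ ≤ _ := by gcongr
      obtain ⟨b1, b2⟩ := prod_bd _ _ hg1 (by nlinarith) hy T0
      have e1 : uu G K k s(u, v) T0 = ∏ T ∈ ((triangles G).filter
          (fun T => s(u, v) ∈ T.sym2)).erase T0, (1 - yy G K k s(u, v) T) := by
        rw [uu_eq]
        refine prod_congr ?_ fun _ _ => rfl
        ext T
        simp only [mem_filter, mem_erase]
        tauto
      have e2 : ∑ T ∈ (triangles G).filter (fun T => s(u, v) ∈ T.sym2), yy G K k s(u, v) T =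
          tau (mu n p) K k - DD G (mu n p) K k u v := by rw [DD]; ring
      rw [e2] at b1 b2
      rw [e1]
      obtain ⟨d1, d2⟩ := abs_le.1 hD
      refine ⟨le_trans (Real.exp_le_exp.2 ?_) b1, b2.trans (Real.exp_le_exp.2 ?_)⟩
      · have := mul_le_mul_of_nonneg_left (show 2 * (tau (mu n p) K k - DD G (mu n p) K k u v) ≤
          2 * tau (mu n p) K K + 3 by linarith) hg1
        linarith
      · have := mul_le_mul_of_nonneg_left (show (1 : ℝ) ≤ 2 * tau (mu n p) K K + 3 by linarith) hg1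
        linarith
  intro k hk f hf T0
  induction f using Sym2.ind with
  | _ u v =>
    obtain ⟨a1, a2⟩ := key k hk u v hf
    obtain ⟨d1, d2⟩ := abs_le.1 a1
    exact ⟨le_trans (Real.exp_le_exp.2 (by linarith)) (a2 T0).1,
      (a2 T0).2.trans (Real.exp_le_exp.2 (by linarith))⟩

end Crest.Agent.R30
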