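import Crest.Agent.R30.Basic

set_option autoImplicit false

open Finset
open scoped BigOperators Classical
open Crest.CombinatoricsR.TriangleRemoval

namespace Crest.Agent.R30

variable {n : ℕ}

namespace ValX

theorem zero (φ : ℕ → ℝ) {G : Gr n} (h : Q G = 0) (f : ℕ) : expectFinal φ f G = φ G.card := by
  cases f with
  | zero => rfl
  | succ f => exact if_pos h

theorem succ (φ : ℕ → ℝ) {G : Gr n} (h : Q G ≠ 0) (f : ℕ) :
    expectFinal φ (f + 1) G = avgT G fun T => expectFinal φ f (rem G T) := if_neg h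

theorem three_le {G : Gr n} (hG : NoLoop G) (h : Q G ≠ 0) : 3 ≤ G.card := by
  obtain ⟨T, hT⟩ := card_ne_zero.1 h
  have := card_rem hG hT
  omega

theorem avg_congr (G : Gr n) {f g : Finset (Fin n) → ℝ} (h : ∀ T ∈ triangles G, f T = g T) :
    avgT G f = avgT G g := by
  unfold avgT
  rw [sum_congr rfl h]

theorem fuel (φ : ℕ → ℝ) (f : ℕ) : ∀ (f' : ℕ) (G : Gr n), NoLoop G → G.card ≤ f → G.card ≤ f' →
    expectFinal φ f G = expectFinal φ f' G := by
  induction f with
  | zero =>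
    intro f' G hG h _
    by_cases hQ : Q G = 0
    · rw [zero φ hQ, zero φ hQ]
    · have := three_le hG hQ
      omega
  | succ f ih =>
    intro f' G hG h h'
    by_cases hQ : Q G = 0
    · rw [zero φ hQ, zero φ hQ]
    · have := three_le hG hQ
      obtain ⟨f'', rfl⟩ : ∃ k, f' = k + 1 := ⟨f' - 1, by omega⟩
      rw [succ φ hQ, succ φ hQ]
      refine avg_congr G fun T hT => ?_
      have := card_rem hG hT
      exact ih _ _ (hG.rem T) (by omega) (by omega)

theorem mono (G : Gr n) {f g : Finset (Fin n) → ℝ} (h : ∀ T ∈ triangles G, f T ≤ g T) :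
    avgT G f ≤ avgT G g :=
  mul_le_mul_of_nonneg_left (sum_le_sum h) (inv_nonneg.2 (Nat.cast_nonneg _))

theorem const {G : Gr n} (h : 0 < Q G) (c : ℝ) : avgT G (fun _ => c) = c := by
  have : (Q G : ℝ) ≠ 0 := by exact_mod_cast h.ne'
  rw [avgT, sum_const, nsmul_eq_mul]
  exact inv_mul_cancel_left₀ this c

theorem le (φ : ℕ → ℝ) {M : ℝ} (f : ℕ) : ∀ G : Gr n, (∀ k ≤ G.card, φ k ≤ M) →
    expectFinal φ f G ≤ M := by
  induction f with
  | zero => exact fun G h => h _ le_rfl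
  | succ f ih =>
    intro G h
    by_cases hQ : Q G = 0
    · rw [zero φ hQ]; exact h _ le_rfl
    · rw [succ φ hQ]
      exact (mono G fun T _ => ih _ fun k hk => h k (hk.trans (card_le_card sdiff_subset))).trans_eq
        (const (Nat.pos_of_ne_zero hQ) M)

theorem nonneg (φ : ℕ → ℝ) (h0 : ∀ k, 0 ≤ φ k) (f : ℕ) : ∀ G : Gr n, 0 ≤ expectFinal φ f G := by
  induction f with
  | zero => exact fun G => h0 _
  | succ f ih =>
    intro G
    by_cases hQ : Q G = 0
    · rw [zero φ hQ]; exact h0 _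
    · rw [succ φ hQ]
      exact mul_nonneg (inv_nonneg.2 (Nat.cast_nonneg _)) (sum_nonneg fun T _ => ih _)

end ValX

theorem val_of_Q_zero (φ : ℕ → ℝ) {G : Gr n} (h : Q G = 0) : val φ G = φ G.card := by
  exact ValX.zero φ h _

/-- harmonicity (the fuel `n ^ 2` never binds: prove fuel independence for `fuel ≥ G.card`) -/
theorem val_step (φ : ℕ → ℝ) {G : Gr n} (hG : NoLoop G) (h : 0 < Q G) :
    val φ G = avgT G (fun T => val φ (rem G T)) := by
  have h1 := card_le_sq G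
  rw [val, ValX.fuel φ _ (n ^ 2 + 1) G hG h1 (by omega), ValX.succ φ h.ne']
  rfl

theorem val_le (φ : ℕ → ℝ) {G : Gr n} {M : ℝ} (hM : ∀ k ≤ G.card, φ k ≤ M) : val φ G ≤ M := by
  exact ValX.le φ _ G hM

theorem val_nonneg (φ : ℕ → ℝ) (G : Gr n) (h0 : ∀ k, 0 ≤ φ k) : 0 ≤ val φ G := by
  exact ValX.nonneg φ h0 _ G

theorem avgT_mono (G : Gr n) {f g : Finset (Fin n) → ℝ} (h : ∀ T ∈ triangles G, f T ≤ g T) :
    avgT G f ≤ avgT G g := by
  exact ValX.mono G h

theorem avgT_const {G : Gr n} (h : 0 < Q G) (c : ℝ) : avgT G (fun _ => c) = c := by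
  exact ValX.const h c

theorem avgT_add (G : Gr n) (f g : Finset (Fin n) → ℝ) :
    avgT G (fun T => f T + g T) = avgT G f + avgT G g := by
  simp only [avgT, sum_add_distrib, mul_add]

theorem avgT_mul (G : Gr n) (c : ℝ) (f : Finset (Fin n) → ℝ) :
    avgT G (fun T => c * f T) = c * avgT G f := by
  simp only [avgT, ← mul_sum, mul_left_comm]

theorem avgT_sum {ι : Type*} (G : Gr n) (s : Finset ι) (f : ι → Finset (Fin n) → ℝ) :
    avgT G (fun T => ∑ i ∈ s, f i T) = ∑ i ∈ s, avgT G (f i) := by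
  simp only [avgT, ← mul_sum]
  rw [sum_comm]

theorem avgT_card_rem {G : Gr n} (hG : NoLoop G) (h : 0 < Q G) :
    avgT G (fun T => ((rem G T).card : ℝ)) = G.card - 3 := by
  rw [← avgT_const h ((G.card : ℝ) - 3)]
  refine ValX.avg_congr G fun T hT => ?_
  rw [← card_rem hG hT]
  push_cast
  ring

theorem Sup.const {G : Gr n} (h : 0 < Q G) (τ c : ℝ) : Sup (fun _ _ => c) G τ := by
  exact (avgT_const h c).le

theorem Sup.add {W W' : Gr n → ℝ → ℝ} {G : Gr n} {τ : ℝ} (h : Sup W G τ) (h' : Sup W' G τ) :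
    Sup (fun G τ => W G τ + W' G τ) G τ := by
  exact (avgT_add G _ _).trans_le (add_le_add h h')

theorem Sup.mul {W : Gr n → ℝ → ℝ} {G : Gr n} {τ c : ℝ} (hc : 0 ≤ c) (h : Sup W G τ) :
    Sup (fun G τ => c * W G τ) G τ := by
  exact (avgT_mul G c _).trans_le (mul_le_mul_of_nonneg_left h hc)

theorem Sup.sum {ι : Type*} (s : Finset ι) {W : ι → Gr n → ℝ → ℝ} {G : Gr n} {τ : ℝ}
    (h : ∀ i ∈ s, Sup (W i) G τ) : Sup (fun G τ => ∑ i ∈ s, W i G τ) G τ := by
  exact (avgT_sum G s fun i T => W i (rem G T) (τ + xs G τ)).trans_le (sum_le_sum h)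

/-- optional stopping: strong induction on `G.card` -/
theorem stop (φ : ℕ → ℝ) (gd I : Gr n → ℝ → Prop) (V : Gr n → ℝ → ℝ)
    (hI : ∀ G τ, I G τ → NoLoop G)
    (hQ : ∀ G τ, I G τ → gd G τ → 0 < Q G)
    (hstep : ∀ G τ, I G τ → gd G τ → ∀ T ∈ triangles G, I (rem G T) (τ + xs G τ))
    (hsup : ∀ G τ, I G τ → gd G τ → Sup V G τ)
    (hstop : ∀ G τ, I G τ → ¬ gd G τ → val φ G ≤ V G τ) :
    ∀ G τ, I G τ → val φ G ≤ V G τ := by
  intro G
  induction hk : G.card using Nat.strong_induction_on generalizing G with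
  | _ k ih =>
    intro τ h
    by_cases hg : gd G τ
    · rw [val_step φ (hI G τ h) (hQ G τ h hg)]
      refine (avgT_mono G fun T hT => ?_).trans (hsup G τ h hg)
      have := card_rem (hI G τ h) hT
      exact ih _ (by omega) _ rfl _ (hstep G τ h hg T hT)
    · exact hstop G τ h hg

end Crest.Agent.R30
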